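import Mathlib.LinearAlgebra.Finsupp.LinearCombination
import Mathlib.LinearAlgebra.Finsupp.LSum
import Vale.Agent.P263.E.Cofree

/-!
# P263, block G2: chains of simplicial sets `SS`, evaluation, prisms, unions

`Chn k X p = X.obj p →₀ k`, boundary `cb`, push forward `push f p`, augmentation `aug`, evaluation
`ev c : Chn k X p → k` of a cochain; `Kc K p` the prism operator of a simplicial homotopy.
-/

open Vale.Agent.P263.S Vale.Agent.P263.E

namespace Vale.Agent.P263.G2

variable (k : Type) [CommRing k]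

/-- the simplicial chains -/
abbrev Chn (X : SS) (p : ℕ) : Type := X.obj p →₀ k

/-- the action of a monotone map on chains -/
noncomputable def cmap (X : SS) {p q : ℕ} (f : Op p q) : Chn k X q →ₗ[k] Chn k X p :=
  Finsupp.lmapDomain k k (X.map f)

/-- the boundary -/
noncomputable def cb (X : SS) (p : ℕ) : Chn k X (p + 1) →ₗ[k] Chn k X p :=
  ∑ i ∈ Finset.range (p + 2), ((-1 : ℤ) ^ i) • cmap k X (dl p i)

/-- the chain map induced by a simplicial map -/
noncomputable def push {X Y : SS} (f : SS.Map X Y) (p : ℕ) : Chn k X p →ₗ[k] Chn k Y p :=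
  Finsupp.lmapDomain k k (fun x => f.app x)

/-- the augmentation -/
noncomputable def aug (X : SS) (p : ℕ) : Chn k X p →ₗ[k] k :=
  Finsupp.linearCombination k (fun _ => (1 : k))

variable {k}

/-- the evaluation of a cochain on chains -/
noncomputable def ev {X : SS} {p : ℕ} (c : (SS.F k X).obj p) : Chn k X p →ₗ[k] k :=
  Finsupp.linearCombination k (show X.obj p → k from c)

@[simp] theorem cmap_single {X : SS} {p q : ℕ} (f : Op p q) (x : X.obj q) (a : k) :
    cmap k X f (Finsupp.single x a) = Finsupp.single (X.map f x) a := by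
  rw [cmap, Finsupp.lmapDomain_apply, Finsupp.mapDomain_single]

theorem cb_apply {X : SS} {p : ℕ} (z : Chn k X (p + 1)) :
    cb k X p z = ∑ i ∈ Finset.range (p + 2), sn i (cmap k X (dl p i) z) := by
  simp [cb, sn, LinearMap.sum_apply]

theorem cb_single {X : SS} {p : ℕ} (x : X.obj (p + 1)) (a : k) :
    cb k X p (Finsupp.single x a) =
      ∑ i ∈ Finset.range (p + 2), sn i (Finsupp.single (X.map (dl p i) x) a) := by
  rw [cb_apply]
  simp only [cmap_single]

@[simp] theorem push_single {X Y : SS} (f : SS.Map X Y) {p : ℕ} (x : X.obj p) (a : k) :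
    push k f p (Finsupp.single x a) = Finsupp.single (f.app x) a := by
  rw [push, Finsupp.lmapDomain_apply, Finsupp.mapDomain_single]

@[simp] theorem aug_single {X : SS} {p : ℕ} (x : X.obj p) (a : k) :
    aug k X p (Finsupp.single x a) = a := by
  rw [aug, Finsupp.linearCombination_single, smul_eq_mul, mul_one]

@[simp] theorem ev_single {X : SS} {p : ℕ} (c : (SS.F k X).obj p) (x : X.obj p) (a : k) :
    ev c (Finsupp.single x a) = a * c x := by
  rw [ev, Finsupp.linearCombination_single, smul_eq_mul]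

theorem ev_ext {X : SS} {p : ℕ} {z w : Chn k X p} (h : ∀ c : (SS.F k X).obj p, ev c z = ev c w) :
    z = w := by
  classical
  have key : ∀ (z : Chn k X p) (x : X.obj p),
      ev (show (SS.F k X).obj p from fun y => if y = x then (1 : k) else 0) z = z x := by
    intro z x
    induction z using Finsupp.induction_linear with
    | zero => simp
    | add f g hf hg => rw [map_add, hf, hg]; rfl
    | single y a =>
      rw [ev_single, Finsupp.single_apply]
      show a * (if y = x then (1 : k) else 0) = _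
      split_ifs <;> simp
  ext x
  rw [← key z x, h, key]

/-- extensionality in the form: two linear maps out of chains which agree on generators -/
theorem chn_hom_ext {X : SS} {p : ℕ} {M : Type*} [AddCommGroup M] [Module k M]
    {f g : Chn k X p →ₗ[k] M} (h : ∀ x, f (Finsupp.single x 1) = g (Finsupp.single x 1)) :
    f = g := by
  apply Finsupp.lhom_ext
  intro x a
  have e : (Finsupp.single x a : Chn k X p) = a • Finsupp.single x 1 := by
    rw [Finsupp.smul_single, smul_eq_mul, mul_one]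
  rw [e, map_smul, map_smul, h]

theorem ev_cmap {X : SS} {p q : ℕ} (f : Op p q) (c : (SS.F k X).obj p) (z : Chn k X q) :
    ev c (cmap k X f z) = ev ((SS.F k X).map f c) z := by
  have : (ev c).comp (cmap k X f) = ev ((SS.F k X).map f c) := by
    apply chn_hom_ext
    intro x
    rw [LinearMap.comp_apply, cmap_single, ev_single, ev_single]
    rfl
  exact DFunLike.congr_fun this z

theorem ev_push {X Y : SS} (f : SS.Map X Y) {p : ℕ} (c : (SS.F k Y).obj p) (z : Chn k X p) :
    ev c (push k f p z) = ev ((f.pull (R := k)).app p c) z := by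
  have : (ev c).comp (push k f p) = ev ((f.pull (R := k)).app p c) := by
    apply chn_hom_ext
    intro x
    rw [LinearMap.comp_apply, push_single, ev_single, ev_single]
    rfl
  exact DFunLike.congr_fun this z

@[simp] theorem ev_add {X : SS} {p : ℕ} (c e : (SS.F k X).obj p) (z : Chn k X p) :
    ev (c + e) z = ev c z + ev e z := by
  have : ev (c + e) = ev c + ev e := by
    apply chn_hom_ext
    intro x
    rw [LinearMap.add_apply, ev_single, ev_single, ev_single]
    show 1 * ((c : X.obj p → k) x + (e : X.obj p → k) x) = _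
    ring
  rw [this]; rfl

@[simp] theorem ev_zero {X : SS} {p : ℕ} (z : Chn k X p) :
    ev (0 : (SS.F k X).obj p) z = 0 := by
  have : ev (0 : (SS.F k X).obj p) = 0 := by
    apply chn_hom_ext
    intro x
    rw [ev_single, LinearMap.zero_apply]
    show 1 * (0 : k) = 0
    ring
  rw [this]; rfl

theorem ev_neg {X : SS} {p : ℕ} (c : (SS.F k X).obj p) (z : Chn k X p) :
    ev (-c) z = - ev c z := by
  rw [eq_neg_iff_add_eq_zero, ← ev_add, neg_add_cancel, ev_zero]

theorem ev_sub {X : SS} {p : ℕ} (c e : (SS.F k X).obj p) (z : Chn k X p) :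
    ev (c - e) z = ev c z - ev e z := by
  rw [sub_eq_add_neg, ev_add, ev_neg, sub_eq_add_neg]

theorem ev_sum {X : SS} {p : ℕ} {ι : Type*} (s : Finset ι) (c : ι → (SS.F k X).obj p)
    (z : Chn k X p) : ev (∑ i ∈ s, c i) z = ∑ i ∈ s, ev (c i) z := by
  classical
  induction s using Finset.induction_on with
  | empty => simp
  | insert a s ha ih => rw [Finset.sum_insert ha, Finset.sum_insert ha, ev_add, ih]

theorem ev_zsmul {X : SS} {p : ℕ} (n : ℤ) (c : (SS.F k X).obj p) (z : Chn k X p) :
    ev (n • c) z = n • ev c z := by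
  have : ev (n • c) = n • ev c := by
    apply chn_hom_ext
    intro x
    rw [LinearMap.smul_apply, ev_single, ev_single]
    show 1 * (n • (c : X.obj p → k) x) = n • (1 * (c : X.obj p → k) x)
    rw [one_mul, one_mul]
  rw [this]; rfl

theorem ev_sn {X : SS} {p : ℕ} (n : ℕ) (c : (SS.F k X).obj p) (z : Chn k X p) :
    ev (sn n c) z = sn n (ev c z) := ev_zsmul _ _ _

theorem ev_cb {X : SS} {p : ℕ} (c : (SS.F k X).obj p) (z : Chn k X (p + 1)) :
    ev c (cb k X p z) = ev ((SS.F k X).d p c) z := by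
  rw [cb_apply, map_sum, CosMod.d_apply, ev_sum]
  refine Finset.sum_congr rfl fun i _ => ?_
  rw [CosMod.sn_lin, ev_cmap, ev_sn]

theorem cb_cb {X : SS} {p : ℕ} (z : Chn k X (p + 2)) : cb k X p (cb k X (p + 1) z) = 0 := by
  apply ev_ext
  intro c
  rw [ev_cb, ev_cb, CosMod.d_d, ev_zero, map_zero]

theorem push_cb {X Y : SS} (f : SS.Map X Y) {p : ℕ} (z : Chn k X (p + 1)) :
    cb k Y p (push k f (p + 1) z) = push k f p (cb k X p z) := by
  apply ev_ext
  intro c
  rw [ev_cb, ev_push, ev_push, ev_cb, Hom.app_d]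

theorem push_comp {X Y Z : SS} (g : SS.Map Y Z) (f : SS.Map X Y) {p : ℕ} (z : Chn k X p) :
    push k (g.comp f) p z = push k g p (push k f p z) := by
  apply ev_ext
  intro c
  rw [ev_push, ev_push, ev_push]
  rfl

@[simp] theorem push_id {X : SS} {p : ℕ} (z : Chn k X p) : push k (SS.Map.id X) p z = z := by
  apply ev_ext
  intro c
  rw [ev_push]
  rfl

theorem push_injective {X Y : SS} {f : SS.Map X Y} (hf : f.Inj) (p : ℕ) :
    Function.Injective (push k f p) := by
  intro z w h
  exact Finsupp.mapDomain_injective (hf p) h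

/-- the constant function `1` -/
def oneC (k : Type) [CommRing k] (X : SS) (p : ℕ) : (SS.F k X).obj p := fun _ => (1 : k)

theorem oneC_d (X : SS) : (SS.F k X).d 0 (oneC k X 0) = 0 := by
  funext x
  rw [SS.F_d]
  simp only [oneC, Finset.sum_range_succ, Finset.sum_range_zero, sn]
  simp
  rfl

theorem aug_eq_ev {X : SS} {p : ℕ} (z : Chn k X p) :
    aug k X p z = ev (oneC k X p) z := rfl

theorem aug_push {X Y : SS} (f : SS.Map X Y) {p : ℕ} (z : Chn k X p) :
    aug k Y p (push k f p z) = aug k X p z := by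
  rw [aug_eq_ev, ev_push]
  rfl

theorem aug_cb {X : SS} (z : Chn k X 1) : aug k X 0 (cb k X 0 z) = 0 := by
  rw [aug_eq_ev, ev_cb, oneC_d, ev_zero]

/-! ### Cycles and boundaries -/

/-- cycles -/
def IsCyc {X : SS} : (p : ℕ) → Chn k X p → Prop
  | 0, _ => True
  | p + 1, z => cb k X p z = 0

/-- boundaries -/
def IsBd {X : SS} {p : ℕ} (z : Chn k X p) : Prop := ∃ w : Chn k X (p + 1), cb k X p w = z

theorem isCyc_zero {X : SS} (z : Chn k X 0) : IsCyc 0 z := trivial

theorem isCyc_succ {X : SS} {p : ℕ} {z : Chn k X (p + 1)} : IsCyc (p + 1) z ↔ cb k X p z = 0 :=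
  Iff.rfl

theorem IsBd.isCyc {X : SS} {p : ℕ} {z : Chn k X p} (h : IsBd z) : IsCyc p z := by
  obtain ⟨w, rfl⟩ := h
  cases p with
  | zero => trivial
  | succ p => exact cb_cb w

theorem IsCyc.zero {X : SS} (p : ℕ) : IsCyc p (0 : Chn k X p) := by
  cases p with
  | zero => trivial
  | succ p => exact map_zero _

theorem IsCyc.add {X : SS} {p : ℕ} {z w : Chn k X p} (hz : IsCyc p z) (hw : IsCyc p w) :
    IsCyc p (z + w) := by
  cases p with
  | zero => trivial
  | succ p => rw [isCyc_succ] at *; rw [map_add, hz, hw, add_zero]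

theorem IsCyc.smul {X : SS} {p : ℕ} {z : Chn k X p} (a : k) (hz : IsCyc p z) :
    IsCyc p (a • z) := by
  cases p with
  | zero => trivial
  | succ p => rw [isCyc_succ] at *; rw [map_smul, hz, smul_zero]

theorem IsCyc.neg {X : SS} {p : ℕ} {z : Chn k X p} (hz : IsCyc p z) : IsCyc p (-z) := by
  rw [← neg_one_smul k z]
  exact hz.smul _

theorem IsCyc.sub {X : SS} {p : ℕ} {z w : Chn k X p} (hz : IsCyc p z) (hw : IsCyc p w) :
    IsCyc p (z - w) := by
  rw [sub_eq_add_neg]
  exact hz.add hw.neg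

theorem IsBd.zero {X : SS} (p : ℕ) : IsBd (0 : Chn k X p) := ⟨0, map_zero _⟩

theorem IsBd.add {X : SS} {p : ℕ} {z w : Chn k X p} (hz : IsBd z) (hw : IsBd w) :
    IsBd (z + w) := by
  obtain ⟨a, rfl⟩ := hz
  obtain ⟨b, rfl⟩ := hw
  exact ⟨a + b, map_add _ _ _⟩

theorem IsBd.smul {X : SS} {p : ℕ} {z : Chn k X p} (a : k) (hz : IsBd z) : IsBd (a • z) := by
  obtain ⟨w, rfl⟩ := hz
  exact ⟨a • w, map_smul _ _ _⟩

theorem IsBd.neg {X : SS} {p : ℕ} {z : Chn k X p} (hz : IsBd z) : IsBd (-z) := by
  rw [← neg_one_smul k z]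
  exact hz.smul _

theorem IsBd.sub {X : SS} {p : ℕ} {z w : Chn k X p} (hz : IsBd z) (hw : IsBd w) :
    IsBd (z - w) := by
  rw [sub_eq_add_neg]
  exact hz.add hw.neg

theorem IsCyc.push {X Y : SS} (f : SS.Map X Y) {p : ℕ} {z : Chn k X p} (hz : IsCyc p z) :
    IsCyc p (push k f p z) := by
  cases p with
  | zero => trivial
  | succ p => rw [isCyc_succ] at *; rw [push_cb, hz, map_zero]

theorem IsBd.push {X Y : SS} (f : SS.Map X Y) {p : ℕ} {z : Chn k X p} (hz : IsBd z) :
    IsBd (push k f p z) := by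
  obtain ⟨w, rfl⟩ := hz
  exact ⟨G2.push k f (p + 1) w, push_cb f w⟩

theorem IsCyc.of_push {X Y : SS} {f : SS.Map X Y} (hf : f.Inj) {p : ℕ} {z : Chn k X p}
    (hz : IsCyc p (G2.push k f p z)) : IsCyc p z := by
  cases p with
  | zero => trivial
  | succ p =>
    rw [isCyc_succ] at *
    apply push_injective hf
    rw [← push_cb, hz, map_zero]

/-- the submodule of cycles -/
def cyc (k : Type) [CommRing k] (X : SS) (p : ℕ) : Submodule k (Chn k X p) where
  carrier := {z | IsCyc p z}
  zero_mem' := IsCyc.zero p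
  add_mem' := IsCyc.add
  smul_mem' a _ h := h.smul a

/-- the submodule of boundaries -/
noncomputable def bds (k : Type) [CommRing k] (X : SS) (p : ℕ) : Submodule k (Chn k X p) :=
  LinearMap.range (cb k X p)

theorem mem_cyc {X : SS} {p : ℕ} {z : Chn k X p} : z ∈ cyc k X p ↔ IsCyc p z := Iff.rfl

theorem mem_bds {X : SS} {p : ℕ} {z : Chn k X p} : z ∈ bds k X p ↔ IsBd z := Iff.rfl

/-! ### The prism operator on chains -/

/-- the prism operator of a simplicial homotopy -/
noncomputable def Kc (k : Type) [CommRing k] {X Y : SS} (K : SS.Htp X Y) (p : ℕ) :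
    Chn k X p →ₗ[k] Chn k Y (p + 1) :=
  ∑ i ∈ Finset.range (p + 1), ((-1 : ℤ) ^ i) •
    Finsupp.lmapDomain k k (fun x => K.h (p + 1) (th (p + 1) (i + 1)) (X.map (sg p i) x))

theorem Kc_single {X Y : SS} (K : SS.Htp X Y) {p : ℕ} (x : X.obj p) (a : k) :
    Kc k K p (Finsupp.single x a) = ∑ i ∈ Finset.range (p + 1),
      sn i (Finsupp.single (K.h (p + 1) (th (p + 1) (i + 1)) (X.map (sg p i) x)) a) := by
  simp [Kc, sn, LinearMap.sum_apply, Finsupp.mapDomain_single]

theorem ev_Kc {X Y : SS} (K : SS.Htp X Y) {p : ℕ} (c : (SS.F k Y).obj (p + 1))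
    (z : Chn k X p) : ev c (Kc k K p z) = ev ((K.prism k).k p c) z := by
  have : (ev c).comp (Kc k K p) = ev ((K.prism k).k p c) := by
    apply chn_hom_ext
    intro x
    rw [LinearMap.comp_apply, Kc_single, map_sum, Prism.k_apply, ev_sum]
    refine Finset.sum_congr rfl fun i _ => ?_
    rw [CosMod.sn_lin, ev_single, ev_sn, ev_single]
    rfl
  exact DFunLike.congr_fun this z

theorem cb_Kc_add {X Y : SS} (K : SS.Htp X Y) {p : ℕ} (z : Chn k X (p + 1)) :
    cb k Y (p + 1) (Kc k K (p + 1) z) + Kc k K p (cb k X p z) =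
      push k K.e1 (p + 1) z - push k K.e0 (p + 1) z := by
  apply ev_ext
  intro c
  rw [map_add, map_sub, ev_cb, ev_Kc, ev_Kc, ev_cb, ev_push, ev_push, ← ev_add, ← ev_sub,
    (K.prism k).k_d_add_d_k]
  rfl

theorem cb_Kc_zero {X Y : SS} (K : SS.Htp X Y) (z : Chn k X 0) :
    cb k Y 0 (Kc k K 0 z) = push k K.e1 0 z - push k K.e0 0 z := by
  apply ev_ext
  intro c
  rw [map_sub, ev_cb, ev_Kc, ev_push, ev_push, ← ev_sub, (K.prism k).k_d_zero]
  rfl

/-- the two ends of a simplicial homotopy agree on cycles up to boundaries -/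
theorem isBd_htp {X Y : SS} (K : SS.Htp X Y) {p : ℕ} {z : Chn k X p} (hz : IsCyc p z) :
    IsBd (push k K.e1 p z - push k K.e0 p z) := by
  cases p with
  | zero => exact ⟨Kc k K 0 z, cb_Kc_zero K z⟩
  | succ p =>
    rw [isCyc_succ] at hz
    refine ⟨Kc k K (p + 1) z, ?_⟩
    rw [← cb_Kc_add, hz, map_zero, add_zero]

/-! ### The point -/

/-- the simplex of the point -/
def ptx (p : ℕ) : SS.pt.obj p := ()

theorem eq_ptx {p : ℕ} (x : SS.pt.obj p) : x = ptx p := rfl

theorem eq_single_ptx {p : ℕ} (z : Chn k SS.pt p) : z = Finsupp.single (ptx p) (z (ptx p)) := by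
  classical
  apply Finsupp.ext
  intro x
  rw [eq_ptx x, Finsupp.single_eq_same]

theorem aug_pt {p : ℕ} (z : Chn k SS.pt p) : aug k SS.pt p z = z (ptx p) := by
  conv_lhs => rw [eq_single_ptx z]
  rw [aug_single]

theorem cb_pt (p : ℕ) (a : k) : cb k SS.pt p (Finsupp.single (ptx (p + 1)) a) =
    if Even p then 0 else Finsupp.single (ptx p) a := by
  rw [cb_single]
  have e : ∀ n : ℕ, ∑ i ∈ Finset.range n, sn i (Finsupp.single (ptx p) a : Chn k SS.pt p) =
      if Even n then 0 else Finsupp.single (ptx p) a := by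
    intro n
    induction n with
    | zero => simp
    | succ n ih =>
      rw [Finset.sum_range_succ, ih]
      rcases Nat.even_or_odd n with h | h
      · rw [if_pos h, if_neg (by rw [Nat.even_add_one]; simpa using h), zero_add, sn, h.neg_one_pow,
          one_smul]
      · rw [if_neg (Nat.not_even_iff_odd.2 h), if_pos (by rw [Nat.even_add_one]; simpa using h), sn,
          h.neg_one_pow, neg_one_smul, add_neg_cancel]
  have h := e (p + 2)
  have h2 : Even (p + 2) ↔ Even p := by
    rw [Nat.even_add]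
    exact iff_true_right (by decide)
  simp only [h2] at h
  exact h

/-- every cycle of positive degree of a point bounds -/
theorem pt_isBd {p : ℕ} {z : Chn k SS.pt (p + 1)} (hz : IsCyc (p + 1) z) : IsBd z := by
  rw [isCyc_succ, eq_single_ptx z, cb_pt] at hz
  rcases Nat.even_or_odd p with h | h
  · refine ⟨Finsupp.single (ptx (p + 2)) (z (ptx (p + 1))), ?_⟩
    rw [cb_pt, if_neg (by rw [Nat.even_add_one]; simpa using h)]
    exact (eq_single_ptx z).symm
  · rw [if_neg (Nat.not_even_iff_odd.2 h)] at hz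
    have h0 : z (ptx (p + 1)) = 0 := by
      have := congrArg (fun w : Chn k SS.pt p => w (ptx p)) hz
      simpa using this
    rw [eq_single_ptx z, h0, Finsupp.single_zero]
    exact IsBd.zero _

/-- the constant simplicial map at a vertex -/
def cstMap (X : SS) (Y : SS) (v : Y.obj 0) : SS.Map X Y where
  app {p} _ := SS.cst Y v p
  nat f _ := by
    rw [SS.cst, SS.cst, ← Y.map_comp]
    congr 1

/-- the constant map factors through the point -/
def ptMap (Y : SS) (v : Y.obj 0) : SS.Map SS.pt Y := cstMap SS.pt Y v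

theorem cstMap_eq (X : SS) (Y : SS) (v : Y.obj 0) :
    cstMap X Y v = (ptMap Y v).comp (SS.toPt X) := rfl

/-- the push-forward of a cycle by a constant map bounds in positive degrees, and in degree `0` if
the augmentation vanishes -/
theorem isBd_push_cst {X Y : SS} (v : Y.obj 0) {p : ℕ} {z : Chn k X p} (hz : IsCyc p z)
    (h0 : p = 0 → aug k X p z = 0) : IsBd (push k (cstMap X Y v) p z) := by
  rw [cstMap_eq, push_comp]
  apply IsBd.push
  cases p with
  | zero =>
    have e : push k (SS.toPt X) 0 z = 0 := by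
      have h1 := aug_push (SS.toPt X) z
      rw [h0 rfl, aug_pt] at h1
      rw [eq_single_ptx (push k (SS.toPt X) 0 z), h1, Finsupp.single_zero]
    rw [e]
    exact IsBd.zero _
  | succ p => exact pt_isBd (hz.push _)

/-! ### Unions -/

/-- the reduced homology of `X` vanishes in degree `p` -/
def Acyc (k : Type) [CommRing k] (X : SS) (p : ℕ) : Prop :=
  ∀ z : Chn k X p, IsCyc p z → (p = 0 → aug k X p z = 0) → IsBd z

/-- a map which is simplicially homotopic to a constant map kills reduced homology -/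
theorem isBd_of_null {X U : SS} (ι : SS.Map X U) (K : SS.Htp X U) (v : U.obj 0)
    (h1 : K.e1 = ι) (h0 : K.e0 = cstMap X U v) {p : ℕ} {z : Chn k X p} (hz : IsCyc p z)
    (ha : p = 0 → aug k X p z = 0) : IsBd (push k ι p z) := by
  have h := isBd_htp K hz
  rw [h1, h0] at h
  have h' := h.add (isBd_push_cst (Y := U) v hz ha)
  rwa [sub_add_cancel] at h'

/-- the same with the ends exchanged -/
theorem isBd_of_null' {X U : SS} (ι : SS.Map X U) (K : SS.Htp X U) (v : U.obj 0)
    (h0 : K.e0 = ι) (h1 : K.e1 = cstMap X U v) {p : ℕ} {z : Chn k X p} (hz : IsCyc p z)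
    (ha : p = 0 → aug k X p z = 0) : IsBd (push k ι p z) := by
  have h := (isBd_htp K hz).neg
  rw [h1, h0, neg_sub] at h
  have h' := h.add (isBd_push_cst (Y := U) v hz ha)
  rwa [sub_add_cancel] at h'

/-- every chain of a directed union comes from a stage -/
theorem exists_stage {U : SS} {X : ℕ → SS} (s : ∀ r, SS.Map (X r) (X (r + 1)))
    (ι : ∀ r, SS.Map (X r) U) (hs : ∀ r, (ι (r + 1)).comp (s r) = ι r) {p : ℕ}
    (hsurj : ∀ u : U.obj p, ∃ r x, (ι r).app x = u) (z : Chn k U p) (N : ℕ) :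
    ∃ r, N ≤ r ∧ ∃ y : Chn k (X r) p, push k (ι r) p y = z := by
  have up : ∀ r r' : ℕ, r ≤ r' → ∀ y : Chn k (X r) p, ∃ y' : Chn k (X r') p,
      push k (ι r') p y' = push k (ι r) p y := by
    intro r r' h
    induction r', h using Nat.le_induction with
    | base => exact fun y => ⟨y, rfl⟩
    | succ r' _ ih =>
      intro y
      obtain ⟨y', hy'⟩ := ih y
      refine ⟨push k (s r') p y', ?_⟩
      rw [← push_comp, hs, hy']
  induction z using Finsupp.induction_linear with
  | zero => exact ⟨N, le_rfl, 0, map_zero _⟩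
  | add f g hf hg =>
    obtain ⟨r, hr, y, hy⟩ := hf
    obtain ⟨r', hr', y', hy'⟩ := hg
    obtain ⟨a, ha⟩ := up r (max r r') (le_max_left _ _) y
    obtain ⟨b, hb⟩ := up r' (max r r') (le_max_right _ _) y'
    exact ⟨max r r', hr.trans (le_max_left _ _), a + b, by rw [map_add, ha, hb, hy, hy']⟩
  | single x a =>
    obtain ⟨r, y, hy⟩ := hsurj x
    obtain ⟨a', ha'⟩ := up r (max r N) (le_max_left _ _) (Finsupp.single y a)
    refine ⟨max r N, le_max_right _ _, a', ?_⟩
    rw [ha', push_single, hy]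

/-- **Union lemma**: if `U` is the increasing union of the `X r` and every inclusion `X r → U` is
homotopic to a constant map then `U` is acyclic. -/
theorem acyc_of_union {U : SS} {X : ℕ → SS} (s : ∀ r, SS.Map (X r) (X (r + 1)))
    (ι : ∀ r, SS.Map (X r) U) (hs : ∀ r, (ι (r + 1)).comp (s r) = ι r) (hι : ∀ r, (ι r).Inj)
    (hsurj : ∀ p (u : U.obj p), ∃ r x, (ι r).app x = u)
    (hK : ∀ r, ∃ (K : SS.Htp (X r) U) (v : U.obj 0), K.e1 = ι r ∧ K.e0 = cstMap (X r) U v)
    (p : ℕ) : Acyc k U p := by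
  intro z hz ha
  obtain ⟨r, _, y, hy⟩ := exists_stage s ι hs (hsurj p) z 0
  obtain ⟨K, v, h1, h0⟩ := hK r
  rw [← hy] at hz ⊢
  refine isBd_of_null (ι r) K v h1 h0 (hz.of_push (hι r)) fun hp => ?_
  rw [← aug_push (ι r), hy, ha hp]

/-- push-forward of a homotopy -/
def htpComp {X Y Z : SS} (g : SS.Map Y Z) (K : SS.Htp X Y) : SS.Htp X Z where
  h p χ x := g.app (K.h p χ x)
  nat f χ x := by rw [K.nat, g.nat]

/-- pull-back of a homotopy -/
def compHtp {X Y Z : SS} (K : SS.Htp Y Z) (g : SS.Map X Y) : SS.Htp X Z where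
  h p χ x := K.h p χ (g.app x)
  nat f χ x := by rw [g.nat, K.nat]

/-- **Union lemma**, stagewise form: the stage maps are homotopic to constant maps. -/
theorem acyc_of_union_stage {U : SS} {X : ℕ → SS} (s : ∀ r, SS.Map (X r) (X (r + 1)))
    (ι : ∀ r, SS.Map (X r) U) (hs : ∀ r, (ι (r + 1)).comp (s r) = ι r) (hι : ∀ r, (ι r).Inj)
    (hsurj : ∀ p (u : U.obj p), ∃ r x, (ι r).app x = u)
    (K : ∀ r, SS.Htp (X r) (X (r + 1))) (v : ∀ r, (X (r + 1)).obj 0)
    (h1 : ∀ r, (K r).e1 = s r) (h0 : ∀ r, (K r).e0 = cstMap (X r) (X (r + 1)) (v r))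
    (p : ℕ) : Acyc k U p := by
  refine acyc_of_union s ι hs hι hsurj (fun r => ⟨htpComp (ι (r + 1)) (K r),
    (ι (r + 1)).app (v r), ?_, ?_⟩) p
  · rw [← hs r, ← h1 r]
    rfl
  · have e : (htpComp (ι (r + 1)) (K r)).e0 = (ι (r + 1)).comp (K r).e0 := rfl
    rw [e, h0 r]
    apply SS.Map.ext
    intro p x
    exact (ι (r + 1)).nat _ _

end Vale.Agent.P263.G2
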