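import Mathlib

/-!
# P263, block G2: families of little boxes

* `Iv` : the intervals `(a, b)`, `0 ≤ a < b ≤ 1`; `Iv.mix s p q` is the linear interpolation.
* `Bx = ℕ → Iv` : boxes in the cube `(0,1)^ℕ`; a box of stage `r` is `(0,1)` in all coordinates
  `i ≥ r`, so it is `b × (0,1) × (0,1) × ⋯` for a box `b` of `(0,1)^r`.
* `Conf K T` : the finite sets of pairwise disjoint families `T → Bx` of boxes with labels in `K`
  (all of a common finite stage); contravariant in `T`, covariant in `K` for partial maps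
  `K → Option L` (= pointed maps `K₊ → L₊`).
* `OConf ι T` : the families of boxes indexed by `ι`, pairwise disjoint; `OSp r ι` is the space of
  those of stage `r`.
-/

open Topology

namespace Vale.Agent.P263.G2

/-- The intervals `(a, b)` with `0 ≤ a < b ≤ 1`. -/
def Iv : Type := {p : ℝ × ℝ // 0 ≤ p.1 ∧ p.1 < p.2 ∧ p.2 ≤ 1}

namespace Iv

instance : TopologicalSpace Iv := instTopologicalSpaceSubtype

instance : T2Space Iv := inferInstanceAs (T2Space {p : ℝ × ℝ // 0 ≤ p.1 ∧ p.1 < p.2 ∧ p.2 ≤ 1})

/-- the left end point -/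
def lo (p : Iv) : ℝ := p.1.1

/-- the right end point -/
def hi (p : Iv) : ℝ := p.1.2

theorem lo_nonneg (p : Iv) : 0 ≤ p.lo := p.2.1

theorem lo_lt_hi (p : Iv) : p.lo < p.hi := p.2.2.1

theorem hi_le_one (p : Iv) : p.hi ≤ 1 := p.2.2.2

@[ext] theorem ext {p q : Iv} (h1 : p.lo = q.lo) (h2 : p.hi = q.hi) : p = q :=
  Subtype.ext (Prod.ext h1 h2)

theorem continuous_lo : Continuous lo := continuous_fst.comp continuous_subtype_val

theorem continuous_hi : Continuous hi := continuous_snd.comp continuous_subtype_val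

theorem continuous_iff {T : Type*} [TopologicalSpace T] {f : T → Iv} :
    Continuous f ↔ Continuous (fun t => (f t).lo) ∧ Continuous (fun t => (f t).hi) := by
  constructor
  · intro h
    exact ⟨continuous_lo.comp h, continuous_hi.comp h⟩
  · rintro ⟨h1, h2⟩
    exact Continuous.subtype_mk (h1.prodMk h2) fun t => (f t).2

/-- the interval `(0, 1)` -/
def full : Iv := ⟨(0, 1), le_rfl, by norm_num, le_rfl⟩

@[simp] theorem full_lo : full.lo = 0 := rfl

@[simp] theorem full_hi : full.hi = 1 := rfl

/-- linear interpolation: `p` at `s = 0`, `q` at `s = 1` -/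
def mix (s : unitInterval) (p q : Iv) : Iv :=
  ⟨((1 - (s : ℝ)) * p.lo + (s : ℝ) * q.lo, (1 - (s : ℝ)) * p.hi + (s : ℝ) * q.hi), by
    have h0 := s.2.1
    have h1 := s.2.2
    have hp := p.lo_nonneg
    have hq := q.lo_nonneg
    have hp1 := p.hi_le_one
    have hq1 := q.hi_le_one
    have hp2 := p.lo_lt_hi
    have hq2 := q.lo_lt_hi
    refine ⟨by simp only; nlinarith, ?_, by simp only; nlinarith⟩
    simp only
    rcases eq_or_lt_of_le h0 with h | h
    · rw [← h]; linarith
    · nlinarith⟩

theorem mix_lo (s : unitInterval) (p q : Iv) :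
    (mix s p q).lo = (1 - (s : ℝ)) * p.lo + (s : ℝ) * q.lo := rfl

theorem mix_hi (s : unitInterval) (p q : Iv) :
    (mix s p q).hi = (1 - (s : ℝ)) * p.hi + (s : ℝ) * q.hi := rfl

@[simp] theorem mix_zero (p q : Iv) : mix 0 p q = p := by
  ext <;> simp [mix_lo, mix_hi]

@[simp] theorem mix_one (p q : Iv) : mix 1 p q = q := by
  ext <;> simp [mix_lo, mix_hi]

@[simp] theorem mix_self (s : unitInterval) (p : Iv) : mix s p p = p := by
  ext <;> simp only [mix_lo, mix_hi] <;> ring

theorem continuous_mix : Continuous fun x : unitInterval × Iv × Iv => mix x.1 x.2.1 x.2.2 := by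
  have h0 : Continuous fun x : unitInterval × Iv × Iv => (x.1 : ℝ) :=
    continuous_subtype_val.comp continuous_fst
  have h1 : Continuous fun x : unitInterval × Iv × Iv => x.2.1 :=
    continuous_fst.comp continuous_snd
  have h2 : Continuous fun x : unitInterval × Iv × Iv => x.2.2 :=
    continuous_snd.comp continuous_snd
  rw [continuous_iff]
  refine ⟨?_, ?_⟩
  · exact ((continuous_const.sub h0).mul (continuous_lo.comp h1)).add
      (h0.mul (continuous_lo.comp h2))
  · exact ((continuous_const.sub h0).mul (continuous_hi.comp h1)).add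
      (h0.mul (continuous_hi.comp h2))

theorem _root_.Continuous.ivMix {T : Type*} [TopologicalSpace T] {s : T → unitInterval}
    {p q : T → Iv} (hs : Continuous s) (hp : Continuous p) (hq : Continuous q) :
    Continuous fun t => mix (s t) (p t) (q t) :=
  continuous_mix.comp (hs.prodMk (hp.prodMk hq))

/-- the `j`-th of the `n` intervals `(j/n, (j+1)/n)` -/
noncomputable def part (n : ℕ) (j : Fin n) : Iv :=
  ⟨(((j : ℕ) : ℝ) / n, (((j : ℕ) : ℝ) + 1) / n), by
    have hn : (0 : ℝ) < n := by exact_mod_cast j.pos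
    have hj : ((j : ℕ) : ℝ) + 1 ≤ n := by exact_mod_cast j.2
    refine ⟨by positivity, ?_, ?_⟩
    · simp only
      gcongr
      linarith
    · simp only
      rw [div_le_one hn]
      exact hj⟩

theorem part_lo (n : ℕ) (j : Fin n) : (part n j).lo = ((j : ℕ) : ℝ) / n := rfl

theorem part_hi (n : ℕ) (j : Fin n) : (part n j).hi = (((j : ℕ) : ℝ) + 1) / n := rfl

theorem part_hi_le_lo {n : ℕ} {j k : Fin n} (h : j < k) : (part n j).hi ≤ (part n k).lo := by
  rw [part_hi, part_lo]
  have : ((j : ℕ) : ℝ) + 1 ≤ ((k : ℕ) : ℝ) := by exact_mod_cast h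
  gcongr

end Iv

/-- A box in the cube `(0,1)^ℕ`. -/
abbrev Bx : Type := ℕ → Iv

namespace Bx

/-- The two boxes are disjoint. -/
def Disj (b c : Bx) : Prop := ∃ i, (b i).hi ≤ (c i).lo ∨ (c i).hi ≤ (b i).lo

theorem Disj.symm {b c : Bx} (h : Disj b c) : Disj c b := by
  obtain ⟨i, h⟩ := h
  exact ⟨i, h.symm⟩

theorem not_disj_self (b : Bx) : ¬ Disj b b := by
  rintro ⟨i, h | h⟩ <;> exact absurd (b i).lo_lt_hi (not_lt.2 h)

theorem Disj.ne {b c : Bx} (h : Disj b c) : b ≠ c := by
  rintro rfl
  exact not_disj_self b h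

/-- the box is `(0,1)` in all coordinates `i ≥ r` -/
def St (r : ℕ) (b : Bx) : Prop := ∀ i, r ≤ i → b i = Iv.full

theorem St.mono {r s : ℕ} (h : r ≤ s) {b : Bx} (hb : St r b) : St s b :=
  fun i hi => hb i (h.trans hi)

/-- disjoint boxes of stage `r` are disjoint in one of the first `r` coordinates -/
theorem Disj.exists_lt {r : ℕ} {b c : Bx} (h : Disj b c) (hb : St r b) (hc : St r c) :
    ∃ i < r, (b i).hi ≤ (c i).lo ∨ (c i).hi ≤ (b i).lo := by
  obtain ⟨i, h⟩ := h
  refine ⟨i, ?_, h⟩
  by_contra hi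
  rw [hb i (not_lt.1 hi), hc i (not_lt.1 hi)] at h
  simp only [Iv.full_hi, Iv.full_lo, or_self] at h
  linarith

end Bx

open Bx

section Conf

variable {K L M : Type} {T T' T'' : Type} [TopologicalSpace T] [TopologicalSpace T']
  [TopologicalSpace T'']

/-- A family over `T` of finite configurations of pairwise disjoint boxes with labels in `K`, all of
the same finite stage. -/
structure Conf (K : Type) (T : Type) [TopologicalSpace T] where
  /-- the set of labelled boxes -/
  pts : Finset (C(T, Bx) × K)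
  stage : ∃ r, ∀ x ∈ pts, ∀ t, St r (x.1 t)
  disj : ∀ x ∈ pts, ∀ y ∈ pts, x ≠ y → ∀ t, Disj (x.1 t) (y.1 t)

namespace Conf

@[ext] theorem ext {S S' : Conf K T} (h : S.pts = S'.pts) : S = S' := by
  cases S; cases S'; cases h; rfl

/-- The configuration is of stage `r`. -/
def IsSt (r : ℕ) (S : Conf K T) : Prop := ∀ x ∈ S.pts, ∀ t, St r (x.1 t)

theorem exists_isSt (S : Conf K T) : ∃ r, S.IsSt r := S.stage

theorem IsSt.mono {r s : ℕ} (h : r ≤ s) {S : Conf K T} (hS : S.IsSt r) : S.IsSt s :=
  fun x hx t => (hS x hx t).mono h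

/-- members of the configuration with the same box family coincide -/
theorem eq_of_fst (S : Conf K T) {x y : C(T, Bx) × K} (hx : x ∈ S.pts)
    (hy : y ∈ S.pts) (t : T) (h : x.1 t = y.1 t) : x = y := by
  by_contra hne
  exact (S.disj x hx y hy hne t).ne h

open Classical in
/-- pull-back of families along `g : T' → T` -/
noncomputable def pull (g : C(T', T)) (S : Conf K T) : Conf K T' where
  pts := S.pts.image fun x => (x.1.comp g, x.2)
  stage := by
    obtain ⟨r, hr⟩ := S.stage
    refine ⟨r, ?_⟩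
    intro x' hx' t
    obtain ⟨x, hx, rfl⟩ := Finset.mem_image.1 hx'
    exact hr x hx _
  disj := by
    intro x' hx' y' hy' hne t
    obtain ⟨x, hx, rfl⟩ := Finset.mem_image.1 hx'
    obtain ⟨y, hy, rfl⟩ := Finset.mem_image.1 hy'
    exact S.disj x hx y hy (fun h => hne (by rw [h])) _

theorem mem_pull {g : C(T', T)} {S : Conf K T} {x : C(T', Bx) × K} :
    x ∈ (S.pull g).pts ↔ ∃ c : C(T, Bx), (c, x.2) ∈ S.pts ∧ c.comp g = x.1 := by
  classical
  simp only [pull, Finset.mem_image, Prod.exists]
  constructor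
  · rintro ⟨c, k, h, rfl⟩
    exact ⟨c, h, rfl⟩
  · rintro ⟨c, h, h'⟩
    exact ⟨c, x.2, h, Prod.ext h' rfl⟩

@[simp] theorem pull_id (S : Conf K T) : S.pull (ContinuousMap.id T) = S := by
  ext x
  rw [mem_pull]
  simp

theorem pull_pull (g : C(T', T)) (g' : C(T'', T')) (S : Conf K T) :
    (S.pull g).pull g' = S.pull (g.comp g') := by
  ext x
  simp only [mem_pull]
  constructor
  · rintro ⟨c, ⟨c', h, rfl⟩, h'⟩
    exact ⟨c', h, h'⟩
  · rintro ⟨c, h, h'⟩
    exact ⟨c.comp g, ⟨c, h, rfl⟩, h'⟩

theorem IsSt.pull {r : ℕ} {S : Conf K T} (hS : S.IsSt r) (g : C(T', T)) : (S.pull g).IsSt r := by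
  intro x hx t
  obtain ⟨c, h, h'⟩ := mem_pull.1 hx
  rw [← h']
  exact hS _ h _

open Classical in
/-- The pull-back to a nonempty space is injective on the members. -/
theorem injOn_pull [Nonempty T'] (g : C(T', T)) (S : Conf K T) :
    Set.InjOn (fun x : C(T, Bx) × K => (x.1.comp g, x.2)) S.pts := by
  intro x hx y hy h
  obtain ⟨t⟩ := ‹Nonempty T'›
  exact S.eq_of_fst hx hy (g t) (DFunLike.congr_fun (congrArg Prod.fst h) t)

@[simp] theorem card_pull [Nonempty T'] (g : C(T', T)) (S : Conf K T) :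
    (S.pull g).pts.card = S.pts.card := by
  classical
  exact Finset.card_image_of_injOn (injOn_pull g S)

open Classical in
/-- Relabelling along the pointed map `K₊ → L₊`, given as `f : K → Option L`: the boxes whose label
goes to the base point `none` are dropped. -/
noncomputable def map (f : K → Option L) (S : Conf K T) : Conf L T where
  pts := Finset.eraseNone (S.pts.image fun x => (f x.2).map fun l => (x.1, l))
  stage := by
    obtain ⟨r, hr⟩ := S.stage
    refine ⟨r, ?_⟩
    intro x' hx' t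
    obtain ⟨x, hx, h⟩ := Finset.mem_image.1 (Finset.mem_eraseNone.1 hx')
    obtain ⟨l, -, rfl⟩ := Option.map_eq_some_iff.1 h
    exact hr x hx _
  disj := by
    intro x' hx' y' hy' hne t
    obtain ⟨x, hx, h⟩ := Finset.mem_image.1 (Finset.mem_eraseNone.1 hx')
    obtain ⟨y, hy, h'⟩ := Finset.mem_image.1 (Finset.mem_eraseNone.1 hy')
    obtain ⟨l, hl, rfl⟩ := Option.map_eq_some_iff.1 h
    obtain ⟨l', hl', rfl⟩ := Option.map_eq_some_iff.1 h'
    refine S.disj x hx y hy (fun h => hne ?_) _
    subst h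
    rw [hl] at hl'
    rw [Option.some.inj hl']

theorem mem_map {f : K → Option L} {S : Conf K T} {x : C(T, Bx) × L} :
    x ∈ (S.map f).pts ↔ ∃ k, (x.1, k) ∈ S.pts ∧ f k = some x.2 := by
  classical
  simp only [map, Finset.mem_eraseNone, Finset.mem_image, Prod.exists, Option.map_eq_some_iff]
  constructor
  · rintro ⟨c, k, h, l, hl, rfl⟩
    exact ⟨k, h, hl⟩
  · rintro ⟨k, h, hl⟩
    exact ⟨x.1, k, h, x.2, hl, rfl⟩

@[simp] theorem map_some (S : Conf K T) : S.map some = S := by
  ext x
  rw [mem_map]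
  simp

theorem map_map (f : K → Option L) (g : L → Option M) (S : Conf K T) :
    (S.map f).map g = S.map fun k => (f k).bind g := by
  ext x
  simp only [mem_map, Option.bind_eq_some_iff]
  constructor
  · rintro ⟨l, ⟨k, h, hl⟩, h'⟩
    exact ⟨k, h, l, hl, h'⟩
  · rintro ⟨k, h, l, hl, h'⟩
    exact ⟨l, ⟨k, h, hl⟩, h'⟩

theorem map_pull (f : K → Option L) (g : C(T', T)) (S : Conf K T) :
    (S.pull g).map f = (S.map f).pull g := by
  ext x
  simp only [mem_map, mem_pull]
  constructor
  · rintro ⟨k, ⟨c, h, h'⟩, hk⟩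
    exact ⟨c, ⟨k, h, hk⟩, h'⟩
  · rintro ⟨c, ⟨k, h, hk⟩, h'⟩
    exact ⟨k, ⟨c, h, h'⟩, hk⟩

theorem IsSt.map {r : ℕ} {S : Conf K T} (hS : S.IsSt r) (f : K → Option L) : (S.map f).IsSt r := by
  intro x hx t
  obtain ⟨k, h, -⟩ := mem_map.1 hx
  exact hS _ h _

/-- the empty configuration -/
def empty : Conf K T := ⟨∅, ⟨0, by simp⟩, by simp⟩

@[simp] theorem pts_empty : (empty : Conf K T).pts = ∅ := rfl

@[simp] theorem pull_empty (g : C(T', T)) : (empty : Conf K T).pull g = empty := by
  ext x; simp [mem_pull]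

@[simp] theorem map_empty (f : K → Option L) : (empty : Conf K T).map f = empty := by
  ext x; simp [mem_map]

end Conf

/-! ### Ordered configurations -/

/-- A family over `T` of configurations of pairwise disjoint boxes indexed by `ι`, all of the same
finite stage. -/
structure OConf (ι : Type) (T : Type) [TopologicalSpace T] where
  /-- the boxes -/
  box : ι → C(T, Bx)
  stage : ∃ r, ∀ j t, St r (box j t)
  disj : ∀ j j', j ≠ j' → ∀ t, Disj (box j t) (box j' t)

namespace OConf

variable {ι κ : Type}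

@[ext] theorem ext {c c' : OConf ι T} (h : ∀ j, c.box j = c'.box j) : c = c' := by
  have : c.box = c'.box := funext h
  cases c; cases c'; cases this; rfl

/-- The configuration is of stage `r`. -/
def IsSt (r : ℕ) (c : OConf ι T) : Prop := ∀ j t, St r (c.box j t)

theorem exists_isSt (c : OConf ι T) : ∃ r, c.IsSt r := c.stage

theorem IsSt.mono {r s : ℕ} (h : r ≤ s) {c : OConf ι T} (hc : c.IsSt r) : c.IsSt s :=
  fun j t => (hc j t).mono h

/-- pull-back of families along `g : T' → T` -/
def pull (g : C(T', T)) (c : OConf ι T) : OConf ι T' where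
  box j := (c.box j).comp g
  stage := by
    obtain ⟨r, hr⟩ := c.stage
    exact ⟨r, fun j t => hr j _⟩
  disj j j' h t := c.disj j j' h _

@[simp] theorem pull_box (g : C(T', T)) (c : OConf ι T) (j : ι) :
    (c.pull g).box j = (c.box j).comp g := rfl

@[simp] theorem pull_id (c : OConf ι T) : c.pull (ContinuousMap.id T) = c := rfl

theorem pull_pull (g : C(T', T)) (g' : C(T'', T')) (c : OConf ι T) :
    (c.pull g).pull g' = c.pull (g.comp g') := rfl

theorem IsSt.pull {r : ℕ} {c : OConf ι T} (hc : c.IsSt r) (g : C(T', T)) : (c.pull g).IsSt r :=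
  fun j t => hc j (g t)

/-- reindexing along an injection -/
def re (e : κ ↪ ι) (c : OConf ι T) : OConf κ T where
  box j := c.box (e j)
  stage := by
    obtain ⟨r, hr⟩ := c.stage
    exact ⟨r, fun j t => hr _ t⟩
  disj j j' h t := c.disj _ _ (fun h' => h (e.injective h')) t

@[simp] theorem re_box (e : κ ↪ ι) (c : OConf ι T) (j : κ) : (c.re e).box j = c.box (e j) := rfl

theorem re_pull (e : κ ↪ ι) (g : C(T', T)) (c : OConf ι T) : (c.pull g).re e = (c.re e).pull g :=
  rfl

theorem IsSt.re {r : ℕ} {c : OConf ι T} (hc : c.IsSt r) (e : κ ↪ ι) : (c.re e).IsSt r :=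
  fun j t => hc (e j) t

theorem box_injective [Nonempty T] (c : OConf ι T) : Function.Injective c.box := by
  intro j j' h
  by_contra hne
  obtain ⟨t⟩ := ‹Nonempty T›
  exact (c.disj j j' hne t).ne (by rw [h])

/-- the action of the permutations is free -/
theorem re_eq_self [Nonempty T] (c : OConf ι T) (e : ι ↪ ι) (h : c.re e = c) (j : ι) : e j = j := by
  apply c.box_injective
  rw [← re_box, h]

open Classical in
/-- the underlying labelled configuration -/
noncomputable def toConf [Fintype ι] (x : ι → K) (c : OConf ι T) : Conf K T where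
  pts := Finset.univ.image fun j => (c.box j, x j)
  stage := by
    obtain ⟨r, hr⟩ := c.stage
    refine ⟨r, ?_⟩
    intro y hy t
    obtain ⟨j, -, rfl⟩ := Finset.mem_image.1 hy
    exact hr j t
  disj := by
    intro y hy z hz hne t
    obtain ⟨j, -, rfl⟩ := Finset.mem_image.1 hy
    obtain ⟨j', -, rfl⟩ := Finset.mem_image.1 hz
    exact c.disj j j' (fun h => hne (by rw [h])) t

theorem mem_toConf [Fintype ι] {x : ι → K} {c : OConf ι T} {y : C(T, Bx) × K} :
    y ∈ (c.toConf x).pts ↔ ∃ j, (c.box j, x j) = y := by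
  classical
  simp [toConf]

theorem card_toConf [Fintype ι] [Nonempty T] (x : ι → K) (c : OConf ι T) :
    (c.toConf x).pts.card = Fintype.card ι := by
  classical
  rw [toConf, Finset.card_image_of_injective, Finset.card_univ]
  intro j j' h
  exact c.box_injective (congrArg Prod.fst h)

theorem toConf_pull [Fintype ι] (x : ι → K) (g : C(T', T)) (c : OConf ι T) :
    (c.pull g).toConf x = (c.toConf x).pull g := by
  ext y
  rw [mem_toConf, Conf.mem_pull]
  constructor
  · rintro ⟨j, rfl⟩
    exact ⟨c.box j, mem_toConf.2 ⟨j, rfl⟩, rfl⟩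
  · rintro ⟨b, hb, h⟩
    obtain ⟨j, hj⟩ := mem_toConf.1 hb
    refine ⟨j, ?_⟩
    have h1 : c.box j = b := congrArg Prod.fst hj
    have h2 : x j = y.2 := congrArg Prod.snd hj
    rw [pull_box, h1, h2, h]

theorem isSt_toConf [Fintype ι] {x : ι → K} {c : OConf ι T} {r : ℕ} :
    (c.toConf x).IsSt r ↔ c.IsSt r := by
  constructor
  · intro h j t
    exact h _ (mem_toConf.2 ⟨j, rfl⟩) t
  · intro h y hy t
    obtain ⟨j, rfl⟩ := mem_toConf.1 hy
    exact h j t

/-- Every configuration with `n` members can be ordered. -/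
theorem exists_toConf (S : Conf K T) {n : ℕ} (hn : S.pts.card = n) :
    ∃ (c : OConf (Fin n) T) (x : Fin n → K), c.toConf x = S := by
  classical
  let e : Fin n ≃ S.pts := (S.pts.equivFinOfCardEq hn).symm
  refine ⟨⟨fun j => (e j).1.1, ?_, ?_⟩, fun j => (e j).1.2, ?_⟩
  · obtain ⟨r, hr⟩ := S.stage
    exact ⟨r, fun j t => hr _ (e j).2 t⟩
  · intro j j' h t
    refine S.disj _ (e j).2 _ (e j').2 (fun h' => h (e.injective (Subtype.ext h'))) t
  · ext y
    rw [mem_toConf]
    constructor
    · rintro ⟨j, rfl⟩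
      exact (e j).2
    · intro hy
      refine ⟨e.symm ⟨y, hy⟩, ?_⟩
      simp

/-- Two orderings of the same configuration differ by a unique permutation. -/
theorem exists_perm [Fintype ι] [Nonempty T] {c c' : OConf ι T} {x x' : ι → K}
    (h : c.toConf x = c'.toConf x') :
    ∃ e : Equiv.Perm ι, c.re e.toEmbedding = c' ∧ x ∘ e = x' := by
  classical
  have h1 : ∀ j, ∃ j', (c.box j', x j') = (c'.box j, x' j) := by
    intro j
    have : (c'.box j, x' j) ∈ (c.toConf x).pts := by
      rw [h]; exact mem_toConf.2 ⟨j, rfl⟩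
    exact mem_toConf.1 this
  choose f hf using h1
  have hf1 : ∀ j, c.box (f j) = c'.box j := fun j => congrArg Prod.fst (hf j)
  have hf2 : ∀ j, x (f j) = x' j := fun j => congrArg Prod.snd (hf j)
  have hinj : Function.Injective f := by
    intro j j' hjj
    apply c'.box_injective
    rw [← hf1, ← hf1, hjj]
  refine ⟨Equiv.ofBijective f (Finite.injective_iff_bijective.1 hinj), ?_, ?_⟩
  · ext j : 1
    exact hf1 j
  · funext j
    exact hf2 j

end OConf

/-! ### The space of ordered configurations of stage `r` -/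

/-- The space of configurations of pairwise disjoint boxes indexed by `ι`, of stage `r` (a subspace of
a product of copies of `Iv`). -/
def OSp (r : ℕ) (ι : Type) : Type :=
  {c : ι → Bx // (∀ j, St r (c j)) ∧ ∀ j j', j ≠ j' → Disj (c j) (c j')}

instance (r : ℕ) (ι : Type) : TopologicalSpace (OSp r ι) := instTopologicalSpaceSubtype

namespace OSp

variable {ι κ : Type} {r : ℕ}

/-- the inclusion of the stages -/
def incl {r s : ℕ} (h : r ≤ s) : C(OSp r ι, OSp s ι) where
  toFun c := ⟨c.1, fun j => (c.2.1 j).mono h, c.2.2⟩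
  continuous_toFun := Continuous.subtype_mk continuous_subtype_val _

@[simp] theorem incl_val {r s : ℕ} (h : r ≤ s) (c : OSp r ι) : (incl h c).1 = c.1 := rfl

/-- the action of the permutations -/
def re (e : κ ↪ ι) : C(OSp r ι, OSp r κ) where
  toFun c := ⟨fun j => c.1 (e j), fun j => c.2.1 (e j),
    fun j j' h => c.2.2 _ _ fun h' => h (e.injective h')⟩
  continuous_toFun := by
    refine Continuous.subtype_mk ?_ _
    exact continuous_pi fun j => (continuous_apply (e j)).comp continuous_subtype_val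

/-- Families of stage `r` are the continuous maps to `OSp r ι`. -/
def equiv : C(T, OSp r ι) ≃ {c : OConf ι T // c.IsSt r} where
  toFun f := ⟨⟨fun j => ⟨fun t => (f t).1 j,
      (continuous_apply j).comp (continuous_subtype_val.comp f.continuous)⟩,
      ⟨r, fun j t => (f t).2.1 j⟩, fun j j' h t => (f t).2.2 j j' h⟩, fun j t => (f t).2.1 j⟩
  invFun c := ⟨fun t => ⟨fun j => c.1.box j t, fun j => c.2 j t, fun j j' h => c.1.disj j j' h t⟩,
    Continuous.subtype_mk (continuous_pi fun j => (c.1.box j).continuous) _⟩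
  left_inv _ := rfl
  right_inv _ := rfl

theorem equiv_comp (f : C(T, OSp r ι)) (g : C(T', T)) :
    (equiv (f.comp g)).1 = (equiv f).1.pull g := rfl

end OSp

end Conf

end Vale.Agent.P263.G2
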