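import Mathlib.AlgebraicTopology.SingularSet
import Mathlib.Topology.ContinuousMap.Basic
import Mathlib.Topology.UnitInterval
import Vale.Agent.P263.E.Cofree

/-!
# P263, block G2: the singular simplicial set in the form `SS`, homotopies

* `sing X : SS` for a topological space `X : Type`: `p`-simplices are continuous maps
  `Dl p → X`, `Dl p = stdSimplex ℝ (Fin (p + 1))`.
* `hap H χ σ` : the homotopy `H : C(X × I, Y)` applied to `σ` along `χ : [p] → [1]`;
  `singHtp H : SS.Htp (sing X) (sing Y)`.
* `ofSSet : SSet.{0} → SS`, and the isomorphism `sing X ≅ ofSSet (TopCat.toSSet.obj X)`.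
-/

open Vale.Agent.P263.S Vale.Agent.P263.E

namespace Vale.Agent.P263.G2

/-- the topological simplex -/
abbrev Dl (p : ℕ) : Type := stdSimplex ℝ (Fin (p + 1))

/-- the affine map of topological simplices induced by a monotone map -/
noncomputable def dmap {p q : ℕ} (f : Op p q) : C(Dl p, Dl q) :=
  ⟨stdSimplex.map f, stdSimplex.continuous_map f⟩

theorem dmap_apply {p q : ℕ} (f : Op p q) (t : Dl p) : dmap f t = stdSimplex.map f t := rfl

@[simp] theorem dmap_id {p : ℕ} : dmap (OrderHom.id : Op p p) = ContinuousMap.id _ := by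
  apply ContinuousMap.ext
  intro t
  exact stdSimplex.map_id_apply t

theorem dmap_comp {p q r : ℕ} (f : Op q r) (g : Op p q) :
    dmap (f.comp g) = (dmap f).comp (dmap g) := by
  apply ContinuousMap.ext
  intro t
  exact (stdSimplex.map_comp_apply (g : Fin (p + 1) → Fin (q + 1)) f t).symm

/-- the singular simplicial set -/
noncomputable def sing (X : Type) [TopologicalSpace X] : SS where
  obj p := C(Dl p, X)
  map f σ := σ.comp (dmap f)
  map_id σ := by rw [dmap_id, ContinuousMap.comp_id]
  map_comp f g σ := by rw [dmap_comp, ContinuousMap.comp_assoc]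

variable {X Y Z : Type} [TopologicalSpace X] [TopologicalSpace Y] [TopologicalSpace Z]

/-- a simplex of `sing X` as a continuous map -/
def toC {p : ℕ} (σ : (sing X).obj p) : C(Dl p, X) := σ

/-- a continuous map as a simplex of `sing X` -/
def ofC {p : ℕ} (σ : C(Dl p, X)) : (sing X).obj p := σ

@[simp] theorem toC_ofC {p : ℕ} (σ : C(Dl p, X)) : toC (ofC σ) = σ := rfl

@[simp] theorem ofC_toC {p : ℕ} (σ : (sing X).obj p) : ofC (toC σ) = σ := rfl

theorem toC_map {p q : ℕ} (f : Op p q) (σ : (sing X).obj q) :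
    toC ((sing X).map f σ) = (toC σ).comp (dmap f) := rfl

theorem map_ofC {p q : ℕ} (f : Op p q) (σ : C(Dl q, X)) :
    (sing X).map f (ofC σ) = ofC (σ.comp (dmap f)) := rfl

/-- the simplicial map induced by a continuous map -/
noncomputable def singMap (f : C(X, Y)) : SS.Map (sing X) (sing Y) :=
  ⟨fun σ => ofC (f.comp (toC σ)), fun _ _ => rfl⟩

theorem singMap_app (f : C(X, Y)) {p : ℕ} (σ : (sing X).obj p) :
    (singMap f).app σ = ofC (f.comp (toC σ)) := rfl

theorem toC_singMap (f : C(X, Y)) {p : ℕ} (σ : (sing X).obj p) :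
    toC ((singMap f).app σ) = f.comp (toC σ) := rfl

theorem singMap_id : singMap (ContinuousMap.id X) = SS.Map.id (sing X) := rfl

theorem singMap_comp (g : C(Y, Z)) (f : C(X, Y)) :
    singMap (g.comp f) = (singMap g).comp (singMap f) := rfl

theorem singMap_inj {f : C(X, Y)} (hf : Function.Injective f) : (singMap f).Inj := by
  intro p σ τ h
  apply ContinuousMap.ext
  intro t
  apply hf
  exact congrArg (fun ρ : C(Dl p, Y) => ρ t) h

/-- the point of the unit interval determined by `χ : [p] → [1]` and a point of the simplex -/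
noncomputable def chiI {p : ℕ} (χ : Op p 1) : C(Dl p, unitInterval) where
  toFun t := ⟨dmap χ t 1, stdSimplex.zero_le (dmap χ t) 1, stdSimplex.le_one (dmap χ t) 1⟩
  continuous_toFun := by
    apply Continuous.subtype_mk
    exact (continuous_apply (1 : Fin 2)).comp (continuous_subtype_val.comp (dmap χ).continuous)

theorem chiI_comp {p q : ℕ} (χ : Op q 1) (f : Op p q) :
    chiI (χ.comp f) = (chiI χ).comp (dmap f) := by
  apply ContinuousMap.ext
  intro t
  apply Subtype.ext
  show dmap (χ.comp f) t 1 = dmap χ (dmap f t) 1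
  rw [dmap_comp]
  rfl

theorem chiI_c1 {p : ℕ} (t : Dl p) : chiI (c1 p) t = 1 := by
  apply Subtype.ext
  show dmap (c1 p) t 1 = 1
  rw [dmap_apply, stdSimplex.map_coe, FunOnFinite.linearMap_apply_apply]
  rw [Finset.filter_true_of_mem fun i _ => c1_val p i]
  exact stdSimplex.sum_eq_one t

theorem chiI_c0 {p : ℕ} (t : Dl p) : chiI (c0 p) t = 0 := by
  apply Subtype.ext
  show dmap (c0 p) t 1 = 0
  rw [dmap_apply, stdSimplex.map_coe, FunOnFinite.linearMap_apply_apply]
  rw [Finset.filter_false_of_mem, Finset.sum_empty]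
  intro i _
  rw [c0_val]
  decide

/-- a homotopy applied to a simplex -/
noncomputable def hap (H : C(X × unitInterval, Y)) {p : ℕ} (χ : Op p 1) (σ : C(Dl p, X)) :
    C(Dl p, Y) := H.comp (σ.prodMk (chiI χ))

@[simp] theorem hap_apply (H : C(X × unitInterval, Y)) {p : ℕ} (χ : Op p 1) (σ : C(Dl p, X))
    (t : Dl p) : hap H χ σ t = H (σ t, chiI χ t) := rfl

theorem hap_comp (H : C(X × unitInterval, Y)) {p q : ℕ} (f : Op p q) (χ : Op q 1)
    (σ : C(Dl q, X)) : hap H (χ.comp f) (σ.comp (dmap f)) = (hap H χ σ).comp (dmap f) := by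
  apply ContinuousMap.ext
  intro t
  rw [ContinuousMap.comp_apply, hap_apply, hap_apply, chiI_comp]
  rfl

/-- a homotopy of continuous maps induces a simplicial homotopy -/
noncomputable def singHtp (H : C(X × unitInterval, Y)) : SS.Htp (sing X) (sing Y) where
  h _ χ σ := hap H χ σ
  nat f χ σ := hap_comp H f χ σ

theorem singHtp_e1 (H : C(X × unitInterval, Y)) (f : C(X, Y)) (hf : ∀ x, H (x, 1) = f x) :
    (singHtp H).e1 = singMap f := by
  apply SS.Map.ext
  intro p σ
  apply ContinuousMap.ext
  intro t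
  show H ((show C(Dl p, X) from σ) t, chiI (c1 p) t) = _
  rw [chiI_c1, hf]
  rfl

theorem singHtp_e0 (H : C(X × unitInterval, Y)) (f : C(X, Y)) (hf : ∀ x, H (x, 0) = f x) :
    (singHtp H).e0 = singMap f := by
  apply SS.Map.ext
  intro p σ
  apply ContinuousMap.ext
  intro t
  show H ((show C(Dl p, X) from σ) t, chiI (c0 p) t) = _
  rw [chiI_c0, hf]
  rfl

end Vale.Agent.P263.G2
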