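import Vale.Agent.P263.G2.BoxContr
import Vale.Agent.P263.G2.SingSS
import Vale.Agent.P263.G2.Chains

/-!
# P263, block G2: the simplicial sets of families of little boxes

* `OF ι`, `OFr r ι` : ordered families (`OFr r ι` is isomorphic to `sing (OSp r ι)`);
* `F K`, `Fr r K` : unordered labelled families; `F.map f`, `Fr.map f` for `f : K → Option L`;
* `FN n K`, `FNr r n K` : those with `n` members;
* `acyc_OF` : **`OF (Fin n)` is acyclic** (any coefficients).
-/

open Vale.Agent.P263.S Vale.Agent.P263.E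

namespace Vale.Agent.P263.G2

variable {K L M : Type} {ι κ : Type}

/-! ### ordered families -/

theorem OConf.pull_dmap_id {p : ℕ} (c : OConf ι (Dl p)) :
    c.pull (dmap (OrderHom.id : Op p p)) = c := by rw [dmap_id, OConf.pull_id]

theorem OConf.pull_dmap_comp {p q r : ℕ} (f : Op q r) (g : Op p q) (c : OConf ι (Dl r)) :
    c.pull (dmap (f.comp g)) = (c.pull (dmap f)).pull (dmap g) := by
  rw [dmap_comp, OConf.pull_pull]

theorem Conf.pull_dmap_id {p : ℕ} (c : Conf K (Dl p)) :
    c.pull (dmap (OrderHom.id : Op p p)) = c := by rw [dmap_id, Conf.pull_id]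

theorem Conf.pull_dmap_comp {p q r : ℕ} (f : Op q r) (g : Op p q) (c : Conf K (Dl r)) :
    c.pull (dmap (f.comp g)) = (c.pull (dmap f)).pull (dmap g) := by
  rw [dmap_comp, Conf.pull_pull]

/-- the simplicial set of ordered families of boxes -/
noncomputable def OF (ι : Type) : SS where
  obj p := OConf ι (Dl p)
  map f c := c.pull (dmap f)
  map_id c := c.pull_dmap_id
  map_comp f g c := OConf.pull_dmap_comp f g c

theorem OF_map {p q : ℕ} (f : Op p q) (c : (OF ι).obj q) :
    (OF ι).map f c = OConf.pull (dmap f) c := rfl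

/-- the simplicial set of ordered families of boxes of stage `r` -/
noncomputable def OFr (r : ℕ) (ι : Type) : SS where
  obj p := {c : OConf ι (Dl p) // c.IsSt r}
  map f c := ⟨c.1.pull (dmap f), c.2.pull _⟩
  map_id c := Subtype.ext c.1.pull_dmap_id
  map_comp f g c := Subtype.ext (OConf.pull_dmap_comp f g c.1)

theorem OFr_map {r : ℕ} {p q : ℕ} (f : Op p q) (c : (OFr r ι).obj q) :
    (OFr r ι).map f c = ⟨OConf.pull (dmap f) c.1, c.2.pull _⟩ := rfl

namespace OFr

/-- the inclusion of the stages -/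
noncomputable def incl {r s : ℕ} (h : r ≤ s) (ι : Type) : SS.Map (OFr r ι) (OFr s ι) :=
  ⟨fun c => ⟨c.1, c.2.mono h⟩, fun _ _ => rfl⟩

/-- the inclusion of the stage `r` in the union -/
noncomputable def toOF (r : ℕ) (ι : Type) : SS.Map (OFr r ι) (OF ι) :=
  ⟨fun c => c.1, fun _ _ => rfl⟩

theorem toOF_inj (r : ℕ) (ι : Type) : (toOF r ι).Inj := fun _ _ _ h => Subtype.ext h

theorem toOF_incl {r s : ℕ} (h : r ≤ s) (ι : Type) :
    (toOF s ι).comp (incl h ι) = toOF r ι := rfl

theorem exists_toOF {p : ℕ} (c : (OF ι).obj p) : ∃ r x, (toOF r ι).app x = c := by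
  obtain ⟨r, hr⟩ := OConf.exists_isSt c
  exact ⟨r, ⟨c, hr⟩, rfl⟩

/-- `OFr r ι` is the singular simplicial set of `OSp r ι`: the map -/
noncomputable def ofSing (r : ℕ) (ι : Type) : SS.Map (sing (OSp r ι)) (OFr r ι) :=
  ⟨fun σ => OSp.equiv (toC σ), fun _ _ => rfl⟩

/-- `OFr r ι` is the singular simplicial set of `OSp r ι`: the inverse map -/
noncomputable def toSing (r : ℕ) (ι : Type) : SS.Map (OFr r ι) (sing (OSp r ι)) :=
  ⟨fun c => ofC (OSp.equiv.symm c), fun _ _ => rfl⟩

theorem ofSing_toSing (r : ℕ) (ι : Type) : (ofSing r ι).comp (toSing r ι) = SS.Map.id _ := rfl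

theorem toSing_ofSing (r : ℕ) (ι : Type) : (toSing r ι).comp (ofSing r ι) = SS.Map.id _ := rfl

end OFr

namespace OF

/-- reindexing along an injection -/
noncomputable def re (e : κ ↪ ι) : SS.Map (OF ι) (OF κ) :=
  ⟨fun c => OConf.re e c, fun _ _ => rfl⟩

theorem re_app (e : κ ↪ ι) {p : ℕ} (c : (OF ι).obj p) : (re e).app c = OConf.re e c := rfl

end OF

/-! ### homotopies -/

/-- `t ↦ (t, χ(t))` for `χ : [p] → [1]` -/
noncomputable def gr {p : ℕ} (χ : Op p 1) : C(Dl p, Dl p × unitInterval) :=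
  (ContinuousMap.id _).prodMk (chiI χ)

@[simp] theorem gr_apply {p : ℕ} (χ : Op p 1) (t : Dl p) : gr χ t = (t, chiI χ t) := rfl

/-- `t ↦ (t, 1 - χ(t))` for `χ : [p] → [1]` -/
noncomputable def gr' {p : ℕ} (χ : Op p 1) : C(Dl p, Dl p × unitInterval) :=
  (ContinuousMap.id _).prodMk (ContinuousMap.comp ⟨unitInterval.symm, unitInterval.continuous_symm⟩
    (chiI χ))

@[simp] theorem gr'_apply {p : ℕ} (χ : Op p 1) (t : Dl p) :
    gr' χ t = (t, unitInterval.symm (chiI χ t)) := rfl

theorem gr_comp {p q : ℕ} (χ : Op q 1) (f : Op p q) :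
    ((dmap f).prodMap (ContinuousMap.id unitInterval)).comp (gr (χ.comp f)) =
      (gr χ).comp (dmap f) := by
  apply ContinuousMap.ext
  intro t
  simp only [ContinuousMap.comp_apply, gr_apply, ContinuousMap.prodMap_apply]
  rw [chiI_comp]
  rfl

theorem gr'_comp {p q : ℕ} (χ : Op q 1) (f : Op p q) :
    ((dmap f).prodMap (ContinuousMap.id unitInterval)).comp (gr' (χ.comp f)) =
      (gr' χ).comp (dmap f) := by
  apply ContinuousMap.ext
  intro t
  simp only [ContinuousMap.comp_apply, gr'_apply, ContinuousMap.prodMap_apply]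
  rw [chiI_comp]
  rfl

theorem gr_c0 {p : ℕ} : gr (c0 p) = OConf.atTime (Dl p) 0 := by
  apply ContinuousMap.ext
  intro t
  rw [gr_apply, chiI_c0]
  rfl

theorem gr_c1 {p : ℕ} : gr (c1 p) = OConf.atTime (Dl p) 1 := by
  apply ContinuousMap.ext
  intro t
  rw [gr_apply, chiI_c1]
  rfl

theorem gr'_c0 {p : ℕ} : gr' (c0 p) = OConf.atTime (Dl p) 1 := by
  apply ContinuousMap.ext
  intro t
  rw [gr'_apply, chiI_c0, unitInterval.symm_zero]
  rfl

theorem gr'_c1 {p : ℕ} : gr' (c1 p) = OConf.atTime (Dl p) 0 := by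
  apply ContinuousMap.ext
  intro t
  rw [gr'_apply, chiI_c1, unitInterval.symm_one]
  rfl

/-! ### the null-homotopy -/

/-- the null-homotopy along `χ` -/
noncomputable def nullAt (r : ℕ) {n p : ℕ} (χ : Op p 1) (c : {c : OConf (Fin n) (Dl p) // c.IsSt r}) :
    {c : OConf (Fin n) (Dl p) // c.IsSt (r + 1)} :=
  ⟨(OConf.nullH r c).1.pull (gr' χ), (OConf.nullH r c).2.pull _⟩

theorem nullAt_comp (r : ℕ) {n p q : ℕ} (f : Op p q) (χ : Op q 1)
    (c : {c : OConf (Fin n) (Dl q) // c.IsSt r}) :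
    nullAt r (χ.comp f) ⟨c.1.pull (dmap f), c.2.pull _⟩ =
      ⟨(nullAt r χ c).1.pull (dmap f), (nullAt r χ c).2.pull _⟩ := by
  apply Subtype.ext
  show (OConf.nullH r ⟨c.1.pull (dmap f), c.2.pull _⟩).1.pull (gr' (χ.comp f)) =
    ((OConf.nullH r c).1.pull (gr' χ)).pull (dmap f)
  rw [OConf.nullH_pull, OConf.pull_pull, OConf.pull_pull, gr'_comp]

theorem nullAt_c1 (r : ℕ) {n p : ℕ} (c : {c : OConf (Fin n) (Dl p) // c.IsSt r}) :
    nullAt r (c1 p) c = ⟨c.1, c.2.mono r.le_succ⟩ := by
  apply Subtype.ext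
  show (OConf.nullH r c).1.pull (gr' (c1 p)) = c.1
  rw [gr'_c1, OConf.nullH_zero]

theorem nullAt_c0 (r : ℕ) {n p : ℕ} (c : {c : OConf (Fin n) (Dl p) // c.IsSt r}) :
    nullAt r (c0 p) c = ⟨OConf.base (Dl p) n r, OConf.isSt_base n r⟩ := by
  apply Subtype.ext
  show (OConf.nullH r c).1.pull (gr' (c0 p)) = _
  rw [gr'_c0, OConf.nullH_one]

/-- the null-homotopy of the stage map: end `0` is constant, end `1` is the inclusion -/
noncomputable def nullHtp (r n : ℕ) : SS.Htp (OFr r (Fin n)) (OFr (r + 1) (Fin n)) where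
  h _ χ c := nullAt r χ c
  nat f χ c := nullAt_comp r f χ c

/-- the base vertex of stage `r + 1` -/
noncomputable def baseV (r n : ℕ) : (OFr (r + 1) (Fin n)).obj 0 :=
  ⟨OConf.base (Dl 0) n r, OConf.isSt_base n r⟩

theorem nullHtp_e1 (r n : ℕ) : (nullHtp r n).e1 = OFr.incl r.le_succ (Fin n) := by
  apply SS.Map.ext
  intro p c
  exact nullAt_c1 r c

theorem nullHtp_e0 (r n : ℕ) : (nullHtp r n).e0 = cstMap _ _ (baseV r n) := by
  apply SS.Map.ext
  intro p c
  exact nullAt_c0 r c

/-- **The simplicial set of ordered families of `n` boxes is acyclic.** -/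
theorem acyc_OF (k : Type) [CommRing k] (n p : ℕ) : Acyc k (OF (Fin n)) p :=
  acyc_of_union_stage (fun r => OFr.incl r.le_succ (Fin n)) (fun r => OFr.toOF r (Fin n))
    (fun _ => rfl) (fun r => OFr.toOF_inj r (Fin n)) (fun _ u => OFr.exists_toOF u)
    (fun r => nullHtp r n) (fun r => baseV r n) (fun r => nullHtp_e1 r n)
    (fun r => nullHtp_e0 r n) p

/-! ### unordered labelled families -/

/-- the simplicial set of families of finite sets of pairwise disjoint boxes with labels in `K` -/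
noncomputable def F (K : Type) : SS where
  obj p := Conf K (Dl p)
  map f S := S.pull (dmap f)
  map_id S := S.pull_dmap_id
  map_comp f g S := Conf.pull_dmap_comp f g S

theorem F_map {p q : ℕ} (f : Op p q) (S : (F K).obj q) : (F K).map f S = Conf.pull (dmap f) S := rfl

/-- the families of stage `r` -/
noncomputable def Fr (r : ℕ) (K : Type) : SS where
  obj p := {S : Conf K (Dl p) // S.IsSt r}
  map f S := ⟨S.1.pull (dmap f), S.2.pull _⟩
  map_id S := Subtype.ext S.1.pull_dmap_id
  map_comp f g S := Subtype.ext (Conf.pull_dmap_comp f g S.1)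

/-- the families with `n` members -/
noncomputable def FN (n : ℕ) (K : Type) : SS where
  obj p := {S : Conf K (Dl p) // S.pts.card = n}
  map f S := ⟨S.1.pull (dmap f), by rw [Conf.card_pull, S.2]⟩
  map_id S := Subtype.ext S.1.pull_dmap_id
  map_comp f g S := Subtype.ext (Conf.pull_dmap_comp f g S.1)

/-- the families of stage `r` with `n` members -/
noncomputable def FNr (r n : ℕ) (K : Type) : SS where
  obj p := {S : Conf K (Dl p) // S.IsSt r ∧ S.pts.card = n}
  map f S := ⟨S.1.pull (dmap f), S.2.1.pull _, by rw [Conf.card_pull, S.2.2]⟩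
  map_id S := Subtype.ext S.1.pull_dmap_id
  map_comp f g S := Subtype.ext (Conf.pull_dmap_comp f g S.1)

namespace F

/-- functoriality in the pointed set `K₊` -/
noncomputable def map (f : K → Option L) : SS.Map (F K) (F L) :=
  ⟨fun S => Conf.map f S, fun _ _ => Conf.map_pull _ _ _⟩

theorem map_app (f : K → Option L) {p : ℕ} (S : (F K).obj p) : (map f).app S = Conf.map f S := rfl

theorem map_some : map (some : K → Option K) = SS.Map.id (F K) := by
  apply SS.Map.ext
  intro p S
  exact Conf.map_some S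

theorem map_comp (g : L → Option M) (f : K → Option L) :
    (map g).comp (map f) = map fun k => (f k).bind g := by
  apply SS.Map.ext
  intro p S
  exact Conf.map_map f g S

end F

namespace Fr

variable {r s : ℕ}

/-- functoriality in the pointed set `K₊` -/
noncomputable def map (f : K → Option L) : SS.Map (Fr r K) (Fr r L) :=
  ⟨fun S => ⟨Conf.map f S.1, S.2.map f⟩, fun _ _ => Subtype.ext (Conf.map_pull _ _ _)⟩

theorem map_some : map (r := r) (some : K → Option K) = SS.Map.id (Fr r K) := by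
  apply SS.Map.ext
  intro p S
  exact Subtype.ext (Conf.map_some S.1)

theorem map_comp (g : L → Option M) (f : K → Option L) :
    (map (r := r) g).comp (map f) = map fun k => (f k).bind g := by
  apply SS.Map.ext
  intro p S
  exact Subtype.ext (Conf.map_map f g S.1)

/-- the inclusion of the stages -/
noncomputable def incl (h : r ≤ s) (K : Type) : SS.Map (Fr r K) (Fr s K) :=
  ⟨fun S => ⟨S.1, S.2.mono h⟩, fun _ _ => rfl⟩

/-- the inclusion of the stage `r` in the union -/
noncomputable def toF (r : ℕ) (K : Type) : SS.Map (Fr r K) (F K) := ⟨fun S => S.1, fun _ _ => rfl⟩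

theorem toF_inj (r : ℕ) (K : Type) : (toF r K).Inj := fun _ _ _ h => Subtype.ext h

theorem toF_incl (h : r ≤ s) (K : Type) : (toF s K).comp (incl h K) = toF r K := rfl

theorem exists_toF {p : ℕ} (S : (F K).obj p) : ∃ r x, (toF r K).app x = S := by
  obtain ⟨r, hr⟩ := Conf.exists_isSt S
  exact ⟨r, ⟨S, hr⟩, rfl⟩

theorem incl_map (h : r ≤ s) (f : K → Option L) :
    (incl h L).comp (map f) = (map f).comp (incl h K) := rfl

theorem toF_map (f : K → Option L) : (toF r L).comp (map f) = (F.map f).comp (toF r K) := rfl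

end Fr

namespace FN

/-- the inclusion -/
noncomputable def toF (n : ℕ) (K : Type) : SS.Map (FN n K) (F K) := ⟨fun S => S.1, fun _ _ => rfl⟩

theorem toF_inj (n : ℕ) (K : Type) : (toF n K).Inj := fun _ _ _ h => Subtype.ext h

theorem card_map {T : Type} [TopologicalSpace T] [Nonempty T] (f : K → L) (S : Conf K T) :
    (S.map fun k => some (f k)).pts.card = S.pts.card := by
  classical
  have h : (S.map fun k => some (f k)).pts = S.pts.image fun x => (x.1, f x.2) := by
    ext y
    rw [Conf.mem_map, Finset.mem_image]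
    constructor
    · rintro ⟨k, hk, h⟩
      exact ⟨(y.1, k), hk, Prod.ext rfl (Option.some.inj h)⟩
    · rintro ⟨x, hx, rfl⟩
      exact ⟨x.2, hx, rfl⟩
  rw [h, Finset.card_image_of_injOn]
  intro x hx y hy hxy
  obtain ⟨t⟩ := ‹Nonempty T›
  have h1 : x.1 = y.1 := (Prod.ext_iff.1 hxy).1
  exact S.eq_of_fst hx hy t (by rw [h1])

/-- relabelling along a map of labels -/
noncomputable def map (n : ℕ) (f : K → L) : SS.Map (FN n K) (FN n L) :=
  ⟨fun S => ⟨S.1.map fun k => some (f k), (card_map f S.1).trans S.2⟩,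
    fun g S => Subtype.ext (Conf.map_pull (fun k => some (f k)) (dmap g) S.1)⟩

/-- the labelled configuration underlying an ordered one -/
noncomputable def ofOrd (n : ℕ) (x : Fin n → K) : SS.Map (OF (Fin n)) (FN n K) :=
  ⟨fun c => ⟨OConf.toConf x c, (OConf.card_toConf x c).trans (Fintype.card_fin n)⟩,
    fun _ _ => Subtype.ext (OConf.toConf_pull _ _ _)⟩

theorem ofOrd_app (n : ℕ) (x : Fin n → K) {p : ℕ} (c : (OF (Fin n)).obj p) :
    ((ofOrd n x).app c).1 = OConf.toConf x c := rfl

theorem exists_ofOrd {n p : ℕ} (S : (FN n K).obj p) : ∃ x c, (ofOrd n x).app c = S := by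
  obtain ⟨c, x, h⟩ := OConf.exists_toConf S.1 S.2
  exact ⟨x, c, Subtype.ext h⟩

theorem exists_perm {n p : ℕ} {x x' : Fin n → K} {c c' : (OF (Fin n)).obj p}
    (h : (ofOrd n x).app c = (ofOrd n x').app c') :
    ∃ e : Equiv.Perm (Fin n), (OF.re e.toEmbedding).app c = c' ∧ x ∘ e = x' :=
  OConf.exists_perm (congrArg Subtype.val h)

theorem toConf_re {T : Type} [TopologicalSpace T] [Fintype ι] (x : ι → K) (e : Equiv.Perm ι)
    (c : OConf ι T) : (c.re e.toEmbedding).toConf (x ∘ e) = c.toConf x := by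
  ext y
  rw [OConf.mem_toConf, OConf.mem_toConf]
  constructor
  · rintro ⟨j, rfl⟩
    exact ⟨e j, rfl⟩
  · rintro ⟨j, rfl⟩
    refine ⟨e.symm j, ?_⟩
    simp

theorem ofOrd_re {n : ℕ} (x : Fin n → K) (e : Equiv.Perm (Fin n)) :
    (ofOrd n (x ∘ e)).comp (OF.re e.toEmbedding) = ofOrd n x := by
  apply SS.Map.ext
  intro p c
  exact Subtype.ext (toConf_re x e c)

end FN

end Vale.Agent.P263.G2
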