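import Vale.Agent.P263.G.BarM
import Vale.Agent.P263.G2.BoxSS

/-!
# P263, block G2-8: the unordered families of `n` little boxes are a model of `BΣ_n`

* `freeBox n : FreeQ (Perm (Fin n)) (OF (Fin n)) (FN n Unit)`;
* `boxToGam n : SS.Map (FN n Unit) (Gam n)` and `isoUpTo_boxToGam` : it induces isomorphisms in the
  cohomology with coefficients in any ring, in all degrees;
* `conn_box n D : Conn k D (FN n Unit) (Gam n)`, `conn_box_MN n D : Conn k D (FN n Unit) (GC.MN n)`.
-/

open Vale.Agent.P263.S Vale.Agent.P263.E Vale.Agent.P263.G Vale.Agent.P263.TOP.H Equiv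

namespace Vale.Agent.P263.G2

/-- The simplicial set of unordered families of `n` boxes is the quotient of the one of ordered
families by the free action of the permutations. -/
noncomputable def freeBox (n : ℕ) : FreeQ (Perm (Fin n)) (OF (Fin n)) (FN n Unit) where
  p := FN.ofOrd n fun _ => ()
  act g c := (OF.re (g⁻¹).toEmbedding).app c
  one_act c := OConf.ext fun j => rfl
  mul_act g h c := OConf.ext fun j => by
    change OConf.box c ((g * h)⁻¹ j) = OConf.box c (h⁻¹ (g⁻¹ j))
    simp
  map_act f g c := rfl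
  free g c h := by
    have h1 : ∀ j, g⁻¹ j = j := OConf.re_eq_self c (g⁻¹).toEmbedding h
    have : g⁻¹ = 1 := Equiv.ext h1
    exact inv_eq_one.1 this
  p_act g c := Subtype.ext (FN.toConf_re (fun _ : Fin n => ()) g⁻¹ c)
  surj p S := by
    obtain ⟨x, c, h⟩ := FN.exists_ofOrd S
    exact ⟨c, h⟩
  orbit c c' h := by
    obtain ⟨e, he, -⟩ := FN.exists_perm h
    refine ⟨e⁻¹, ?_⟩
    rw [inv_inv]
    exact he

/-- a vertex -/
noncomputable def boxV (n : ℕ) : (OF (Fin n)).obj 0 := OConf.base (Dl 0) n 0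

theorem exists_boxToGam (n : ℕ) : ∃ f : SS.Map (FN n Unit) (Gam n),
    (∃ g : SS.Map (OF (Fin n)) (ES (Fin n ↪ ℕ)),
      (∀ (p : ℕ) (c : (OF (Fin n)).obj p),
        f.app ((freeBox n).p.app c) = (freeGam n).p.app (g.app c)) ∧
      ∀ (p : ℕ) (s : Perm (Fin n)) (c : (OF (Fin n)).obj p),
        g.app ((freeBox n).act s c) = (freeGam n).act s (g.app c)) ∧
    ∀ (k : Type) [CommRing k] (D : ℕ), Nonempty (ConeContr k f D) := by
  obtain ⟨f, hf⟩ := (freeBox n).exists_toES (aE n) (stdE n) (aE_mul n)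
  have hf' : ∀ {m : ℕ} (g : Perm (Fin n)) (w : (OF (Fin n)).obj m),
      f.app ((freeBox n).act g w) = (freeGam n).act g (f.app w) := by
    intro m g w
    funext i
    exact hf g w i
  exact ⟨(freeBox n).induce (freeGam n) f hf',
    ⟨f, fun p c => FreeQ.induce_p (freeBox n) (freeGam n) f hf' c, fun p s c => hf' s c⟩,
    fun k _ D => coneContr_quot (freeBox n) (freeGam n) f _ hf'
      (fun w => FreeQ.induce_p (freeBox n) (freeGam n) f hf' w)
      (HIso.of_acyc f (boxV n) (fun p _ => acyc_OF k n p) fun p _ => ES_acyc (stdE n) p)⟩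

/-- A map from the unordered families of `n` boxes to `Gam n`. -/
noncomputable def boxToGam (n : ℕ) : SS.Map (FN n Unit) (Gam n) := (exists_boxToGam n).choose

/-- `boxToGam n` is covered by an equivariant map of the coverings by the orderings. -/
theorem boxToGam_cover (n : ℕ) : ∃ g : SS.Map (OF (Fin n)) (ES (Fin n ↪ ℕ)),
    (∀ (p : ℕ) (c : (OF (Fin n)).obj p),
      (boxToGam n).app ((freeBox n).p.app c) = (freeGam n).p.app (g.app c)) ∧
    ∀ (p : ℕ) (s : Perm (Fin n)) (c : (OF (Fin n)).obj p),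
      g.app ((freeBox n).act s c) = (freeGam n).act s (g.app c) :=
  (exists_boxToGam n).choose_spec.1

theorem coneContr_boxToGam (k : Type) [CommRing k] (n D : ℕ) :
    Nonempty (ConeContr k (boxToGam n) D) := (exists_boxToGam n).choose_spec.2 k D

/-- `FN n Unit → Gam n` is an isomorphism in cohomology, with any coefficients. -/
theorem isoUpTo_boxToGam (k : Type) [CommRing k] (n D : ℕ) : IsoUpTo k D (boxToGam n) := by
  obtain ⟨c⟩ := coneContr_boxToGam k n D
  exact c.isoUpTo.mono (Nat.le_succ D)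

/-- `FN n Unit → Gam n` is an isomorphism in homology, with any coefficients. -/
theorem hIso_boxToGam (k : Type) [CommRing k] (n D : ℕ) : HIso k (boxToGam n) D := by
  obtain ⟨c⟩ := coneContr_boxToGam k n D
  exact c.hIso

theorem conn_box (k : Type) [CommRing k] (n D : ℕ) : Conn k D (FN n Unit) (Gam n) :=
  Conn.of_map _ (isoUpTo_boxToGam k n D)

theorem conn_box_MN (k : Type) [CommRing k] (n D : ℕ) : Conn k D (FN n Unit) (GC.MN n) :=
  (conn_box k n D).trans (Conn.of_map _ (isoUpTo_mnToGam k n D)).symm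

end Vale.Agent.P263.G2
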