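import Vale.Agent.P263.G2.Box

/-!
# P263, block G2: the space of ordered boxes becomes contractible after one stabilisation

For ordered families of `n` pairwise disjoint boxes of stage `r`: first shrink the coordinate `r` of
the box number `j` from `(0,1)` to `(j/n, (j+1)/n)`, then blow up all the other coordinates to
`(0,1)`.

* `OConf.nullH r : {c : OConf (Fin n) T // c.IsSt r} → {c : OConf (Fin n) (T × I) // c.IsSt (r + 1)}`,
  natural in `T`; it is `c` at time `0` and `OConf.base n r` at time `1`.
* `OSp.nullH r n : C(OSp r (Fin n) × I, OSp (r + 1) (Fin n))`.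
-/

open Topology

namespace Vale.Agent.P263.G2

open Bx

variable {K : Type} {T T' : Type} [TopologicalSpace T] [TopologicalSpace T']

/-- `min (2 s) 1` -/
noncomputable def u1 (s : unitInterval) : unitInterval :=
  ⟨min (2 * (s : ℝ)) 1, le_min (by linarith [s.2.1]) zero_le_one, min_le_right _ _⟩

/-- `max (2 s - 1) 0` -/
noncomputable def u2 (s : unitInterval) : unitInterval :=
  ⟨max (2 * (s : ℝ) - 1) 0, le_max_right _ _, max_le (by linarith [s.2.2]) zero_le_one⟩

theorem continuous_u1 : Continuous u1 :=
  Continuous.subtype_mk ((continuous_const.mul continuous_subtype_val).min continuous_const) _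

theorem continuous_u2 : Continuous u2 :=
  Continuous.subtype_mk (((continuous_const.mul continuous_subtype_val).sub continuous_const).max
    continuous_const) _

@[simp] theorem u1_zero : u1 0 = 0 := by
  apply Subtype.ext
  simp [u1]

@[simp] theorem u1_one : u1 1 = 1 := by
  apply Subtype.ext
  simp [u1]

@[simp] theorem u2_zero : u2 0 = 0 := by
  apply Subtype.ext
  simp [u2]

@[simp] theorem u2_one : u2 1 = 1 := by
  apply Subtype.ext
  simp [u2]
  norm_num

theorem u1_eq_one_or_u2_eq_zero (s : unitInterval) : u1 s = 1 ∨ u2 s = 0 := by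
  rcases le_total (1 : ℝ) (2 * (s : ℝ)) with h | h
  · left
    apply Subtype.ext
    simp [u1, h]
  · right
    apply Subtype.ext
    simp [u2, h]

/-- the null-homotopy of one box: `j` is the number of the box, `r` the free coordinate -/
noncomputable def nullBox (n r : ℕ) (j : Fin n) (s : unitInterval) (b : Bx) : Bx := fun i =>
  if i = r then Iv.mix (u1 s) Iv.full (Iv.part n j) else Iv.mix (u2 s) (b i) Iv.full

theorem nullBox_self (n r : ℕ) (j : Fin n) (s : unitInterval) (b : Bx) :
    nullBox n r j s b r = Iv.mix (u1 s) Iv.full (Iv.part n j) := if_pos rfl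

theorem nullBox_of_ne (n r : ℕ) (j : Fin n) (s : unitInterval) (b : Bx) {i : ℕ} (h : i ≠ r) :
    nullBox n r j s b i = Iv.mix (u2 s) (b i) Iv.full := if_neg h

theorem nullBox_zero {n r : ℕ} (j : Fin n) {b : Bx} (hb : St r b) : nullBox n r j 0 b = b := by
  funext i
  by_cases h : i = r
  · subst h
    rw [nullBox_self, u1_zero, Iv.mix_zero, hb i le_rfl]
  · rw [nullBox_of_ne _ _ _ _ _ h, u2_zero, Iv.mix_zero]

/-- the standard box number `j` -/
noncomputable def stdBox (n r : ℕ) (j : Fin n) : Bx := fun i => if i = r then Iv.part n j else Iv.full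

theorem nullBox_one (n r : ℕ) (j : Fin n) (b : Bx) : nullBox n r j 1 b = stdBox n r j := by
  funext i
  by_cases h : i = r
  · subst h
    rw [nullBox_self, u1_one, Iv.mix_one, stdBox, if_pos rfl]
  · rw [nullBox_of_ne _ _ _ _ _ h, u2_one, Iv.mix_one, stdBox, if_neg h]

theorem st_nullBox {n r : ℕ} (j : Fin n) (s : unitInterval) {b : Bx} (hb : St r b) :
    St (r + 1) (nullBox n r j s b) := by
  intro i hi
  rw [nullBox_of_ne _ _ _ _ _ (by omega), hb i (by omega), Iv.mix_self]

theorem st_stdBox (n r : ℕ) (j : Fin n) : St (r + 1) (stdBox n r j) := by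
  intro i hi
  rw [stdBox, if_neg (by omega)]

theorem disj_nullBox {n r : ℕ} {j k : Fin n} (hjk : j ≠ k) (s : unitInterval) {b c : Bx}
    (hb : St r b) (hc : St r c) (h : Disj b c) :
    Disj (nullBox n r j s b) (nullBox n r k s c) := by
  rcases u1_eq_one_or_u2_eq_zero s with hs | hs
  · refine ⟨r, ?_⟩
    rw [nullBox_self, nullBox_self, hs, Iv.mix_one, Iv.mix_one]
    rcases lt_or_gt_of_ne hjk with h' | h'
    · exact Or.inl (Iv.part_hi_le_lo h')
    · exact Or.inr (Iv.part_hi_le_lo h')
  · obtain ⟨i, hi, h⟩ := h.exists_lt hb hc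
    refine ⟨i, ?_⟩
    rw [nullBox_of_ne _ _ _ _ _ hi.ne, nullBox_of_ne _ _ _ _ _ hi.ne, hs, Iv.mix_zero, Iv.mix_zero]
    exact h

theorem disj_stdBox {n : ℕ} (r : ℕ) {j k : Fin n} (hjk : j ≠ k) :
    Disj (stdBox n r j) (stdBox n r k) := by
  refine ⟨r, ?_⟩
  rw [stdBox, stdBox, if_pos rfl, if_pos rfl]
  rcases lt_or_gt_of_ne hjk with h' | h'
  · exact Or.inl (Iv.part_hi_le_lo h')
  · exact Or.inr (Iv.part_hi_le_lo h')

theorem continuous_nullBox (n r : ℕ) (j : Fin n) :
    Continuous fun x : unitInterval × Bx => nullBox n r j x.1 x.2 := by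
  refine continuous_pi fun i => ?_
  by_cases h : i = r
  · subst h
    simp only [nullBox_self]
    exact (continuous_u1.comp continuous_fst).ivMix continuous_const continuous_const
  · simp only [nullBox_of_ne _ _ _ _ _ h]
    exact (continuous_u2.comp continuous_fst).ivMix ((continuous_apply i).comp continuous_snd)
      continuous_const

namespace OConf

/-- the standard configuration, which uses only the coordinate `r` -/
noncomputable def base (T : Type) [TopologicalSpace T] (n r : ℕ) : OConf (Fin n) T where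
  box j := ContinuousMap.const _ (stdBox n r j)
  stage := ⟨r + 1, fun j _ => st_stdBox n r j⟩
  disj _ _ h _ := disj_stdBox r h

@[simp] theorem base_box (n r : ℕ) (j : Fin n) (t : T) : (base T n r).box j t = stdBox n r j := rfl

@[simp] theorem pull_base (g : C(T', T)) (n r : ℕ) : (base T n r).pull g = base T' n r := rfl

theorem isSt_base (n r : ℕ) : (base T n r).IsSt (r + 1) := fun j _ => st_stdBox n r j

/-- The null-homotopy. -/
noncomputable def nullH {n : ℕ} (r : ℕ) (c : {c : OConf (Fin n) T // c.IsSt r}) :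
    {c : OConf (Fin n) (T × unitInterval) // c.IsSt (r + 1)} :=
  ⟨{ box := fun j => ⟨fun x => nullBox n r j x.2 (c.1.box j x.1),
        (continuous_nullBox n r j).comp (continuous_snd.prodMk
          ((c.1.box j).continuous.comp continuous_fst))⟩
     stage := ⟨r + 1, fun j x => st_nullBox j x.2 (c.2 j x.1)⟩
     disj := fun j k h x => disj_nullBox h x.2 (c.2 j x.1) (c.2 k x.1) (c.1.disj j k h x.1) },
    fun j x => st_nullBox j x.2 (c.2 j x.1)⟩

theorem nullH_box {n : ℕ} (r : ℕ) (c : {c : OConf (Fin n) T // c.IsSt r}) (j : Fin n)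
    (x : T × unitInterval) : (nullH r c).1.box j x = nullBox n r j x.2 (c.1.box j x.1) := rfl

/-- `t ↦ (t, s)` -/
def atTime (T : Type) [TopologicalSpace T] (s : unitInterval) : C(T, T × unitInterval) :=
  ⟨fun t => (t, s), by fun_prop⟩

theorem nullH_zero {n : ℕ} (r : ℕ) (c : {c : OConf (Fin n) T // c.IsSt r}) :
    (nullH r c).1.pull (atTime T 0) = c.1 := by
  ext j : 1
  ext t : 1
  exact nullBox_zero j (c.2 j t)

theorem nullH_one {n : ℕ} (r : ℕ) (c : {c : OConf (Fin n) T // c.IsSt r}) :
    (nullH r c).1.pull (atTime T 1) = base T n r := by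
  ext j : 1
  ext t : 1
  exact nullBox_one n r j _

/-- naturality -/
theorem nullH_pull {n : ℕ} (r : ℕ) (c : {c : OConf (Fin n) T // c.IsSt r}) (g : C(T', T)) :
    (nullH r ⟨c.1.pull g, c.2.pull g⟩).1 =
      (nullH r c).1.pull (g.prodMap (ContinuousMap.id unitInterval)) := rfl

end OConf

namespace OSp

/-- The null-homotopy of the inclusion `OSp r (Fin n) → OSp (r + 1) (Fin n)`. -/
noncomputable def nullH (r n : ℕ) : C(OSp r (Fin n) × unitInterval, OSp (r + 1) (Fin n)) where
  toFun x := ⟨fun j => nullBox n r j x.2 (x.1.1 j), fun j => st_nullBox j x.2 (x.1.2.1 j),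
    fun j k h => disj_nullBox h x.2 (x.1.2.1 j) (x.1.2.1 k) (x.1.2.2 j k h)⟩
  continuous_toFun := by
    refine Continuous.subtype_mk (continuous_pi fun j => ?_) _
    exact (continuous_nullBox n r j).comp (continuous_snd.prodMk
      ((continuous_apply j).comp (continuous_subtype_val.comp continuous_fst)))

/-- the standard configuration -/
noncomputable def base (r n : ℕ) : OSp (r + 1) (Fin n) :=
  ⟨stdBox n r, fun j => st_stdBox n r j, fun _ _ h => disj_stdBox r h⟩

theorem nullH_zero (r n : ℕ) (c : OSp r (Fin n)) : nullH r n (c, 0) = incl r.le_succ c := by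
  apply Subtype.ext
  funext j
  exact nullBox_zero j (c.2.1 j)

theorem nullH_one (r n : ℕ) (c : OSp r (Fin n)) : nullH r n (c, 1) = base r n := by
  apply Subtype.ext
  funext j
  exact nullBox_one n r j _

/-- The inclusion of the stage `r` into the stage `r + 1` is null-homotopic. -/
theorem homotopic_const (r n : ℕ) :
    (incl (ι := Fin n) r.le_succ).Homotopic (ContinuousMap.const _ (base r n)) :=
  ⟨{ toFun := fun x => nullH r n (x.2, x.1)
     continuous_toFun := (nullH r n).continuous.comp (by fun_prop)
     map_zero_left := fun c => nullH_zero r n c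
     map_one_left := fun c => nullH_one r n c }⟩

end OSp

end Vale.Agent.P263.G2
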