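import Vale.Agent.P263.G2.BoxSS

/-!
# P263, block G2: vertices of the simplicial sets of boxes

* `OF.exists_edge` : any two vertices of `OF (Fin n)` are joined by an edge;
* `F.exists_edge_ofOrd` : two vertices of `F K` with the same labels are joined by an edge;
* `F.exists_edge_unit` : two vertices of `F Unit` with the same number of boxes are joined by an
  edge.
-/

open Vale.Agent.P263.S Vale.Agent.P263.E

namespace Vale.Agent.P263.G2

variable {K : Type}

theorem id_comp_dl_zero : (OrderHom.id : Op 1 1).comp (dl 0 0) = c1 0 := by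
  apply OrderHom.ext
  funext x
  have h : x = 0 := Subsingleton.elim (α := Fin 1) _ _
  subst h
  rfl

theorem id_comp_dl_one : (OrderHom.id : Op 1 1).comp (dl 0 1) = c0 0 := by
  apply OrderHom.ext
  funext x
  have h : x = 0 := Subsingleton.elim (α := Fin 1) _ _
  subst h
  rfl

/-- the edge given by a path -/
noncomputable def edgeOf {X : Type} [TopologicalSpace X] {x y : X} (γ : Path x y) : C(Dl 1, X) :=
  (γ : C(unitInterval, X)).comp (chiI OrderHom.id)

theorem edgeOf_dl_one {X : Type} [TopologicalSpace X] {x y : X} (γ : Path x y) (t : Dl 0) :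
    edgeOf γ (dmap (dl 0 1) t) = x := by
  have h : chiI OrderHom.id (dmap (dl 0 1) t) = 0 := by
    rw [← ContinuousMap.comp_apply, ← chiI_comp, id_comp_dl_one, chiI_c0]
  show γ (chiI OrderHom.id (dmap (dl 0 1) t)) = x
  rw [h]
  exact γ.source

theorem edgeOf_dl_zero {X : Type} [TopologicalSpace X] {x y : X} (γ : Path x y) (t : Dl 0) :
    edgeOf γ (dmap (dl 0 0) t) = y := by
  have h : chiI OrderHom.id (dmap (dl 0 0) t) = 1 := by
    rw [← ContinuousMap.comp_apply, ← chiI_comp, id_comp_dl_zero, chiI_c1]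
  show γ (chiI OrderHom.id (dmap (dl 0 0) t)) = y
  rw [h]
  exact γ.target

/-- the path from a configuration to the standard one -/
noncomputable def OSp.nullPath {r n : ℕ} (c : OSp r (Fin n)) :
    Path (OSp.incl r.le_succ c) (OSp.base r n) where
  toFun s := OSp.nullH r n (c, s)
  continuous_toFun := (OSp.nullH r n).continuous.comp (by fun_prop)
  source' := OSp.nullH_zero r n c
  target' := OSp.nullH_one r n c

theorem OConf.ext_dl_zero {ι : Type} {c c' : OConf ι (Dl 0)} (t : Dl 0)
    (h : ∀ j, c.box j t = c'.box j t) : c = c' := by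
  ext j : 1
  ext s : 1
  have : s = t := Subsingleton.elim _ _
  rw [this, h]

namespace OF

/-- Any two vertices of `OF (Fin n)` are joined by an edge. -/
theorem exists_edge {n : ℕ} (c c' : OConf (Fin n) (Dl 0)) :
    ∃ E : OConf (Fin n) (Dl 1), E.pull (dmap (dl 0 1)) = c ∧ E.pull (dmap (dl 0 0)) = c' := by
  obtain ⟨r, hr⟩ := c.exists_isSt
  obtain ⟨r', hr'⟩ := c'.exists_isSt
  have t : Dl 0 := Classical.arbitrary _
  let x : OSp (max r r') (Fin n) := OSp.equiv.symm ⟨c, hr.mono (le_max_left _ _)⟩ t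
  let x' : OSp (max r r') (Fin n) := OSp.equiv.symm ⟨c', hr'.mono (le_max_right _ _)⟩ t
  let γ := (OSp.nullPath x).trans (OSp.nullPath x').symm
  refine ⟨(OSp.equiv (edgeOf γ)).1, ?_, ?_⟩
  · refine OConf.ext_dl_zero t fun j => ?_
    show (edgeOf γ (dmap (dl 0 1) t)).1 j = c.box j t
    rw [edgeOf_dl_one]
    rfl
  · refine OConf.ext_dl_zero t fun j => ?_
    show (edgeOf γ (dmap (dl 0 0) t)).1 j = c'.box j t
    rw [edgeOf_dl_zero]
    rfl

theorem exists_edge' {n : ℕ} (c c' : (OF (Fin n)).obj 0) :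
    ∃ E : (OF (Fin n)).obj 1, (OF (Fin n)).map (dl 0 1) E = c ∧ (OF (Fin n)).map (dl 0 0) E = c' :=
  exists_edge c c'

end OF

namespace F

/-- two vertices with the same labels are joined by an edge -/
theorem exists_edge_ofOrd {n : ℕ} (x : Fin n → K) (c c' : OConf (Fin n) (Dl 0)) :
    ∃ E : Conf K (Dl 1), E.pull (dmap (dl 0 1)) = c.toConf x ∧
      E.pull (dmap (dl 0 0)) = c'.toConf x := by
  obtain ⟨E, h1, h2⟩ := OF.exists_edge c c'
  refine ⟨E.toConf x, ?_, ?_⟩
  · rw [← OConf.toConf_pull, h1]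
  · rw [← OConf.toConf_pull, h2]

/-- Two vertices of `F Unit` with the same number of boxes are joined by an edge. -/
theorem exists_edge_unit {S S' : Conf Unit (Dl 0)} (h : S.pts.card = S'.pts.card) :
    ∃ E : Conf Unit (Dl 1), E.pull (dmap (dl 0 1)) = S ∧ E.pull (dmap (dl 0 0)) = S' := by
  obtain ⟨n, hn⟩ : ∃ n, S.pts.card = n := ⟨_, rfl⟩
  obtain ⟨c, x, hc⟩ := OConf.exists_toConf S hn
  obtain ⟨c', x', hc'⟩ := OConf.exists_toConf S' (h.symm.trans hn)
  have hx : x' = x := funext fun _ => rfl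
  rw [← hc, ← hc', hx]
  exact exists_edge_ofOrd x c c'

theorem exists_edge_unit' {S S' : (F Unit).obj 0}
    (h : Finset.card (Conf.pts (show Conf Unit (Dl 0) from S)) =
      Finset.card (Conf.pts (show Conf Unit (Dl 0) from S'))) :
    ∃ E : (F Unit).obj 1, (F Unit).map (dl 0 1) E = S ∧ (F Unit).map (dl 0 0) E = S' :=
  exists_edge_unit h

/-- the same inside the part of `n` boxes -/
theorem FN_exists_edge {n : ℕ} (S S' : (FN n Unit).obj 0) :
    ∃ E : (FN n Unit).obj 1, (FN n Unit).map (dl 0 1) E = S ∧ (FN n Unit).map (dl 0 0) E = S' := by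
  obtain ⟨E, h1, h2⟩ := exists_edge_unit (S.2.trans S'.2.symm)
  refine ⟨⟨E, ?_⟩, Subtype.ext h1, Subtype.ext h2⟩
  rw [← S.2, ← h1, Conf.card_pull]

end F

end Vale.Agent.P263.G2
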