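import Vale.Agent.P263.G2.BoxSS
import Vale.Agent.P263.GB.Gam

/-!
# P263, block G2: the configurations of boxes as a functor on finite pointed sets

* `gamF : Gam`, `gamF.obj K = F K`, `gamF.map f = F.map f`; `gamF_pt`;
* `gamFr r : Gam` : the configurations of stage `r`; `gamFr.incl`, `gamFr.toF`;
* `boxPt k p` : the unit box with label `k`.
-/

open Vale.Agent.P263.S Vale.Agent.P263.E Vale.Agent.P263.GB

namespace Vale.Agent.P263.G2

variable {K L : Type}

/-- the configurations of boxes -/
noncomputable def gamF : Gam where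
  obj K := F K
  map f := F.map f
  map_some x := Conf.map_some x
  map_bind f g _ x := (Conf.map_map f g x).symm

theorem gamF_obj (K : Type) [Finite K] : gamF.obj K = F K := rfl

theorem gamF_map [Finite K] [Finite L] (f : K → Option L) : gamF.map f = F.map f := rfl

theorem Conf.eq_empty {T : Type} [TopologicalSpace T] [IsEmpty K] (S : Conf K T) :
    S = Conf.empty := by
  apply Conf.ext
  ext x
  exact isEmptyElim x.2

theorem gamF_pt : gamF.Pt where
  sub _ _ _ p := ⟨fun S S' => (Conf.eq_empty (T := Dl p) S).trans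
    (Conf.eq_empty (T := Dl p) S').symm⟩
  ne _ _ _ p := ⟨(Conf.empty : Conf _ (Dl p))⟩

/-- the configurations of boxes of stage `r` -/
noncomputable def gamFr (r : ℕ) : Gam where
  obj K := Fr r K
  map f := Fr.map f
  map_some x := Subtype.ext (Conf.map_some x.1)
  map_bind f g _ x := Subtype.ext (Conf.map_map f g x.1).symm

/-- the inclusion of the stages -/
noncomputable def gamFr.incl {r s : ℕ} (h : r ≤ s) : Gam.Hom (gamFr r) (gamFr s) :=
  ⟨fun K => Fr.incl h K, fun _ _ _ => rfl⟩

/-- the inclusion of the stage `r` in the union -/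
noncomputable def gamFr.toF (r : ℕ) : Gam.Hom (gamFr r) gamF :=
  ⟨fun K => Fr.toF r K, fun _ _ _ => rfl⟩

/-! ### the unit box -/

section

variable {T T' : Type} [TopologicalSpace T] [TopologicalSpace T']

/-- the configuration of one unit box with label `k` -/
def Conf.unit (T : Type) [TopologicalSpace T] (k : K) : Conf K T where
  pts := {(ContinuousMap.const _ (fun _ => Iv.full), k)}
  stage := ⟨0, by
    intro x hx t i _
    rw [Finset.mem_singleton] at hx
    subst hx
    rfl⟩
  disj := by
    intro x hx y hy h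
    rw [Finset.mem_singleton] at hx hy
    exact absurd (hx.trans hy.symm) h

theorem Conf.mem_unit {k : K} {x : C(T, Bx) × K} :
    x ∈ (Conf.unit T k).pts ↔ x = (ContinuousMap.const _ (fun _ => Iv.full), k) :=
  Finset.mem_singleton

theorem Conf.isSt_unit (k : K) (r : ℕ) : (Conf.unit T k).IsSt r := by
  intro x hx t i _
  rw [Conf.mem_unit] at hx
  subst hx
  rfl

@[simp] theorem Conf.card_unit (k : K) : (Conf.unit T k).pts.card = 1 := Finset.card_singleton _

@[simp] theorem Conf.pull_unit (g : C(T', T)) (k : K) :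
    (Conf.unit T k).pull g = Conf.unit T' k := by
  ext x
  rw [Conf.mem_pull, Conf.mem_unit]
  constructor
  · rintro ⟨c, h, h'⟩
    rw [Conf.mem_unit, Prod.mk.injEq] at h
    obtain ⟨rfl, h2⟩ := h
    exact Prod.ext h'.symm h2
  · rintro rfl
    exact ⟨ContinuousMap.const _ (fun _ => Iv.full), Conf.mem_unit.2 rfl, rfl⟩

theorem Conf.map_unit_some {f : K → Option L} {k : K} {l : L} (h : f k = some l) :
    (Conf.unit T k).map f = Conf.unit T l := by
  ext x
  rw [Conf.mem_map, Conf.mem_unit]
  constructor
  · rintro ⟨k', h', hk⟩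
    rw [Conf.mem_unit, Prod.mk.injEq] at h'
    obtain ⟨h1, rfl⟩ := h'
    rw [h] at hk
    exact Prod.ext h1 (Option.some.inj hk).symm
  · rintro rfl
    exact ⟨k, Conf.mem_unit.2 rfl, h⟩

theorem Conf.map_unit_none {f : K → Option L} {k : K} (h : f k = none) :
    (Conf.unit T k).map f = Conf.empty := by
  ext x
  rw [Conf.mem_map]
  constructor
  · rintro ⟨k', h', hk⟩
    rw [Conf.mem_unit, Prod.mk.injEq] at h'
    obtain ⟨-, rfl⟩ := h'
    rw [h] at hk
    cases hk
  · intro hx
    rw [Conf.pts_empty] at hx
    exact absurd hx (Finset.notMem_empty _)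

end

/-- the unit box with label `k`, as a simplex -/
def boxPt (k : K) (p : ℕ) : (F K).obj p := Conf.unit (Dl p) k

theorem boxPt_map (k : K) {p q : ℕ} (θ : Op p q) : (F K).map θ (boxPt k q) = boxPt k p :=
  Conf.pull_unit _ _

theorem map_boxPt_some {f : K → Option L} {k : K} {l : L} (h : f k = some l) (p : ℕ) :
    (F.map f).app (boxPt k p) = boxPt l p := Conf.map_unit_some h

theorem map_boxPt_none {f : K → Option L} {k : K} (h : f k = none) (p : ℕ) :
    (F.map f).app (boxPt k p) = (Conf.empty : Conf L (Dl p)) := Conf.map_unit_none h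

end Vale.Agent.P263.G2
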