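import Vale.Agent.P263.G2.UC
import Vale.Agent.P263.GB.Base

/-!
# P263, block G2: unions with stagewise homotopy inverses

* `union_surj`, `union_inj` : if `F : U → V` is a map between increasing unions of simplicial sets
  with stagewise homotopy inverses, then `F` induces an isomorphism in homology (elementwise form);
  `rz0_of_iso` : then the homology of the cone of `F` vanishes; `union_rz0`.
* `piSS`, `piMap`, `piLift` : products of families of simplicial sets.
-/

open Vale.Agent.P263.S Vale.Agent.P263.E Vale.Agent.P263.GB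

namespace Vale.Agent.P263.G2

variable {k : Type} [CommRing k]

/-! ### unions with stagewise homotopy inverses -/

section Union

variable {U V : SS} {X Y : ℕ → SS}
  (s : ∀ r, SS.Map (X r) (X (r + 1))) (ι : ∀ r, SS.Map (X r) U)
  (hs : ∀ r, (ι (r + 1)).comp (s r) = ι r) (hι : ∀ r, (ι r).Inj)
  (hsurj : ∀ p (u : U.obj p), ∃ r x, (ι r).app x = u)
  (t : ∀ r, SS.Map (Y r) (Y (r + 1))) (κ : ∀ r, SS.Map (Y r) V)
  (ht : ∀ r, (κ (r + 1)).comp (t r) = κ r) (hκ : ∀ r, (κ r).Inj)
  (htsurj : ∀ p (v : V.obj p), ∃ r y, (κ r).app y = v)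
  (F : SS.Map U V) (f : ∀ r, SS.Map (X r) (Y r)) (hF : ∀ r, F.comp (ι r) = (κ r).comp (f r))
  (g : ∀ r, SS.Map (Y r) U)
  (KX : ∀ r, SS.Htp (X r) U) (KX0 : ∀ r, (KX r).e0 = (g r).comp (f r))
  (KX1 : ∀ r, (KX r).e1 = ι r)
  (KY : ∀ r, SS.Htp (Y r) V) (KY0 : ∀ r, (KY r).e0 = F.comp (g r)) (KY1 : ∀ r, (KY r).e1 = κ r)

include ht hκ htsurj KY0 KY1 in
/-- surjectivity on homology -/
theorem union_surj (p : ℕ) : HSurj k F p := by
  intro z hz
  obtain ⟨r, _, y, rfl⟩ := exists_stage t κ ht (htsurj p) z 0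
  have hy : IsCyc p y := hz.of_push (hκ r)
  refine ⟨push k (g r) p y, hy.push _, ?_⟩
  have h := isBd_htp (KY r) hy
  rwa [KY1, KY0, push_comp] at h

include hs hι hsurj ht hκ htsurj hF KX0 KX1 in
/-- injectivity on homology -/
theorem union_inj (p : ℕ) : HInj k F p := by
  intro w hw hb
  obtain ⟨v, hv⟩ := hb
  obtain ⟨r0, _, y0, hy0⟩ := exists_stage t κ ht (htsurj (p + 1)) v 0
  obtain ⟨r, hr, x, rfl⟩ := exists_stage s ι hs (hsurj p) w r0
  -- move `v` to stage `r`
  have up : ∀ r', r0 ≤ r' → ∃ y : Chn k (Y r') (p + 1), push k (κ r') (p + 1) y = v := by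
    intro r' h
    induction r', h using Nat.le_induction with
    | base => exact ⟨y0, hy0⟩
    | succ r' _ ih =>
      obtain ⟨y, hy⟩ := ih
      exact ⟨push k (t r') (p + 1) y, by rw [← push_comp, ht, hy]⟩
  obtain ⟨y, rfl⟩ := up r hr
  have hx : IsCyc p x := hw.of_push (hι r)
  have hxy : push k (f r) p x = cb k (Y r) p y := by
    apply push_injective (hκ r) p
    rw [← push_cb, hv, ← push_comp, ← push_comp, hF]
  have h := isBd_htp (KX r) hx
  rw [KX1, KX0, push_comp, hxy, ← push_cb] at h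
  have h2 : IsBd (cb k U p (push k (g r) (p + 1) y)) := ⟨_, rfl⟩
  have h3 := h.add h2
  rwa [sub_add_cancel] at h3

end Union

/-- A map of simplicial sets which is bijective on homology (elementwise) has acyclic cone. -/
theorem rz0_of_iso {U V : SS} (F : SS.Map U V) (hsurj : ∀ p, HSurj k F p)
    (hinj : ∀ p, HInj k F p) (n : ℕ) : RZ0 (freeMap k F).cx n := by
  cases n with
  | zero =>
    rw [rz0_zero]
    intro b
    obtain ⟨w, -, b', hb'⟩ := hsurj 0 b trivial
    refine ⟨b', w, ?_⟩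
    exact (congrArg (· + push k F 0 w) hb').trans (sub_add_cancel _ _)
  | succ n =>
    rw [rz0_succ]
    have key : ∀ (b : Chn k V (n + 1)) (a : Chn k U n), IsCyc n a →
        cb k V n b + push k F n a = 0 → ∃ (b' : Chn k V (n + 2)) (a' : Chn k U (n + 1)),
          cb k V (n + 1) b' + push k F (n + 1) a' = b ∧ -(cb k U n a') = a := by
      intro b a ha hb
      have hb' : push k F n a = cb k V n (-b) := by
        rw [map_neg, eq_neg_iff_add_eq_zero, add_comm]
        exact hb
      obtain ⟨a1, ha1⟩ := hinj n a ha ⟨_, hb'.symm⟩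
      have hy : IsCyc (n + 1) (b + push k F (n + 1) a1) := by
        rw [isCyc_succ, map_add, push_cb, ha1, hb', map_neg, add_neg_cancel]
      obtain ⟨w, hw, b', hb2⟩ := hsurj (n + 1) _ hy
      refine ⟨b', w - a1, ?_, ?_⟩
      · rw [hb2, map_sub]
        abel
      · rw [map_sub, isCyc_succ.1 hw, ha1]
        abel
    intro b a ha hb
    refine key b a ?_ hb
    cases n with
    | zero => trivial
    | succ n => exact ha

section Union

variable {U V : SS} {X Y : ℕ → SS}

/-- **Union lemma**: a map `F : U → V` between increasing unions of simplicial sets with stagewise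
homotopy inverses `g r : Y r → U` (that is `g r ∘ f r ≃ ι r` and `F ∘ g r ≃ κ r`) has acyclic
cone. -/
theorem union_rz0 (k : Type) [CommRing k]
    (s : ∀ r, SS.Map (X r) (X (r + 1))) (ι : ∀ r, SS.Map (X r) U)
    (hs : ∀ r, (ι (r + 1)).comp (s r) = ι r) (hι : ∀ r, (ι r).Inj)
    (hsurj : ∀ p (u : U.obj p), ∃ r x, (ι r).app x = u)
    (t : ∀ r, SS.Map (Y r) (Y (r + 1))) (κ : ∀ r, SS.Map (Y r) V)
    (ht : ∀ r, (κ (r + 1)).comp (t r) = κ r) (hκ : ∀ r, (κ r).Inj)
    (htsurj : ∀ p (v : V.obj p), ∃ r y, (κ r).app y = v)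
    (F : SS.Map U V) (f : ∀ r, SS.Map (X r) (Y r)) (hF : ∀ r, F.comp (ι r) = (κ r).comp (f r))
    (g : ∀ r, SS.Map (Y r) U)
    (KX : ∀ r, SS.Htp (X r) U) (KX0 : ∀ r, (KX r).e0 = (g r).comp (f r))
    (KX1 : ∀ r, (KX r).e1 = ι r)
    (KY : ∀ r, SS.Htp (Y r) V) (KY0 : ∀ r, (KY r).e0 = F.comp (g r))
    (KY1 : ∀ r, (KY r).e1 = κ r) (n : ℕ) : RZ0 (freeMap k F).cx n :=
  rz0_of_iso F (union_surj t κ ht hκ htsurj F g KY KY0 KY1)
    (union_inj s ι hs hι hsurj t κ ht hκ htsurj F f hF g KX KX0 KX1) n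

end Union

/-! ### products of simplicial sets -/

/-- the product of a family of simplicial sets -/
def piSS {I : Type} (X : I → SS) : SS where
  obj p := ∀ i, (X i).obj p
  map f x := fun i => (X i).map f (x i)
  map_id _ := funext fun i => (X i).map_id _
  map_comp f g _ := funext fun i => (X i).map_comp f g _

/-- the product of a family of maps -/
def piMap {I : Type} {X Y : I → SS} (f : ∀ i, SS.Map (X i) (Y i)) : SS.Map (piSS X) (piSS Y) where
  app x := fun i => (f i).app (x i)
  nat a x := funext fun i => (f i).nat a (x i)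

/-- the map into a product -/
def piLift {I : Type} {Z : SS} {X : I → SS} (f : ∀ i, SS.Map Z (X i)) : SS.Map Z (piSS X) where
  app x := fun i => (f i).app x
  nat a x := funext fun i => (f i).nat a x

theorem piMap_inj {I : Type} {X Y : I → SS} {f : ∀ i, SS.Map (X i) (Y i)} (h : ∀ i, (f i).Inj) :
    (piMap f).Inj := by
  intro p x y hxy
  funext i
  exact h i p (congrFun hxy i)

end Vale.Agent.P263.G2
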