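import Vale.Agent.P263.G2.BoxSegal
import Vale.Agent.P263.G2.BoxSS
import Vale.Agent.P263.G2.UnionSeg

/-!
# P263, block G2-6: the Segal condition for configurations of boxes

* `F.rest e : F M → Π_K F L` for `e : M ≃ K × L` is a homology isomorphism: `rest_rz0`.
-/

open Topology Vale.Agent.P263.S Vale.Agent.P263.E Vale.Agent.P263.GB

namespace Vale.Agent.P263.G2

variable {k : Type} [CommRing k]

/-! ### the simplicial sets of configurations -/

variable {K L M : Type}

open Classical in
/-- the pointed map which selects the labels `k` in `M ≃ K × L` -/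
noncomputable def sel (e : M ≃ K × L) (k : K) : M → Option L :=
  fun m => if (e m).1 = k then some (e m).2 else none

/-- the decomposition into the pieces -/
noncomputable def F.rest (e : M ≃ K × L) : SS.Map (F M) (piSS fun _ : K => F L) :=
  piLift fun k => F.map (sel e k)

/-- the decomposition into the pieces -/
noncomputable def Fr.rest (r : ℕ) (e : M ≃ K × L) : SS.Map (Fr r M) (piSS fun _ : K => Fr r L) :=
  piLift fun k => Fr.map (sel e k)

theorem F.rest_app (e : M ≃ K × L) {p : ℕ} (S : Conf M (Dl p)) (k : K) :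
    (F.rest e).app (p := p) S k = Conf.rest e k S := rfl

/-- the constant family of intervals -/
def cI (T : Type) [TopologicalSpace T] (j : Iv) : C(T, Iv) := ContinuousMap.const _ j

/-- the interpolation between an interval and the full interval -/
noncomputable def mixC (j : Iv) {p : ℕ} (χ : Op p 1) : C(Dl p, Iv) :=
  ⟨fun t => Iv.mix (chiI χ t) j Iv.full,
    (chiI χ).continuous.ivMix continuous_const continuous_const⟩

theorem mixC_comp (j : Iv) {p q : ℕ} (f : Op p q) (χ : Op q 1) :
    mixC j (χ.comp f) = (mixC j χ).comp (dmap f) := by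
  ext1 t
  show Iv.mix (chiI (χ.comp f) t) j Iv.full = Iv.mix (chiI χ (dmap f t)) j Iv.full
  rw [chiI_comp]
  rfl

theorem mixC_c0 (j : Iv) (p : ℕ) : mixC j (c0 p) = cI (Dl p) j := by
  ext1 t
  show Iv.mix (chiI (c0 p) t) j Iv.full = j
  rw [chiI_c0, Iv.mix_zero]

theorem mixC_c1 (j : Iv) (p : ℕ) : mixC j (c1 p) = cI (Dl p) Iv.full := by
  ext1 t
  show Iv.mix (chiI (c1 p) t) j Iv.full = Iv.full
  rw [chiI_c1, Iv.mix_one]

theorem cI_dis {J : K → Iv} (hJ : ∀ k k', k ≠ k' → (J k).Dis (J k')) (T : Type)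
    [TopologicalSpace T] (k k' : K) (h : k ≠ k') (t : T) : (cI T (J k) t).Dis (cI T (J k') t) :=
  hJ k k' h

/-- juxtaposition in the coordinate `r` -/
noncomputable def muC [Fintype K] (r : ℕ) (e : M ≃ K × L) (J : K → Iv)
    (hJ : ∀ k k', k ≠ k' → (J k).Dis (J k')) (T : Type) [TopologicalSpace T]
    (A : K → {S : Conf L T // S.IsSt r}) : Conf M T :=
  Conf.mu r e (fun k => cI _ (J k)) (cI_dis hJ T) (fun k => (A k).1) (fun k => (A k).2)

theorem muC_pull [Fintype K] (r : ℕ) (e : M ≃ K × L) (J : K → Iv)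
    (hJ : ∀ k k', k ≠ k' → (J k).Dis (J k')) {T T' : Type} [TopologicalSpace T]
    [TopologicalSpace T'] (g : C(T', T)) (A : K → {S : Conf L T // S.IsSt r}) :
    muC r e J hJ T' (fun k => ⟨(A k).1.pull g, (A k).2.pull g⟩) = (muC r e J hJ T A).pull g :=
  (Conf.pull_mu g (hJ := cI_dis hJ T) (fun k => (A k).2)).symm

theorem muC_rest [Fintype K] (r : ℕ) (e : M ≃ K × L) (J : K → Iv)
    (hJ : ∀ k k', k ≠ k' → (J k).Dis (J k')) {T : Type} [TopologicalSpace T] (S : Conf M T)
    (hS : S.IsSt r) :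
    muC r e J hJ T (fun k => ⟨Conf.rest e k S, hS.rest e k⟩) =
      S.upd r (fun m => cI T (J (e m).1)) hS :=
  Conf.mu_rest (J := fun k => cI T (J k)) (hJ := cI_dis hJ T) hS

theorem rest_muC [Fintype K] (r : ℕ) (e : M ≃ K × L) (J : K → Iv)
    (hJ : ∀ k k', k ≠ k' → (J k).Dis (J k')) {T : Type} [TopologicalSpace T]
    (A : K → {S : Conf L T // S.IsSt r}) (k : K) :
    Conf.rest e k (muC r e J hJ T A) = (A k).1.upd r (fun _ => cI T (J k)) (A k).2 :=
  Conf.rest_mu (J := fun k => cI T (J k)) (hJ := cI_dis hJ T) (A := fun k => (A k).1)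
    (hA := fun k => (A k).2) k

/-- juxtaposition in the coordinate `r` -/
noncomputable def Fr.mu [Fintype K] (r : ℕ) (e : M ≃ K × L) (J : K → Iv)
    (hJ : ∀ k k', k ≠ k' → (J k).Dis (J k')) :
    SS.Map (piSS fun _ : K => Fr r L) (F M) where
  app {p} A := muC r e J hJ (Dl p) A
  nat {p q} a A := muC_pull r e J hJ (T := Dl q) (T' := Dl p) (dmap a) A

/-- the homotopy from the juxtaposition of the pieces to the inclusion -/
noncomputable def Fr.htpA (r : ℕ) (e : M ≃ K × L) (J : K → Iv) : SS.Htp (Fr r M) (F M) where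
  h p χ S := Conf.upd (T := Dl p) r (fun m => mixC (J (e m).1) χ) S.1 S.2
  nat {p q} f χ S := by
    refine Eq.trans ?_ (Conf.pull_upd (T := Dl q) (T' := Dl p) (dmap f)
      (fun m => mixC (J (e m).1) χ) S.2).symm
    have h : (fun m => mixC (J (e m).1) (χ.comp f)) =
        fun m => (mixC (J (e m).1) χ).comp (dmap f) := funext fun m => mixC_comp _ f χ
    rw [← h]
    rfl

theorem Fr.htpA_e1 (r : ℕ) (e : M ≃ K × L) (J : K → Iv) :
    (Fr.htpA r e J).e1 = Fr.toF r M := by
  apply SS.Map.ext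
  intro p S
  have h : (fun m => mixC (J (e m).1) (c1 p)) = fun _ : M => cI (Dl p) Iv.full :=
    funext fun m => mixC_c1 _ p
  show Conf.upd (T := Dl p) r (fun m => mixC (J (e m).1) (c1 p)) S.1 S.2 = S.1
  rw [h]
  exact Conf.upd_full S.2

theorem Fr.htpA_e0 [Fintype K] (r : ℕ) (e : M ≃ K × L) (J : K → Iv)
    (hJ : ∀ k k', k ≠ k' → (J k).Dis (J k')) :
    (Fr.htpA r e J).e0 = (Fr.mu r e J hJ).comp (Fr.rest r e) := by
  apply SS.Map.ext
  intro p S
  have h : (fun m => mixC (J (e m).1) (c0 p)) = fun m : M => cI (Dl p) (J (e m).1) :=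
    funext fun m => mixC_c0 _ p
  show Conf.upd (T := Dl p) r (fun m => mixC (J (e m).1) (c0 p)) S.1 S.2 = _
  rw [h]
  exact (muC_rest r e J hJ (T := Dl p) S.1 S.2).symm

/-- the homotopy from the pieces of a juxtaposition to the inclusion -/
noncomputable def Fr.htpB (r : ℕ) (L : Type) (J : K → Iv) :
    SS.Htp (piSS fun _ : K => Fr r L) (piSS fun _ : K => F L) where
  h p χ A := fun k => Conf.upd (T := Dl p) r (fun _ => mixC (J k) χ) (A k).1 (A k).2
  nat {p q} f χ A := by
    funext k
    refine Eq.trans ?_ (Conf.pull_upd (T := Dl q) (T' := Dl p) (dmap f)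
      (fun _ => mixC (J k) χ) (A k).2).symm
    rw [← mixC_comp]
    rfl

theorem Fr.htpB_e1 (r : ℕ) (L : Type) (J : K → Iv) :
    (Fr.htpB r L J).e1 = piMap fun _ : K => Fr.toF r L := by
  apply SS.Map.ext
  intro p A
  funext k
  show Conf.upd (T := Dl p) r (fun _ => mixC (J k) (c1 p)) (A k).1 (A k).2 = (A k).1
  rw [mixC_c1]
  exact Conf.upd_full (A k).2

theorem Fr.htpB_e0 [Fintype K] (r : ℕ) (e : M ≃ K × L) (J : K → Iv)
    (hJ : ∀ k k', k ≠ k' → (J k).Dis (J k')) :
    (Fr.htpB r L J).e0 = (F.rest e).comp (Fr.mu r e J hJ) := by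
  apply SS.Map.ext
  intro p A
  funext k
  show Conf.upd (T := Dl p) r (fun _ => mixC (J k) (c0 p)) (A k).1 (A k).2 = _
  rw [mixC_c0]
  exact (rest_muC r e J hJ (T := Dl p) A k).symm

/-- intervals indexed by a finite type, pairwise disjoint -/
theorem exists_intervals (K : Type) [Fintype K] :
    ∃ J : K → Iv, ∀ k k', k ≠ k' → (J k).Dis (J k') :=
  ⟨fun k => Iv.part _ (Fintype.equivFin K k), fun _ _ h =>
    Iv.part_dis fun h' => h ((Fintype.equivFin K).injective h')⟩

/-- every simplex of the product comes from a stage -/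
theorem piFr_exists_toF [Fintype K] {p : ℕ} (A : (piSS fun _ : K => F L).obj p) :
    ∃ r, ∃ x, (piMap fun _ : K => Fr.toF r L).app x = A := by
  choose r hr using fun k : K => Conf.exists_isSt (T := Dl p) (A k)
  refine ⟨Finset.univ.sup r, fun k => ⟨A k, (hr k).mono (Finset.le_sup (Finset.mem_univ k))⟩, rfl⟩

section Main

variable [Fintype K] (e : M ≃ K × L) (k)

/-- **The Segal condition for configurations of boxes**: surjectivity in homology. -/
theorem F.rest_surj (p : ℕ) : HSurj k (F.rest e) p := by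
  obtain ⟨J, hJ⟩ := exists_intervals K
  exact union_surj (fun r => piMap fun _ : K => Fr.incl r.le_succ L) (fun r => piMap fun _ => Fr.toF r L)
    (fun _ => rfl) (fun r => piMap_inj fun _ => Fr.toF_inj r L) (fun p A => piFr_exists_toF A)
    (F.rest e) (fun r => Fr.mu r e J hJ) (fun r => Fr.htpB r L J)
    (fun r => Fr.htpB_e0 r e J hJ) (fun r => Fr.htpB_e1 r L J) p

/-- **The Segal condition for configurations of boxes**: injectivity in homology. -/
theorem F.rest_inj (p : ℕ) : HInj k (F.rest e) p := by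
  obtain ⟨J, hJ⟩ := exists_intervals K
  exact union_inj (fun r => Fr.incl r.le_succ M) (fun r => Fr.toF r M)
    (fun _ => rfl) (fun r => Fr.toF_inj r M) (fun p S => Fr.exists_toF S)
    (fun r => piMap fun _ : K => Fr.incl r.le_succ L) (fun r => piMap fun _ => Fr.toF r L)
    (fun _ => rfl) (fun r => piMap_inj fun _ => Fr.toF_inj r L) (fun p A => piFr_exists_toF A)
    (F.rest e) (fun r => Fr.rest r e) (fun _ => rfl) (fun r => Fr.mu r e J hJ)
    (fun r => Fr.htpA r e J) (fun r => Fr.htpA_e0 r e J hJ) (fun r => Fr.htpA_e1 r e J) p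

/-- **The Segal condition for configurations of boxes**: the map to the product of the pieces has
acyclic cone. -/
theorem F.rest_rz0 (n : ℕ) : RZ0 (freeMap k (F.rest e)).cx n :=
  rz0_of_iso _ (F.rest_surj k e) (F.rest_inj k e) n

end Main

end Vale.Agent.P263.G2
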