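import Vale.Agent.P263.G2.Box

/-!
# P263, block G2-6: the Segal condition for configurations of boxes (levelwise part)

For a bijection `e : M ≃ K × L` of label sets, `K` finite:

* `Conf.rest e k S` : the piece `k` of the configuration `S` with labels in `M`;
* `Conf.mu r e J hJ A hA` : the juxtaposition of configurations `A k` of stage `r`: the coordinate
  `r` of the boxes of `A k` is replaced by the interval `J k`, where the `J k` are pairwise disjoint;
* `Conf.upd r J S hS` : the coordinate `r` of the boxes of `S` (of stage `r`) with label `m` is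
  replaced by `J m`.

`rest_mu`, `mu_rest` : both composites are of the form `upd`; with the linear interpolation between
`J` and the full interval this gives the homotopies to the identity.
-/

open Topology

namespace Vale.Agent.P263.G2

namespace Iv

/-- disjoint intervals -/
def Dis (j j' : Iv) : Prop := j.hi ≤ j'.lo ∨ j'.hi ≤ j.lo

theorem part_dis {n : ℕ} {i j : Fin n} (h : i ≠ j) : (part n i).Dis (part n j) := by
  rcases lt_or_gt_of_ne h with h | h
  · exact Or.inl (part_hi_le_lo h)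
  · exact Or.inr (part_hi_le_lo h)

end Iv

namespace Bx

/-- replace the coordinate `r` -/
def upd (r : ℕ) (b : Bx) (j : Iv) : Bx := fun i => if i = r then j else b i

@[simp] theorem upd_self (r : ℕ) (b : Bx) (j : Iv) : upd r b j r = j := if_pos rfl

theorem upd_ne {r i : ℕ} (h : i ≠ r) (b : Bx) (j : Iv) : upd r b j i = b i := if_neg h

theorem St.upd {r : ℕ} {b : Bx} (h : St r b) (j : Iv) : St (r + 1) (upd r b j) := by
  intro i hi
  rw [upd_ne (by omega)]
  exact h i (by omega)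

theorem St.upd_full {r : ℕ} {b : Bx} (h : St r b) : Bx.upd r b Iv.full = b := by
  funext i
  by_cases hi : i = r
  · subst hi
    rw [upd_self, h _ le_rfl]
  · rw [upd_ne hi]

theorem Disj.upd {r : ℕ} {b c : Bx} (h : Disj b c) (hb : St r b) (hc : St r c) (j j' : Iv) :
    Disj (upd r b j) (upd r c j') := by
  obtain ⟨i, hi, h⟩ := h.exists_lt hb hc
  refine ⟨i, ?_⟩
  rwa [upd_ne (by omega), upd_ne (by omega)]

theorem disj_upd (r : ℕ) (b c : Bx) {j j' : Iv} (h : j.Dis j') :
    Disj (upd r b j) (upd r c j') := by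
  refine ⟨r, ?_⟩
  rw [upd_self, upd_self]
  exact h

theorem continuous_upd (r : ℕ) : Continuous fun x : Bx × Iv => upd r x.1 x.2 := by
  refine continuous_pi fun i => ?_
  by_cases hi : i = r
  · subst hi
    simp only [upd_self]
    exact continuous_snd
  · simp only [upd_ne hi]
    exact (continuous_apply i).comp continuous_fst

end Bx

open Bx

section

variable {T T' : Type} [TopologicalSpace T] [TopologicalSpace T'] {K L M : Type}

/-- replace the coordinate `r` in a family -/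
def updC (r : ℕ) (c : C(T, Bx)) (j : C(T, Iv)) : C(T, Bx) :=
  ⟨fun t => upd r (c t) (j t), (continuous_upd r).comp (c.continuous.prodMk j.continuous)⟩

@[simp] theorem updC_apply (r : ℕ) (c : C(T, Bx)) (j : C(T, Iv)) (t : T) :
    updC r c j t = upd r (c t) (j t) := rfl

theorem updC_comp (r : ℕ) (c : C(T, Bx)) (j : C(T, Iv)) (f : C(T', T)) :
    (updC r c j).comp f = updC r (c.comp f) (j.comp f) := rfl

namespace Conf

open Classical in
/-- replace the coordinate `r` by intervals depending on the label -/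
noncomputable def upd (r : ℕ) (J : K → C(T, Iv)) (S : Conf K T) (hS : S.IsSt r) : Conf K T where
  pts := S.pts.image fun x => (updC r x.1 (J x.2), x.2)
  stage := ⟨r + 1, by
    intro x hx t
    obtain ⟨y, hy, rfl⟩ := Finset.mem_image.1 hx
    exact (hS y hy t).upd _⟩
  disj := by
    intro x hx y hy hne t
    obtain ⟨x', hx', rfl⟩ := Finset.mem_image.1 hx
    obtain ⟨y', hy', rfl⟩ := Finset.mem_image.1 hy
    exact (S.disj x' hx' y' hy' (fun h => hne (by rw [h])) t).upd (hS x' hx' t) (hS y' hy' t) _ _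

theorem mem_upd {r : ℕ} {J : K → C(T, Iv)} {S : Conf K T} {hS : S.IsSt r} {x : C(T, Bx) × K} :
    x ∈ (S.upd r J hS).pts ↔ ∃ y ∈ S.pts, (updC r y.1 (J y.2), y.2) = x := by
  classical
  exact Finset.mem_image

theorem isSt_upd {r : ℕ} {J : K → C(T, Iv)} {S : Conf K T} (hS : S.IsSt r) :
    (S.upd r J hS).IsSt (r + 1) := by
  intro x hx t
  obtain ⟨y, hy, rfl⟩ := mem_upd.1 hx
  exact (hS y hy t).upd _

theorem upd_full {r : ℕ} {S : Conf K T} (hS : S.IsSt r) :
    S.upd r (fun _ => ContinuousMap.const _ Iv.full) hS = S := by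
  ext x
  rw [mem_upd]
  constructor
  · rintro ⟨y, hy, rfl⟩
    have : updC r y.1 (ContinuousMap.const _ Iv.full) = y.1 := by
      ext1 t
      exact (hS y hy t).upd_full
    rw [this]
    exact hy
  · intro hx
    refine ⟨x, hx, ?_⟩
    have : updC r x.1 (ContinuousMap.const _ Iv.full) = x.1 := by
      ext1 t
      exact (hS x hx t).upd_full
    rw [this]

theorem pull_upd (f : C(T', T)) {r : ℕ} (J : K → C(T, Iv)) {S : Conf K T} (hS : S.IsSt r) :
    (S.upd r J hS).pull f = (S.pull f).upd r (fun k => (J k).comp f) (hS.pull f) := by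
  ext x
  rw [mem_pull, mem_upd]
  constructor
  · rintro ⟨c, hc, h⟩
    obtain ⟨y, hy, h'⟩ := mem_upd.1 hc
    rw [Prod.mk.injEq] at h'
    refine ⟨(y.1.comp f, y.2), mem_pull.2 ⟨_, hy, rfl⟩, ?_⟩
    exact Prod.ext (by rw [← h, ← h'.1]; rfl) h'.2
  · rintro ⟨y, hy, rfl⟩
    obtain ⟨c, hc, h⟩ := mem_pull.1 hy
    refine ⟨updC r c (J y.2), mem_upd.2 ⟨_, hc, rfl⟩, ?_⟩
    rw [updC_comp, h]

theorem upd_map {g : K → Option L} {r : ℕ} {J : L → C(T, Iv)} {J' : K → C(T, Iv)}
    (h : ∀ k l, g k = some l → J' k = J l) {S : Conf K T} (hS : S.IsSt r) :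
    (S.map g).upd r J (hS.map g) = (S.upd r J' hS).map g := by
  ext x
  rw [mem_upd, mem_map]
  constructor
  · rintro ⟨y, hy, rfl⟩
    obtain ⟨k, hk, h1⟩ := mem_map.1 hy
    exact ⟨k, mem_upd.2 ⟨_, hk, by rw [h k _ h1]⟩, h1⟩
  · rintro ⟨k, hk, h2⟩
    obtain ⟨y, hy, h1⟩ := mem_upd.1 hk
    rw [Prod.mk.injEq] at h1
    obtain ⟨h1, rfl⟩ := h1
    exact ⟨(y.1, x.2), mem_map.2 ⟨y.2, hy, h2⟩, Prod.ext (by rw [← h1, h _ _ h2]) rfl⟩

open Classical in
/-- the piece `k` of a configuration with labels in `M ≃ K × L` -/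
noncomputable def rest (e : M ≃ K × L) (k : K) (S : Conf M T) : Conf L T :=
  S.map fun m => if (e m).1 = k then some (e m).2 else none

theorem mem_rest {e : M ≃ K × L} {k : K} {S : Conf M T} {x : C(T, Bx) × L} :
    x ∈ (rest e k S).pts ↔ (x.1, e.symm (k, x.2)) ∈ S.pts := by
  rw [rest, mem_map]
  constructor
  · rintro ⟨m, hm, h⟩
    split_ifs at h with h1
    have h2 : (e m).2 = x.2 := Option.some_injective _ h
    rw [← h1, ← h2]
    simpa using hm
  · intro h
    exact ⟨_, h, by simp⟩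

theorem IsSt.rest {r : ℕ} {S : Conf M T} (hS : S.IsSt r) (e : M ≃ K × L) (k : K) :
    (Conf.rest e k S).IsSt r := hS.map _

theorem pull_rest (f : C(T', T)) (e : M ≃ K × L) (k : K) (S : Conf M T) :
    (rest e k S).pull f = rest e k (S.pull f) := (map_pull _ f S).symm

open Classical in
/-- the juxtaposition of a family of configurations -/
noncomputable def mu [Fintype K] (r : ℕ) (e : M ≃ K × L) (J : K → C(T, Iv))
    (hJ : ∀ k k', k ≠ k' → ∀ t, (J k t).Dis (J k' t)) (A : K → Conf L T)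
    (hA : ∀ k, (A k).IsSt r) : Conf M T where
  pts := Finset.univ.biUnion fun k =>
    (A k).pts.image fun y => (updC r y.1 (J k), e.symm (k, y.2))
  stage := ⟨r + 1, by
    intro x hx t
    obtain ⟨k, -, hx⟩ := Finset.mem_biUnion.1 hx
    obtain ⟨y, hy, rfl⟩ := Finset.mem_image.1 hx
    exact (hA k y hy t).upd _⟩
  disj := by
    intro x hx y hy hxy t
    obtain ⟨k, -, hx⟩ := Finset.mem_biUnion.1 hx
    obtain ⟨k', -, hy⟩ := Finset.mem_biUnion.1 hy
    obtain ⟨x', hx', rfl⟩ := Finset.mem_image.1 hx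
    obtain ⟨y', hy', rfl⟩ := Finset.mem_image.1 hy
    by_cases h : k = k'
    · subst h
      exact ((A k).disj x' hx' y' hy' (fun h => hxy (by rw [h])) t).upd (hA k x' hx' t)
        (hA k y' hy' t) _ _
    · exact disj_upd r _ _ (hJ k k' h t)

theorem mem_mu [Fintype K] {r : ℕ} {e : M ≃ K × L} {J : K → C(T, Iv)}
    {hJ : ∀ k k', k ≠ k' → ∀ t, (J k t).Dis (J k' t)} {A : K → Conf L T}
    {hA : ∀ k, (A k).IsSt r} {x : C(T, Bx) × M} :
    x ∈ (mu r e J hJ A hA).pts ↔
      ∃ k, ∃ y ∈ (A k).pts, (updC r y.1 (J k), e.symm (k, y.2)) = x := by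
  classical
  show x ∈ Finset.univ.biUnion _ ↔ _
  simp only [Finset.mem_biUnion, Finset.mem_univ, true_and, Finset.mem_image]

theorem isSt_mu [Fintype K] {r : ℕ} {e : M ≃ K × L} {J : K → C(T, Iv)}
    {hJ : ∀ k k', k ≠ k' → ∀ t, (J k t).Dis (J k' t)} {A : K → Conf L T}
    (hA : ∀ k, (A k).IsSt r) : (mu r e J hJ A hA).IsSt (r + 1) := by
  intro x hx t
  obtain ⟨k, y, hy, rfl⟩ := mem_mu.1 hx
  exact (hA k y hy t).upd _

theorem rest_mu [Fintype K] {r : ℕ} {e : M ≃ K × L} {J : K → C(T, Iv)}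
    {hJ : ∀ k k', k ≠ k' → ∀ t, (J k t).Dis (J k' t)} {A : K → Conf L T}
    {hA : ∀ k, (A k).IsSt r} (k : K) :
    rest e k (mu r e J hJ A hA) = (A k).upd r (fun _ => J k) (hA k) := by
  ext x
  rw [mem_rest, mem_mu, mem_upd]
  constructor
  · rintro ⟨k', y, hy, h⟩
    rw [Prod.mk.injEq, e.symm.injective.eq_iff, Prod.mk.injEq] at h
    obtain ⟨h1, rfl, h2⟩ := h
    exact ⟨y, hy, Prod.ext h1 h2⟩
  · rintro ⟨y, hy, rfl⟩
    exact ⟨k, y, hy, rfl⟩

theorem mu_rest [Fintype K] {r : ℕ} {e : M ≃ K × L} {J : K → C(T, Iv)}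
    {hJ : ∀ k k', k ≠ k' → ∀ t, (J k t).Dis (J k' t)} {S : Conf M T} (hS : S.IsSt r) :
    mu r e J hJ (fun k => rest e k S) (fun k => hS.rest e k) =
      S.upd r (fun m => J (e m).1) hS := by
  ext x
  rw [mem_mu, mem_upd]
  constructor
  · rintro ⟨k, y, hy, rfl⟩
    rw [mem_rest] at hy
    refine ⟨_, hy, ?_⟩
    simp
  · rintro ⟨y, hy, rfl⟩
    refine ⟨(e y.2).1, (y.1, (e y.2).2), ?_, by simp⟩
    rw [mem_rest]
    simpa using hy

theorem pull_mu [Fintype K] (f : C(T', T)) {r : ℕ} {e : M ≃ K × L} {J : K → C(T, Iv)}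
    {hJ : ∀ k k', k ≠ k' → ∀ t, (J k t).Dis (J k' t)} {A : K → Conf L T}
    (hA : ∀ k, (A k).IsSt r) :
    (mu r e J hJ A hA).pull f =
      mu r e (fun k => (J k).comp f) (fun k k' h t => hJ k k' h (f t)) (fun k => (A k).pull f)
        (fun k => (hA k).pull f) := by
  ext x
  rw [mem_pull, mem_mu]
  constructor
  · rintro ⟨c, hc, h⟩
    obtain ⟨k, y, hy, h'⟩ := mem_mu.1 hc
    rw [Prod.mk.injEq] at h'
    refine ⟨k, (y.1.comp f, y.2), mem_pull.2 ⟨_, hy, rfl⟩, ?_⟩
    exact Prod.ext (by rw [← h, ← h'.1]; rfl) h'.2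
  · rintro ⟨k, y, hy, rfl⟩
    obtain ⟨c, hc, h⟩ := mem_pull.1 hy
    refine ⟨updC r c (J k), mem_mu.2 ⟨k, _, hc, rfl⟩, ?_⟩
    rw [updC_comp, h]

/-- the number of boxes is additive -/
theorem card_eq_sum_rest [Fintype K] (e : M ≃ K × L) (S : Conf M T) :
    S.pts.card = ∑ k, (rest e k S).pts.card := by
  classical
  have h : ∀ k, (rest e k S).pts.card = (S.pts.filter fun x => (e x.2).1 = k).card := by
    intro k
    refine Finset.card_bij (fun x _ => (x.1, e.symm (k, x.2))) ?_ ?_ ?_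
    · intro x hx
      rw [mem_rest] at hx
      rw [Finset.mem_filter]
      exact ⟨hx, by simp⟩
    · intro x _ y _ h
      rw [Prod.mk.injEq, e.symm.injective.eq_iff, Prod.mk.injEq] at h
      exact Prod.ext h.1 h.2.2
    · intro y hy
      rw [Finset.mem_filter] at hy
      refine ⟨(y.1, (e y.2).2), ?_, ?_⟩
      · rw [mem_rest]
        simpa [← hy.2] using hy.1
      · simp [← hy.2]
  rw [Finset.sum_congr rfl fun k _ => h k]
  exact (Finset.card_eq_sum_card_fiberwise fun x _ => Finset.mem_coe.2 (Finset.mem_univ _))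

end Conf

end

end Vale.Agent.P263.G2
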