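import Vale.Agent.P263.S.FinMaps
import Vale.Agent.P263.S.Core
import Mathlib.Data.Fintype.Card
import Mathlib.Order.Interval.Finset.Fin

/-!
# P263, block G2: the simplicial circle

`cir α : Fin k → Option (Fin l)` for a monotone map `α : [l] → [k]` : the action of `α` on the
simplicial circle `S¹_k = {0, …, k-1} ∪ {*}`, where `i : Fin k` is the map `th k (i + 1) : [k] → [1]`
(`0` on the elements `≤ i`, `1` on the elements `> i`).
-/

namespace Vale.Agent.P263.G2

open Vale.Agent.P263.S

/-- the number of elements `b` with `α b < m` -/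
def cnt {l k : ℕ} (α : Op l k) (m : ℕ) : ℕ :=
  (Finset.univ.filter fun b : Fin (l + 1) => (α b).1 < m).card

theorem cnt_le {l k : ℕ} (α : Op l k) (m : ℕ) : cnt α m ≤ l + 1 := by
  have h := Finset.card_filter_le (Finset.univ : Finset (Fin (l + 1))) fun b => (α b).1 < m
  rw [Finset.card_univ, Fintype.card_fin] at h
  exact h

theorem lt_cnt_iff {l k : ℕ} (α : Op l k) (m : ℕ) (b : Fin (l + 1)) :
    b.1 < cnt α m ↔ (α b).1 < m := by
  constructor
  · intro h
    by_contra h1
    have h2 : (Finset.univ.filter fun b : Fin (l + 1) => (α b).1 < m) ⊆ Finset.Iio b := by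
      intro b' hb'
      rw [Finset.mem_filter] at hb'
      rw [Finset.mem_Iio]
      by_contra h3
      have h4 : (α b).1 ≤ (α b').1 := α.monotone (not_lt.1 h3)
      exact h1 (lt_of_le_of_lt h4 hb'.2)
    have h3 := Finset.card_le_card h2
    rw [Fin.card_Iio] at h3
    exact absurd h (not_lt.2 h3)
  · intro h
    have h2 : Finset.Iic b ⊆ Finset.univ.filter fun b : Fin (l + 1) => (α b).1 < m := by
      intro b' hb'
      rw [Finset.mem_Iic] at hb'
      rw [Finset.mem_filter]
      exact ⟨Finset.mem_univ _, lt_of_le_of_lt (show (α b').1 ≤ (α b).1 from α.monotone hb') h⟩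
    have h3 := Finset.card_le_card h2
    rw [Fin.card_Iic] at h3
    exact h3

/-- a monotone map followed by a threshold map is a threshold map -/
theorem th_comp {l k : ℕ} (α : Op l k) (m : ℕ) : (th k m).comp α = th l (cnt α m) := by
  apply OrderHom.ext
  funext b
  show th k m (α b) = th l (cnt α m) b
  rw [th_val, th_val]
  exact if_congr (lt_cnt_iff α m b).symm rfl rfl

theorem cnt_comp {j l k : ℕ} (α : Op l k) (β : Op j l) (m : ℕ) :
    cnt (α.comp β) m = cnt β (cnt α m) := by
  unfold cnt
  congr 1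
  ext b
  rw [Finset.mem_filter, Finset.mem_filter]
  exact and_congr Iff.rfl (lt_cnt_iff α m (β b)).symm

theorem cnt_zero {l k : ℕ} (α : Op l k) : cnt α 0 = 0 := by
  unfold cnt
  rw [Finset.card_eq_zero, Finset.filter_eq_empty_iff]
  intro b _
  exact Nat.not_lt_zero _

theorem cnt_top {l k : ℕ} (α : Op l k) {m : ℕ} (hm : k < m) : cnt α m = l + 1 := by
  unfold cnt
  rw [Finset.filter_true_of_mem, Finset.card_univ, Fintype.card_fin]
  intro b _
  have := (α b).2
  omega

theorem cnt_id {k m : ℕ} (hm : m ≤ k + 1) : cnt (OrderHom.id : Op k k) m = m := by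
  apply le_antisymm
  · by_contra h
    have h1 : m < k + 1 := lt_of_lt_of_le (not_le.1 h) (cnt_le _ _)
    have h2 := (lt_cnt_iff (OrderHom.id : Op k k) m ⟨m, h1⟩).1 (not_le.1 h)
    exact absurd h2 (lt_irrefl m)
  · rcases Nat.eq_zero_or_pos m with h | h
    · omega
    · have h2 := (lt_cnt_iff (OrderHom.id : Op k k) m ⟨m - 1, by omega⟩).2
        (show m - 1 < m by omega)
      have h3 : m - 1 < cnt (OrderHom.id : Op k k) m := h2
      omega

/-- the action of `α : [l] → [k]` on the simplicial circle -/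
def cir {l k : ℕ} (α : Op l k) (i : Fin k) : Option (Fin l) :=
  if h : 1 ≤ cnt α (i.1 + 1) ∧ cnt α (i.1 + 1) ≤ l then
    some ⟨cnt α (i.1 + 1) - 1, by omega⟩ else none

theorem cir_eq_some {l k : ℕ} (α : Op l k) (i : Fin k) (j : Fin l) :
    cir α i = some j ↔ cnt α (i.1 + 1) = j.1 + 1 := by
  unfold cir
  have := j.2
  split_ifs with h
  · rw [Option.some_inj, Fin.ext_iff]
    show cnt α (i.1 + 1) - 1 = j.1 ↔ _
    omega
  · constructor
    · intro h1
      exact absurd h1 (by simp)
    · intro h1
      exact absurd ⟨by omega, by omega⟩ h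

theorem cir_eq_none {l k : ℕ} (α : Op l k) (i : Fin k) :
    cir α i = none ↔ cnt α (i.1 + 1) = 0 ∨ cnt α (i.1 + 1) = l + 1 := by
  have := cnt_le α (i.1 + 1)
  unfold cir
  split_ifs with h
  · constructor
    · intro h1
      exact absurd h1 (by simp)
    · intro h1
      omega
  · constructor
    · intro _
      omega
    · intro _
      rfl

/-- `i ↦ j` iff `i < α b ↔ j < b` for all `b` -/
theorem cir_eq_some_iff {l k : ℕ} (α : Op l k) (i : Fin k) (j : Fin l) :
    cir α i = some j ↔ ∀ b : Fin (l + 1), i.1 < (α b).1 ↔ j.1 < b.1 := by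
  rw [cir_eq_some]
  constructor
  · intro h b
    have := lt_cnt_iff α (i.1 + 1) b
    rw [h] at this
    omega
  · intro h
    have h1 := cnt_le α (i.1 + 1)
    have hj := j.2
    apply le_antisymm
    · by_contra h2
      have h3 := (lt_cnt_iff α (i.1 + 1) ⟨j.1 + 1, by omega⟩).1 (not_le.1 h2)
      have h4 := (h ⟨j.1 + 1, by omega⟩).2 (Nat.lt_succ_self _)
      omega
    · have h3 := (lt_cnt_iff α (i.1 + 1) ⟨j.1, by omega⟩).2 (by
        have h4 := (h ⟨j.1, by omega⟩).1
        by_contra h5
        exact absurd (h4 (by omega)) (lt_irrefl _))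
      exact h3

@[simp] theorem cir_id {k : ℕ} (i : Fin k) : cir (OrderHom.id : Op k k) i = some i := by
  rw [cir_eq_some, cnt_id (by have := i.2; omega)]

theorem cir_comp {j l k : ℕ} (α : Op l k) (β : Op j l) (i : Fin k) :
    cir (α.comp β) i = (cir α i).bind (cir β) := by
  rcases h : cir α i with _ | a
  · rw [Option.bind_none, cir_eq_none, cnt_comp]
    rcases (cir_eq_none α i).1 h with h | h
    · left; rw [h, cnt_zero]
    · right; rw [h, cnt_top β (Nat.lt_succ_self l)]
  · rw [Option.bind_some]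
    have h1 := (cir_eq_some α i a).1 h
    rcases h2 : cir β a with _ | b
    · rw [cir_eq_none, cnt_comp, h1]
      exact (cir_eq_none β a).1 h2
    · rw [cir_eq_some, cnt_comp, h1]
      exact (cir_eq_some β a b).1 h2

/-- the threshold map of a label -/
theorem th_cir_some {l k : ℕ} (α : Op l k) (i : Fin k) (j : Fin l) (h : cir α i = some j) :
    (th k (i.1 + 1)).comp α = th l (j.1 + 1) := by
  rw [th_comp, (cir_eq_some α i j).1 h]

theorem th_cir_none {l k : ℕ} (α : Op l k) (i : Fin k) (h : cir α i = none) :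
    (th k (i.1 + 1)).comp α = th l 0 ∨ (th k (i.1 + 1)).comp α = th l (l + 1) := by
  rw [th_comp]
  rcases (cir_eq_none α i).1 h with h | h
  · left; rw [h]
  · right; rw [h]

end Vale.Agent.P263.G2
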