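import Vale.Agent.P263.G2.Paths

/-!
# Whiskered simplices

`PK ι y₀` is the space of pairs `(g, p)` where `g` is a map from the standard simplex with
vertices `ι` to `Y` and `p a` is a based path ending at `g (vertex a)`.
-/

open unitInterval Topology

namespace Vale.Agent.P263.G2

universe u v w

/-- the space of whiskered simplices -/
def PK (ι : Type v) [Fintype ι] [DecidableEq ι] {Y : Type u} [TopologicalSpace Y] (y₀ : Y) :
    Type (max u v) :=
  {x : C(stdSimplex ℝ ι, Y) × (ι → C(I, Y)) //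
    ∀ a, x.2 a 0 = y₀ ∧ x.2 a 1 = x.1 (stdSimplex.vertex a)}

variable {ι : Type v} [Fintype ι] [DecidableEq ι] {κ : Type w} [Fintype κ] [DecidableEq κ]
  {Y : Type u} [TopologicalSpace Y] {y₀ : Y}

instance : TopologicalSpace (PK ι y₀) := instTopologicalSpaceSubtype

lemma PK.ext {x y : PK ι y₀} (h : ∀ t, x.1.1 t = y.1.1 t) (h' : ∀ a s, x.1.2 a s = y.1.2 a s) :
    x = y :=
  Subtype.ext (Prod.ext (ContinuousMap.ext h) (funext fun a => ContinuousMap.ext (h' a)))

lemma PK.continuous_mk {T : Type*} [TopologicalSpace T] (f : T → PK ι y₀)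
    (h : Continuous fun x : T × stdSimplex ℝ ι => (f x.1).1.1 x.2)
    (h' : ∀ a, Continuous fun x : T × I => (f x.1).1.2 a x.2) : Continuous f := by
  refine Continuous.subtype_mk (f := fun t => (f t).1) ?_ (fun t => (f t).2)
  refine Continuous.prodMk (f := fun t => (f t).1.1) (g := fun t => (f t).1.2)
    (ContinuousMap.continuous_of_continuous_uncurry _ h)
    (continuous_pi fun a => ContinuousMap.continuous_of_continuous_uncurry _ (h' a))

/-- the underlying simplex -/
def PK.sx : C(PK ι y₀, C(stdSimplex ℝ ι, Y)) where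
  toFun x := x.1.1
  continuous_toFun := continuous_fst.comp continuous_subtype_val

/-- the whiskers -/
def PK.wh (a : ι) : C(PK ι y₀, C(I, Y)) where
  toFun x := x.1.2 a
  continuous_toFun := (continuous_apply a).comp (continuous_snd.comp continuous_subtype_val)

@[simp] lemma PK.sx_apply (x : PK ι y₀) : PK.sx x = x.1.1 := rfl
@[simp] lemma PK.wh_apply (a : ι) (x : PK ι y₀) : PK.wh a x = x.1.2 a := rfl

lemma PK.continuous_sx_eval {T : Type*} [TopologicalSpace T] {f : T → PK ι y₀}
    {g : T → stdSimplex ℝ ι} (hf : Continuous f) (hg : Continuous g) :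
    Continuous fun t => (f t).1.1 (g t) := by
  have h1 : Continuous fun t => (f t).1.1 := PK.sx.continuous.comp hf
  fun_prop

lemma PK.continuous_wh_eval {T : Type*} [TopologicalSpace T] (a : ι) {f : T → PK ι y₀}
    {g : T → I} (hf : Continuous f) (hg : Continuous g) :
    Continuous fun t => (f t).1.2 a (g t) := by
  have h1 : Continuous fun t => (f t).1.2 a := (PK.wh a).continuous.comp hf
  fun_prop

/-- reindexing (faces and degeneracies) -/
noncomputable def PK.re (f : κ → ι) : C(PK ι y₀, PK κ y₀) where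
  toFun x := ⟨(⟨fun t => x.1.1 (stdSimplex.map f t), by
      have := stdSimplex.continuous_map (S := ℝ) f; fun_prop⟩, fun a => x.1.2 (f a)),
    fun a => ⟨(x.2 (f a)).1, by
      rw [(x.2 (f a)).2]
      simp only [ContinuousMap.coe_mk, stdSimplex.map_vertex]⟩⟩
  continuous_toFun := PK.continuous_mk _
    (PK.continuous_sx_eval (f := fun x : PK ι y₀ × stdSimplex ℝ κ => x.1)
      (g := fun x : PK ι y₀ × stdSimplex ℝ κ => stdSimplex.map f x.2) continuous_fst
      ((stdSimplex.continuous_map (S := ℝ) f).comp continuous_snd))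
    fun a => PK.continuous_wh_eval (f a) continuous_fst continuous_snd

@[simp] lemma PK.re_sx (f : κ → ι) (x : PK ι y₀) (t : stdSimplex ℝ κ) :
    (PK.re f x).1.1 t = x.1.1 (stdSimplex.map f t) := rfl

@[simp] lemma PK.re_wh (f : κ → ι) (x : PK ι y₀) (a : κ) : (PK.re f x).1.2 a = x.1.2 (f a) := rfl

@[simp] lemma PK.re_id : PK.re (y₀ := y₀) (id : ι → ι) = ContinuousMap.id _ := by
  ext x : 1
  exact PK.ext (fun t => by simp) fun a s => rfl

lemma PK.re_comp {μ : Type*} [Fintype μ] [DecidableEq μ] (f : κ → ι) (g : μ → κ) :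
    PK.re (y₀ := y₀) (f ∘ g) = (PK.re g).comp (PK.re f) := by
  ext x : 1
  refine PK.ext (fun t => ?_) fun a s => rfl
  rw [PK.re_sx]
  change _ = x.1.1 (stdSimplex.map f (stdSimplex.map g t))
  rw [stdSimplex.map_comp_apply]

/-- functoriality in the space -/
def PK.map {Z : Type*} [TopologicalSpace Z] {z₀ : Z} (φ : C(Y, Z)) (h : φ y₀ = z₀) :
    C(PK ι y₀, PK ι z₀) where
  toFun x := ⟨(φ.comp x.1.1, fun a => φ.comp (x.1.2 a)), fun a => by
    simp [(x.2 a).1, (x.2 a).2, h]⟩
  continuous_toFun := PK.continuous_mk _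
    (φ.continuous.comp (PK.continuous_sx_eval continuous_fst continuous_snd))
    fun a => φ.continuous.comp (PK.continuous_wh_eval a continuous_fst continuous_snd)

@[simp] lemma PK.map_sx {Z : Type*} [TopologicalSpace Z] {z₀ : Z} (φ : C(Y, Z)) (h : φ y₀ = z₀)
    (x : PK ι y₀) (t) : (PK.map φ h x).1.1 t = φ (x.1.1 t) := rfl

@[simp] lemma PK.map_wh {Z : Type*} [TopologicalSpace Z] {z₀ : Z} (φ : C(Y, Z)) (h : φ y₀ = z₀)
    (x : PK ι y₀) (a) (s) : (PK.map φ h x).1.2 a s = φ (x.1.2 a s) := rfl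

/-- continuous maps into `PK` -/
def PK.lift {T : Type*} [TopologicalSpace T] (g : C(T, C(stdSimplex ℝ ι, Y)))
    (p : ι → C(T, PY y₀)) (h : ∀ a t, PY.ev (p a t) = g t (stdSimplex.vertex a)) :
    C(T, PK ι y₀) where
  toFun t := ⟨(g t, fun a => (p a t).1), fun a => ⟨(p a t).2, h a t⟩⟩
  continuous_toFun := PK.continuous_mk _ (by
      have := g.continuous
      fun_prop)
    fun a => PY.continuous_eval ((p a).continuous.comp continuous_fst) continuous_snd

/-- the whiskers as a map to the path space -/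
def PK.pr (a : ι) : C(PK ι y₀, PY y₀) where
  toFun x := ⟨x.1.2 a, (x.2 a).1⟩
  continuous_toFun := PY.continuous_mk _ (PK.continuous_wh_eval a continuous_fst continuous_snd)

lemma PK.ev_pr (a : ι) (x : PK ι y₀) : PY.ev (PK.pr a x) = x.1.1 (stdSimplex.vertex a) :=
  (x.2 a).2

/-- continuous maps into `PK` are pairs of a family of simplices and lifts of the vertices -/
def PK.equivLift {T : Type*} [TopologicalSpace T] :
    C(T, PK ι y₀) ≃ {x : C(T, C(stdSimplex ℝ ι, Y)) × (ι → C(T, PY y₀)) //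
      ∀ a t, PY.ev (x.2 a t) = x.1 t (stdSimplex.vertex a)} where
  toFun f := ⟨(PK.sx.comp f, fun a => (PK.pr a).comp f), fun a t => PK.ev_pr a (f t)⟩
  invFun x := PK.lift x.1.1 x.1.2 x.2
  left_inv _ := rfl
  right_inv _ := rfl

end Vale.Agent.P263.G2
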