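import Mathlib

/-!
# Based paths with a common end point (the topological Cech nerve of the path fibration)

`PX ι y₀` is the space of families of based paths indexed by `ι` with the same end point.
For `ι = Fin (k + 1)` this is the `k`-th level of the Cech nerve of `P Y → Y`.
-/

open unitInterval Topology

namespace Vale.Agent.P263.G2

universe u v w

/-- the space of families of based paths with a common end point -/
def PX (ι : Type v) {Y : Type u} [TopologicalSpace Y] (y₀ : Y) : Type (max u v) :=
  {p : ι → C(I, Y) // (∀ a, p a 0 = y₀) ∧ ∀ a b, p a 1 = p b 1}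

/-- the space of based paths -/
def PY {Y : Type u} [TopologicalSpace Y] (y₀ : Y) : Type u := {p : C(I, Y) // p 0 = y₀}

/-- the loop space -/
def Lo {Y : Type u} [TopologicalSpace Y] (y₀ : Y) : Type u := {p : C(I, Y) // p 0 = y₀ ∧ p 1 = y₀}

section

variable {ι : Type v} {κ : Type w} {Y : Type u} [TopologicalSpace Y] {y₀ : Y}

instance : TopologicalSpace (PX ι y₀) := instTopologicalSpaceSubtype
instance : TopologicalSpace (PY y₀) := instTopologicalSpaceSubtype
instance : TopologicalSpace (Lo y₀) := instTopologicalSpaceSubtype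

lemma PX.ext {p q : PX ι y₀} (h : ∀ a s, p.1 a s = q.1 a s) : p = q :=
  Subtype.ext (funext fun a => ContinuousMap.ext (h a))

lemma PY.ext {p q : PY y₀} (h : ∀ s, p.1 s = q.1 s) : p = q :=
  Subtype.ext (ContinuousMap.ext h)

lemma Lo.ext {p q : Lo y₀} (h : ∀ s, p.1 s = q.1 s) : p = q :=
  Subtype.ext (ContinuousMap.ext h)

/-- a map into `PX` is continuous as soon as its uncurried components are -/
lemma PX.continuous_mk {T : Type*} [TopologicalSpace T] (f : T → PX ι y₀)
    (h : ∀ a, Continuous fun x : T × I => (f x.1).1 a x.2) : Continuous f := by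
  refine Continuous.subtype_mk (f := fun t => (f t).1) ?_ (fun t => (f t).2)
  refine continuous_pi fun a => ?_
  exact ContinuousMap.continuous_of_continuous_uncurry _ (h a)

lemma PY.continuous_mk {T : Type*} [TopologicalSpace T] (f : T → PY y₀)
    (h : Continuous fun x : T × I => (f x.1).1 x.2) : Continuous f := by
  refine Continuous.subtype_mk (f := fun t => (f t).1) ?_ (fun t => (f t).2)
  exact ContinuousMap.continuous_of_continuous_uncurry _ h

lemma Lo.continuous_mk {T : Type*} [TopologicalSpace T] (f : T → Lo y₀)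
    (h : Continuous fun x : T × I => (f x.1).1 x.2) : Continuous f := by
  refine Continuous.subtype_mk (f := fun t => (f t).1) ?_ (fun t => (f t).2)
  exact ContinuousMap.continuous_of_continuous_uncurry _ h

lemma PX.continuous_val (a : ι) : Continuous fun p : PX ι y₀ => p.1 a :=
  (continuous_apply a).comp continuous_subtype_val

lemma PY.continuous_val : Continuous fun p : PY y₀ => p.1 := continuous_subtype_val
lemma Lo.continuous_val : Continuous fun p : Lo y₀ => p.1 := continuous_subtype_val

lemma PX.continuous_eval {T : Type*} [TopologicalSpace T] (a : ι) {f : T → PX ι y₀} {g : T → I}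
    (hf : Continuous f) (hg : Continuous g) : Continuous fun t => (f t).1 a (g t) := by
  have h1 : Continuous fun t => (f t).1 a := (PX.continuous_val a).comp hf
  fun_prop

lemma PY.continuous_eval {T : Type*} [TopologicalSpace T] {f : T → PY y₀} {g : T → I}
    (hf : Continuous f) (hg : Continuous g) : Continuous fun t => (f t).1 (g t) := by
  have h1 : Continuous fun t => (f t).1 := PY.continuous_val.comp hf
  fun_prop

lemma Lo.continuous_eval {T : Type*} [TopologicalSpace T] {f : T → Lo y₀} {g : T → I}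
    (hf : Continuous f) (hg : Continuous g) : Continuous fun t => (f t).1 (g t) := by
  have h1 : Continuous fun t => (f t).1 := Lo.continuous_val.comp hf
  fun_prop

/-- reindexing -/
def PX.re (f : κ → ι) : C(PX ι y₀, PX κ y₀) where
  toFun p := ⟨fun a => p.1 (f a), fun a => p.2.1 (f a), fun a b => p.2.2 (f a) (f b)⟩
  continuous_toFun := PX.continuous_mk _ fun a =>
    PX.continuous_eval (f a) continuous_fst continuous_snd

@[simp] lemma PX.re_apply (f : κ → ι) (p : PX ι y₀) (a : κ) : (PX.re f p).1 a = p.1 (f a) := rfl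

/-- the end point -/
def PY.ev : C(PY y₀, Y) where
  toFun p := p.1 1
  continuous_toFun := PY.continuous_eval continuous_id continuous_const

@[simp] lemma PY.ev_apply (p : PY y₀) : PY.ev p = p.1 1 := rfl

/-- the components -/
def PX.pr (a : ι) : C(PX ι y₀, PY y₀) where
  toFun p := ⟨p.1 a, p.2.1 a⟩
  continuous_toFun := PY.continuous_mk _ (PX.continuous_eval a continuous_fst continuous_snd)

@[simp] lemma PX.pr_apply (a : ι) (p : PX ι y₀) : (PX.pr a p).1 = p.1 a := rfl

lemma PX.ev_pr (a b : ι) (p : PX ι y₀) : PY.ev (PX.pr a p) = PY.ev (PX.pr b p) := p.2.2 a b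

/-- `PX` is the fibre product -/
def PX.lift {T : Type*} [TopologicalSpace T] (f : ι → C(T, PY y₀))
    (h : ∀ a b t, PY.ev (f a t) = PY.ev (f b t)) : C(T, PX ι y₀) where
  toFun t := ⟨fun a => (f a t).1, fun a => (f a t).2, fun a b => h a b t⟩
  continuous_toFun := PX.continuous_mk _ fun a =>
    PY.continuous_eval ((f a).continuous.comp continuous_fst) continuous_snd

@[simp] lemma PX.pr_lift {T : Type*} [TopologicalSpace T] (f : ι → C(T, PY y₀))
    (h : ∀ a b t, PY.ev (f a t) = PY.ev (f b t)) (a : ι) : (PX.pr a).comp (PX.lift f h) = f a := by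
  ext t : 1
  rfl

/-- continuous maps into `PX` are compatible families of continuous maps into `PY` -/
def PX.equivLift {T : Type*} [TopologicalSpace T] :
    C(T, PX ι y₀) ≃ {f : ι → C(T, PY y₀) // ∀ a b, PY.ev.comp (f a) = PY.ev.comp (f b)} where
  toFun g := ⟨fun a => (PX.pr a).comp g, fun a b => by ext t; exact (g t).2.2 a b⟩
  invFun f := PX.lift f.1 fun a b t => congrArg (fun g : C(T, Y) => g t) (f.2 a b)
  left_inv g := rfl
  right_inv f := rfl

/-- functoriality -/
def PX.map {Z : Type*} [TopologicalSpace Z] {z₀ : Z} (φ : C(Y, Z)) (h : φ y₀ = z₀) :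
    C(PX ι y₀, PX ι z₀) where
  toFun p := ⟨fun a => φ.comp (p.1 a), fun a => by simp [p.2.1 a, h],
    fun a b => by simp [p.2.2 a b]⟩
  continuous_toFun := PX.continuous_mk _ fun a =>
    φ.continuous.comp (PX.continuous_eval a continuous_fst continuous_snd)

def PY.map {Z : Type*} [TopologicalSpace Z] {z₀ : Z} (φ : C(Y, Z)) (h : φ y₀ = z₀) :
    C(PY y₀, PY z₀) where
  toFun p := ⟨φ.comp p.1, by simp [p.2, h]⟩
  continuous_toFun := PY.continuous_mk _
    (φ.continuous.comp (PY.continuous_eval continuous_fst continuous_snd))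

def Lo.map {Z : Type*} [TopologicalSpace Z] {z₀ : Z} (φ : C(Y, Z)) (h : φ y₀ = z₀) :
    C(Lo y₀, Lo z₀) where
  toFun p := ⟨φ.comp p.1, by simp [p.2, h], by simp [p.2, h]⟩
  continuous_toFun := Lo.continuous_mk _
    (φ.continuous.comp (Lo.continuous_eval continuous_fst continuous_snd))

/-! ### the homotopy equivalence with powers of the loop space -/

/-- the value of the concatenation of `p` and the reverse of `q` -/
noncomputable def cat (p q : C(I, Y)) (x : ℝ) : Y :=
  if x ≤ 1 then p (Set.projIcc 0 1 zero_le_one x) else q (Set.projIcc 0 1 zero_le_one (2 - x))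

lemma continuous_cat {T : Type*} [TopologicalSpace T] {f g : T → C(I, Y)} {x : T → ℝ}
    (hf : Continuous f) (hg : Continuous g) (hx : Continuous x) (h : ∀ t, f t 1 = g t 1) :
    Continuous fun t => cat (f t) (g t) (x t) := by
  unfold cat
  have hp : Continuous fun t => Set.projIcc (0 : ℝ) 1 zero_le_one (x t) :=
    continuous_projIcc.comp hx
  have hq : Continuous fun t => Set.projIcc (0 : ℝ) 1 zero_le_one (2 - x t) :=
    continuous_projIcc.comp (continuous_const.sub hx)
  refine Continuous.if_le (by fun_prop) (by fun_prop) hx continuous_const ?_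
  intro t ht
  rw [ht]
  norm_num
  exact h t

@[simp] lemma cat_zero (p q : C(I, Y)) : cat p q 0 = p 0 := by
  rw [cat, if_pos zero_le_one, Set.projIcc_left]; rfl

lemma cat_one (p q : C(I, Y)) : cat p q 1 = p 1 := by
  rw [cat, if_pos le_rfl, Set.projIcc_right]; rfl

lemma cat_of_one_le (p q : C(I, Y)) (h : p 1 = q 1) {x : ℝ} (hx : 1 ≤ x) :
    cat p q x = q (Set.projIcc 0 1 zero_le_one (2 - x)) := by
  rcases hx.lt_or_eq with hx | rfl
  · rw [cat, if_neg (not_le.2 hx)]
  · rw [cat_one, h]; norm_num

lemma cat_two (p q : C(I, Y)) : cat p q 2 = q 0 := by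
  rw [cat, if_neg (by norm_num), sub_self, Set.projIcc_left]; rfl

lemma cat_coe (p q : C(I, Y)) (s : I) : cat p q s = p s := by
  rw [cat, if_pos s.2.2, Set.projIcc_val]

variable [DecidableEq ι]

/-- the deformation: shrink the path `p a₀` and let the other paths follow -/
noncomputable def PX.defo (a₀ : ι) (τ : I) (p : PX ι y₀) : PX ι y₀ where
  val a :=
    if a = a₀ then ⟨fun s => p.1 a₀ (σ τ * s), by fun_prop⟩
    else ⟨fun s => cat (p.1 a) (p.1 a₀) ((1 + τ) * s),
      continuous_cat continuous_const continuous_const (by fun_prop) fun _ => p.2.2 a a₀⟩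
  property := by
    have key : ∀ a, (if a = a₀ then (⟨fun s => p.1 a₀ (σ τ * s), by fun_prop⟩ : C(I, Y))
      else ⟨fun s => cat (p.1 a) (p.1 a₀) ((1 + τ) * s),
        continuous_cat continuous_const continuous_const (by fun_prop) fun _ => p.2.2 a a₀⟩) 1
        = p.1 a₀ (σ τ) := by
      intro a
      split_ifs with h
      · simp
      · simp only [ContinuousMap.coe_mk, Set.Icc.coe_one, mul_one]
        rw [cat_of_one_le _ _ (p.2.2 a a₀) (by linarith [τ.2.1])]
        congr 1
        rw [Set.projIcc_of_mem _ (x := 2 - (1 + (τ : ℝ))) ⟨by linarith [τ.2.2], by linarith [τ.2.1]⟩]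
        ext
        simp; ring
    refine ⟨fun a => ?_, fun a b => by rw [key, key]⟩
    dsimp only
    split_ifs with h
    · simp [p.2.1 a₀]
    · simp [p.2.1 a]

lemma PX.defo_self (a₀ : ι) (τ : I) (p : PX ι y₀) (s : I) :
    (PX.defo a₀ τ p).1 a₀ s = p.1 a₀ (σ τ * s) := by
  simp [PX.defo]

lemma PX.defo_ne {a₀ a : ι} (h : a ≠ a₀) (τ : I) (p : PX ι y₀) (s : I) :
    (PX.defo a₀ τ p).1 a s = cat (p.1 a) (p.1 a₀) ((1 + τ) * s) := by
  simp [PX.defo, h]

lemma PX.continuous_defo (a₀ : ι) : Continuous fun x : I × PX ι y₀ => PX.defo a₀ x.1 x.2 := by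
  refine PX.continuous_mk _ fun a => ?_
  by_cases h : a = a₀
  · subst h
    simp only [PX.defo_self]
    exact PX.continuous_eval a (continuous_snd.comp continuous_fst) (by fun_prop)
  · simp only [PX.defo_ne h]
    exact continuous_cat ((PX.continuous_val a).comp (continuous_snd.comp continuous_fst))
      ((PX.continuous_val a₀).comp (continuous_snd.comp continuous_fst)) (by fun_prop)
      fun x => x.1.2.2.2 a a₀

@[simp] lemma PX.defo_zero (a₀ : ι) (p : PX ι y₀) : PX.defo a₀ 0 p = p := by
  refine PX.ext fun a s => ?_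
  by_cases h : a = a₀
  · subst h; simp [PX.defo_self]
  · rw [PX.defo_ne h]; simp [cat_coe]

/-- the inclusion of tuples of loops -/
def PX.ofLo (a₀ : ι) : C(({a : ι // a ≠ a₀} → Lo y₀), PX ι y₀) where
  toFun g := ⟨fun a => if h : a = a₀ then ContinuousMap.const I y₀ else (g ⟨a, h⟩).1,
    fun a => by dsimp only; split_ifs with h <;> simp [(g _).2.1],
    fun a b => by
      have key : ∀ a, (if h : a = a₀ then ContinuousMap.const I y₀ else (g ⟨a, h⟩).1) 1 = y₀ := by
        intro a; split_ifs with h
        · rfl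
        · exact (g _).2.2
      rw [key, key]⟩
  continuous_toFun := PX.continuous_mk _ fun a => by
    by_cases h : a = a₀
    · simp only [h, dif_pos]
      exact continuous_const
    · simp only [h, dif_neg, not_false_eq_true]
      exact Lo.continuous_eval ((continuous_apply (⟨a, h⟩ : {a : ι // a ≠ a₀})).comp continuous_fst)
        continuous_snd

lemma PX.ofLo_self (a₀ : ι) (g : {a : ι // a ≠ a₀} → Lo y₀) (s : I) :
    (PX.ofLo a₀ g).1 a₀ s = y₀ := by
  change (if h : a₀ = a₀ then ContinuousMap.const I y₀ else (g ⟨a₀, h⟩).1) s = y₀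
  simp

lemma PX.ofLo_ne {a₀ a : ι} (h : a ≠ a₀) (g : {a : ι // a ≠ a₀} → Lo y₀) (s : I) :
    (PX.ofLo a₀ g).1 a s = (g ⟨a, h⟩).1 s := by
  change (if h : a = a₀ then ContinuousMap.const I y₀ else (g ⟨a, h⟩).1) s = _
  simp [h]

/-- the loops `p a` followed by the reverse of `p a₀` -/
noncomputable def PX.toLo (a₀ : ι) : C(PX ι y₀, ({a : ι // a ≠ a₀} → Lo y₀)) where
  toFun p a := ⟨⟨fun s => cat (p.1 a) (p.1 a₀) (2 * s),
      continuous_cat continuous_const continuous_const (by fun_prop) fun _ => p.2.2 a a₀⟩,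
    by simp [p.2.1 a], by simp [cat_two, p.2.1 a₀]⟩
  continuous_toFun := continuous_pi fun a => Lo.continuous_mk _
    (continuous_cat ((PX.continuous_val a.1).comp continuous_fst)
      ((PX.continuous_val a₀).comp continuous_fst) (by fun_prop) fun x => x.1.2.2 a a₀)

omit [DecidableEq ι] in
lemma PX.toLo_apply (a₀ : ι) (p : PX ι y₀) (a : {a : ι // a ≠ a₀}) (s : I) :
    (PX.toLo a₀ p a).1 s = cat (p.1 a) (p.1 a₀) (2 * s) := rfl

lemma PX.defo_one (a₀ : ι) (p : PX ι y₀) : PX.defo a₀ 1 p = PX.ofLo a₀ (PX.toLo a₀ p) := by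
  refine PX.ext fun a s => ?_
  by_cases h : a = a₀
  · subst h; simp [PX.defo_self, PX.ofLo_self, p.2.1 a]
  · rw [PX.defo_ne h, PX.ofLo_ne h, PX.toLo_apply]
    norm_num

/-- reparametrisation of loops -/
noncomputable def Lo.rep (τ : I) (g : Lo y₀) : Lo y₀ :=
  ⟨⟨fun s => cat g.1 (ContinuousMap.const I y₀) ((1 + τ) * s),
      continuous_cat continuous_const continuous_const (by fun_prop) fun _ => g.2.2⟩,
    by simp [g.2.1], by
      simp only [ContinuousMap.coe_mk, Set.Icc.coe_one, mul_one]
      rw [cat_of_one_le _ _ g.2.2 (by linarith [τ.2.1])]; rfl⟩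

lemma Lo.rep_apply (τ : I) (g : Lo y₀) (s : I) :
    (Lo.rep τ g).1 s = cat g.1 (ContinuousMap.const I y₀) ((1 + τ) * s) := rfl

lemma Lo.continuous_rep : Continuous fun x : I × Lo y₀ => Lo.rep x.1 x.2 :=
  Lo.continuous_mk _ (continuous_cat (Lo.continuous_val.comp (continuous_snd.comp continuous_fst))
    continuous_const (by fun_prop) fun x => x.1.2.2.2)

@[simp] lemma Lo.rep_zero (g : Lo y₀) : Lo.rep 0 g = g :=
  Lo.ext fun s => by simp [Lo.rep_apply, cat_coe]

lemma PX.toLo_ofLo (a₀ : ι) (g : {a : ι // a ≠ a₀} → Lo y₀) :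
    PX.toLo a₀ (PX.ofLo a₀ g) = fun a => Lo.rep 1 (g a) := by
  funext a
  refine Lo.ext fun s => ?_
  rw [PX.toLo_apply, Lo.rep_apply]
  have h1 : (PX.ofLo a₀ g).1 a = (g a).1 := by
    ext s; exact PX.ofLo_ne a.2 g s
  have h2 : (PX.ofLo a₀ g).1 a₀ = ContinuousMap.const I y₀ := by
    ext s; exact PX.ofLo_self a₀ g s
  rw [h1, h2]
  norm_num

/-- `PX` is homotopy equivalent to a power of the loop space -/
noncomputable def PX.homotopyEquiv (a₀ : ι) :
    ContinuousMap.HomotopyEquiv ({a : ι // a ≠ a₀} → Lo y₀) (PX ι y₀) where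
  toFun := PX.ofLo a₀
  invFun := PX.toLo a₀
  left_inv := by
    refine ContinuousMap.Homotopic.symm ⟨⟨⟨fun x a => Lo.rep x.1 (x.2 a), ?_⟩, fun g => ?_,
      fun g => ?_⟩⟩
    · refine continuous_pi fun a => ?_
      have h2 : Continuous fun x : I × ({a : ι // a ≠ a₀} → Lo y₀) => x.2 a :=
        (continuous_apply a).comp continuous_snd
      exact Lo.continuous_rep.comp (continuous_fst.prodMk h2)
    · funext a; simp
    · exact (PX.toLo_ofLo a₀ g).symm
  right_inv := by
    refine ContinuousMap.Homotopic.symm ⟨⟨⟨fun x => PX.defo a₀ x.1 x.2, PX.continuous_defo a₀⟩,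
      fun p => ?_, fun p => ?_⟩⟩
    · simp
    · exact PX.defo_one a₀ p

end

/-! ### lifting to the space of based paths -/

section

variable {Y : Type u} [TopologicalSpace Y] {y₀ : Y}

/-- a map from a contractible space to a path connected space lifts to based paths -/
theorem PY.exists_lift {T : Type*} [TopologicalSpace T] [ContractibleSpace T]
    [PathConnectedSpace Y] (f : C(T, Y)) : ∃ g : C(T, PY y₀), PY.ev.comp g = f := by
  obtain ⟨t₀, ⟨h⟩⟩ := id_nullhomotopic T
  let γ : Path y₀ (f t₀) := PathConnectedSpace.somePath y₀ (f t₀)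
  -- the value of the lift
  let w : T × I → Y := fun x => if (x.2 : ℝ) ≤ 1 / 2
    then γ (Set.projIcc 0 1 zero_le_one (2 * x.2))
    else f (h (Set.projIcc 0 1 zero_le_one (2 - 2 * x.2), x.1))
  have hw : Continuous w := by
    refine Continuous.if_le ?_ ?_ (by fun_prop) continuous_const ?_
    · exact γ.continuous.comp (continuous_projIcc.comp (by fun_prop))
    · exact f.continuous.comp (h.continuous.comp
        ((continuous_projIcc.comp (by fun_prop)).prodMk continuous_fst))
    · intro x hx
      rw [hx]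
      norm_num
  refine ⟨⟨fun t => ⟨⟨fun s => w (t, s), hw.comp (by fun_prop)⟩, ?_⟩, ?_⟩, ?_⟩
  · simp [w]
  · exact PY.continuous_mk _ hw
  · ext t
    change w (t, 1) = f t
    simp only [w, Set.Icc.coe_one]
    rw [if_neg (by norm_num)]
    norm_num

end

end Vale.Agent.P263.G2
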