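import Vale.Agent.P263.G2.W4
import Vale.Agent.P263.GB.SMod

/-!
# The tautological maps from the loop space to the whiskered simplices

`tht k j : C(Lo y₀, PK (Fin (k + 1)) y₀)` sends `l` to the simplex `t ↦ l (∑_{i ≥ j} t i)` with
constant whiskers.
-/

open unitInterval Topology

namespace Vale.Agent.P263.G2

universe u v w

/-- the sum of the coordinates with index at least `j` -/
noncomputable def S (k j : ℕ) : C(stdSimplex ℝ (Fin (k + 1)), I) where
  toFun t := ⟨∑ i : Fin (k + 1), if j ≤ (i : ℕ) then t i else 0, by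
    constructor
    · exact Finset.sum_nonneg fun i _ => by
        split_ifs
        · exact stdSimplex.zero_le t i
        · exact le_rfl
    · calc (∑ i : Fin (k + 1), if j ≤ (i : ℕ) then t i else 0) ≤ ∑ i, t i :=
            Finset.sum_le_sum fun i _ => by
              split_ifs
              · exact le_rfl
              · exact stdSimplex.zero_le t i
        _ = 1 := stdSimplex.sum_eq_one t⟩
  continuous_toFun := by
    refine Continuous.subtype_mk (continuous_finsetSum _ fun i _ => ?_) _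
    split_ifs
    · exact (continuous_apply i).comp continuous_subtype_val
    · exact continuous_const

lemma S_apply (k j : ℕ) (t : stdSimplex ℝ (Fin (k + 1))) :
    (S k j t : ℝ) = ∑ i : Fin (k + 1), if j ≤ (i : ℕ) then t i else 0 := rfl

@[simp] lemma S_zero (k : ℕ) (t : stdSimplex ℝ (Fin (k + 1))) : S k 0 t = 1 := by
  ext
  rw [S_apply]
  simp

lemma S_of_lt {k j : ℕ} (h : k < j) (t : stdSimplex ℝ (Fin (k + 1))) : S k j t = 0 := by
  ext
  rw [S_apply]
  refine Finset.sum_eq_zero fun i _ => if_neg ?_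
  have := i.2
  omega

lemma S_vertex (k j : ℕ) (a : Fin (k + 1)) :
    S k j (stdSimplex.vertex a) = if j ≤ (a : ℕ) then 1 else 0 := by
  ext
  rw [S_apply, Finset.sum_eq_single a]
  · rw [stdSimplex.vertex_coe, Pi.single_eq_same]
    split_ifs <;> rfl
  · intro b _ hb
    rw [stdSimplex.vertex_coe, Pi.single_eq_of_ne hb]
    simp
  · simp

/-- the sums under a map of simplices -/
lemma S_map {k l j a : ℕ} (f : Fin (k + 1) → Fin (l + 1))
    (h : ∀ i : Fin (k + 1), (i : ℕ) < j ↔ (f i : ℕ) < a) (t : stdSimplex ℝ (Fin (k + 1))) :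
    S l a (stdSimplex.map f t) = S k j t := by
  ext
  rw [S_apply, S_apply]
  have h1 : ∀ i : Fin (l + 1), (stdSimplex.map f t) i = ∑ x with f x = i, t x := by
    intro i
    rw [stdSimplex.map_coe, FunOnFinite.linearMap_apply_apply]
  have h2 : ∀ i : Fin (l + 1), (if a ≤ (i : ℕ) then (stdSimplex.map f t) i else 0)
      = ∑ x, if f x = i then (if j ≤ (x : ℕ) then t x else 0) else 0 := by
    intro i
    rw [← Finset.sum_filter, h1]
    by_cases hi : a ≤ (i : ℕ)
    · rw [if_pos hi]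
      refine Finset.sum_congr rfl fun x hx => ?_
      rw [if_pos]
      rw [Finset.mem_filter] at hx
      have := h x
      rw [hx.2] at this
      omega
    · rw [if_neg hi]
      refine (Finset.sum_eq_zero fun x hx => ?_).symm
      rw [if_neg]
      rw [Finset.mem_filter] at hx
      have := h x
      rw [hx.2] at this
      omega
  rw [Finset.sum_congr rfl fun i _ => h2 i, Finset.sum_comm]
  refine Finset.sum_congr rfl fun x _ => ?_
  rw [Finset.sum_ite_eq Finset.univ (f x)]
  simp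

/-- on the edge from `a` to `a + 1` -/
lemma S_edge {k : ℕ} (j : ℕ) (a : Fin k) (x : I) :
    S k j (edge a x) = if j ≤ (a : ℕ) then 1 else if j = a + 1 then x else 0 := by
  ext
  rw [S_apply, Fintype.sum_eq_add a.castSucc a.succ (Fin.castSucc_lt_succ (i := a)).ne]
  · rw [edge_apply, edge_apply, if_pos rfl, if_neg (Fin.castSucc_lt_succ (i := a)).ne', if_pos rfl]
    simp only [Fin.val_castSucc, Fin.val_succ]
    split_ifs <;> first | omega | simp
  · intro i hi
    rw [edge_apply, if_neg hi.1, if_neg hi.2]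
    simp

variable {Y : Type u} [TopologicalSpace Y] {y₀ : Y}

/-- the constant loop -/
def Lo.cst : Lo y₀ := ⟨ContinuousMap.const I y₀, rfl, rfl⟩

@[simp] lemma Lo.cst_apply (s : I) : (Lo.cst (y₀ := y₀)).1 s = y₀ := rfl

/-- the constant whiskered simplex -/
def PK.base {ι : Type v} [Fintype ι] [DecidableEq ι] : PK ι y₀ :=
  ⟨(ContinuousMap.const _ y₀, fun _ => ContinuousMap.const I y₀), fun _ => ⟨rfl, rfl⟩⟩

@[simp] lemma PK.base_sx {ι : Type v} [Fintype ι] [DecidableEq ι] (t : stdSimplex ℝ ι) :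
    (PK.base (y₀ := y₀)).1.1 t = y₀ := rfl

@[simp] lemma PK.base_wh {ι : Type v} [Fintype ι] [DecidableEq ι] (a : ι) (s : I) :
    (PK.base (y₀ := y₀)).1.2 a s = y₀ := rfl

@[simp] lemma PK.re_base {ι : Type v} [Fintype ι] [DecidableEq ι] {κ : Type w} [Fintype κ]
    [DecidableEq κ] (f : κ → ι) : PK.re f (PK.base (y₀ := y₀)) = PK.base :=
  PK.ext (fun _ => rfl) fun _ _ => rfl

@[simp] lemma PK.map_base {ι : Type v} [Fintype ι] [DecidableEq ι] {Z : Type*}
    [TopologicalSpace Z] {z₀ : Z} (φ : C(Y, Z)) (h : φ y₀ = z₀) :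
    PK.map (ι := ι) φ h (PK.base (y₀ := y₀)) = PK.base :=
  PK.ext (fun _ => h) fun _ _ => h

/-- the tautological map -/
noncomputable def tht (k j : ℕ) : C(Lo y₀, PK (Fin (k + 1)) y₀) where
  toFun l := ⟨(l.1.comp (S k j), fun _ => ContinuousMap.const I y₀), fun a => ⟨rfl, by
    rw [ContinuousMap.comp_apply, S_vertex]
    split_ifs
    · exact l.2.2.symm
    · exact l.2.1.symm⟩⟩
  continuous_toFun := PK.continuous_mk _
    (Lo.continuous_eval continuous_fst ((S k j).continuous.comp continuous_snd))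
    fun _ => continuous_const

@[simp] lemma tht_sx (k j : ℕ) (l : Lo y₀) (t : stdSimplex ℝ (Fin (k + 1))) :
    (tht k j l).1.1 t = l.1 (S k j t) := rfl

@[simp] lemma tht_wh (k j : ℕ) (l : Lo y₀) (a : Fin (k + 1)) (s : I) :
    (tht k j l).1.2 a s = y₀ := rfl

@[simp] lemma tht_cst (k j : ℕ) : tht k j (Lo.cst (y₀ := y₀)) = PK.base :=
  PK.ext (fun _ => rfl) fun _ _ => rfl

/-- (t1) for `j = 0` -/
lemma tht_zero (k : ℕ) : tht (y₀ := y₀) k 0 = ContinuousMap.const _ PK.base := by
  ext l : 1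
  exact PK.ext (fun t => by simp [l.2.2]) fun _ _ => rfl

/-- (t1) for `k < j` -/
lemma tht_of_lt {k j : ℕ} (h : k < j) :
    tht (y₀ := y₀) k j = ContinuousMap.const _ PK.base := by
  ext l : 1
  exact PK.ext (fun t => by simp [S_of_lt h, l.2.1]) fun _ _ => rfl

/-- (t2) reindexing -/
lemma re_comp_tht {k l j a : ℕ} (f : Fin (k + 1) → Fin (l + 1))
    (h : ∀ i : Fin (k + 1), (i : ℕ) < j ↔ (f i : ℕ) < a) :
    (PK.re f).comp (tht (y₀ := y₀) l a) = tht k j := by
  ext x : 1
  refine PK.ext (fun t => ?_) fun _ _ => rfl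
  rw [ContinuousMap.comp_apply, PK.re_sx, tht_sx, tht_sx, S_map f h]

lemma re_tht {k l j a : ℕ} (f : Fin (k + 1) → Fin (l + 1))
    (h : ∀ i : Fin (k + 1), (i : ℕ) < j ↔ (f i : ℕ) < a) (x : Lo y₀) :
    PK.re f (tht l a x) = tht k j x :=
  congrArg (fun g : C(Lo y₀, PK (Fin (k + 1)) y₀) => g x) (re_comp_tht f h)

/-- (t2) in the form with `f i ≤ a` -/
lemma re_comp_tht' {k l j a : ℕ} (f : Fin (k + 1) → Fin (l + 1))
    (h : ∀ i : Fin (k + 1), (i : ℕ) < j ↔ (f i : ℕ) ≤ a) :
    (PK.re f).comp (tht (y₀ := y₀) l (a + 1)) = tht k j :=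
  re_comp_tht f fun i => (h i).trans Nat.lt_succ_iff.symm

/-- existence of the index in (t2) -/
lemma exists_cut {k l : ℕ} (f : Fin (k + 1) →o Fin (l + 1)) (a : ℕ) :
    ∃ j ≤ k + 1, ∀ i : Fin (k + 1), (i : ℕ) < j ↔ (f i : ℕ) ≤ a := by
  by_cases h : ∀ i : Fin (k + 1), (f i : ℕ) ≤ a
  · exact ⟨k + 1, le_rfl, fun i => ⟨fun _ => h i, fun _ => i.2⟩⟩
  · have h1 : ∃ n : ℕ, ∃ hn : n < k + 1, a < (f ⟨n, hn⟩ : ℕ) := by
      push Not at h
      obtain ⟨i, hi⟩ := h
      exact ⟨i, i.2, hi⟩
    classical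
    refine ⟨Nat.find h1, (Nat.find_spec h1).1.le, fun i => ⟨fun hi => ?_, fun hi => ?_⟩⟩
    · have h2 := Nat.find_min h1 hi
      push Not at h2
      exact h2 i.2
    · by_contra h2
      obtain ⟨h3, h4⟩ := Nat.find_spec h1
      have h5 : (⟨Nat.find h1, h3⟩ : Fin (k + 1)) ≤ i := not_lt.1 h2
      have h6 : (f ⟨Nat.find h1, h3⟩ : ℕ) ≤ (f i : ℕ) := f.monotone h5
      omega

/-- the inclusion of an axis in a power of the loop space -/
noncomputable def axis {k : ℕ} (b : Fin k) : C(Lo y₀, (Fin k → Lo y₀)) where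
  toFun l a := if a = b then l else Lo.cst
  continuous_toFun := by
    refine continuous_pi fun a => ?_
    split_ifs
    · exact continuous_id
    · exact continuous_const

@[simp] lemma axis_same {k : ℕ} (b : Fin k) (l : Lo y₀) : axis b l b = l := if_pos rfl

lemma axis_ne {k : ℕ} {a b : Fin k} (h : a ≠ b) (l : Lo y₀) : axis b l a = Lo.cst := if_neg h

@[simp] lemma Lo.rep3_cst (τ : I) : Lo.rep3 τ (Lo.cst (y₀ := y₀)) = Lo.cst := by
  refine Lo.ext fun s => ?_
  rw [Lo.rep3_apply]
  unfold tri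
  split_ifs <;> rfl

lemma toLo_tht {k : ℕ} (b : Fin k) (l : Lo y₀) :
    PK.toLo (tht k (b + 1) l) = fun a => Lo.rep3 1 (axis b l a) := by
  funext a
  refine PK.toLo_of_const _ (fun _ _ => rfl) a _ fun s => ?_
  rw [tht_sx, S_edge]
  by_cases h : a = b
  · subst h
    rw [axis_same, if_neg (by omega), if_pos rfl]
  · rw [axis_ne h, Lo.cst_apply]
    have h1 : (a : ℕ) ≠ b := fun h1 => h (Fin.ext h1)
    split_ifs
    · exact l.2.2
    · omega
    · exact l.2.1

/-- (t3): on loops the tautological map is the inclusion of an axis -/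
lemma toLo_comp_tht {k : ℕ} (b : Fin k) :
    (PK.toLo.comp (tht (y₀ := y₀) k (b + 1))).Homotopic (axis b) := by
  refine ContinuousMap.Homotopic.symm ⟨⟨⟨fun x a => Lo.rep3 x.1 (axis b x.2 a), ?_⟩, fun l => ?_,
    fun l => ?_⟩⟩
  · refine continuous_pi fun a => ?_
    have h2 : Continuous fun x : I × Lo y₀ => axis b x.2 a :=
      (continuous_apply a).comp ((axis b).continuous.comp continuous_snd)
    exact Lo.continuous_rep3.comp (continuous_fst.prodMk h2)
  · funext a; simp
  · exact (toLo_tht b l).symm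

end Vale.Agent.P263.G2
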