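import Mathlib.LinearAlgebra.Dual.Lemmas
import Vale.Agent.P263.G2.Chains

/-!
# P263, block G2: field duality between chains and function cochains of simplicial sets

For a field `k` and a simplicial map `f : X → Y`:
`HInj k f p` (`f_*` injective on `H_p`), `HSurj k f p` (`f_*` surjective on `H_p`), elementwise;
`hInj_iff : HInj k f p ↔ Surjective (f.pull.mapH p)`, `hSurj_iff : HSurj k f p ↔ Injective (…)`.
-/

open Vale.Agent.P263.S Vale.Agent.P263.E

namespace Vale.Agent.P263.G2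

variable {k : Type} [Field k]

/-- the cochain of a linear form on chains -/
noncomputable def ofLin {X : SS} {p : ℕ} (l : Chn k X p →ₗ[k] k) : (SS.F k X).obj p :=
  fun x => l (Finsupp.single x 1)

theorem ev_ofLin {X : SS} {p : ℕ} (l : Chn k X p →ₗ[k] k) (z : Chn k X p) :
    ev (ofLin l) z = l z := by
  have : ev (ofLin l) = l := by
    apply chn_hom_ext
    intro x
    rw [ev_single, one_mul]
    rfl
  rw [this]

theorem cochain_ext {X : SS} {p : ℕ} {c e : (SS.F k X).obj p}
    (h : ∀ z : Chn k X p, ev c z = ev e z) : c = e := by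
  funext x
  have := h (Finsupp.single x 1)
  rwa [ev_single, ev_single, one_mul, one_mul] at this

theorem mem_Z_iff {X : SS} {p : ℕ} {c : (SS.F k X).obj p} :
    c ∈ (SS.F k X).Z p ↔ ∀ w : Chn k X (p + 1), ev c (cb k X p w) = 0 := by
  rw [CosMod.mem_Z]
  constructor
  · intro h w
    rw [ev_cb, h, ev_zero]
  · intro h
    apply cochain_ext
    intro w
    rw [← ev_cb, h, ev_zero]

/-- a linear form which kills the kernel of a linear map factors through it -/
theorem exists_factor {V W : Type*} [AddCommGroup V] [Module k V] [AddCommGroup W] [Module k W]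
    (j : V →ₗ[k] W) (l : V →ₗ[k] k) (h : ∀ v, j v = 0 → l v = 0) :
    ∃ m : W →ₗ[k] k, ∀ v, m (j v) = l v := by
  have h1 : l ∈ (LinearMap.ker j).dualAnnihilator := by
    rw [Submodule.mem_dualAnnihilator]
    exact fun v hv => h v hv
  rw [← LinearMap.range_dualMap_eq_dualAnnihilator_ker] at h1
  obtain ⟨m, hm⟩ := h1
  exact ⟨m, fun v => by rw [← hm]; rfl⟩

/-- a linear form vanishing on a subspace but not at a given vector -/
theorem exists_separating {V : Type*} [AddCommGroup V] [Module k V] (S : Subspace k V) {v : V}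
    (hv : v ∉ S) : ∃ l : V →ₗ[k] k, (∀ s ∈ S, l s = 0) ∧ l v ≠ 0 := by
  by_contra hcon
  push Not at hcon
  apply hv
  rw [← Subspace.forall_mem_dualAnnihilator_apply_eq_zero_iff]
  intro l hl
  exact hcon l fun s hs => (Submodule.mem_dualAnnihilator l).1 hl s hs

/-- **a cochain which kills all cycles is a coboundary** -/
theorem mem_Bd_iff {X : SS} {p : ℕ} {c : (SS.F k X).obj p} :
    c ∈ (SS.F k X).Bd p ↔ ∀ z : Chn k X p, IsCyc p z → ev c z = 0 := by
  cases p with
  | zero =>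
    rw [CosMod.mem_Bd_zero]
    constructor
    · rintro rfl z _
      exact ev_zero z
    · intro h
      apply cochain_ext
      intro z
      rw [h z trivial, ev_zero]
  | succ p =>
    rw [CosMod.mem_Bd_succ]
    constructor
    · rintro ⟨e, rfl⟩ z hz
      rw [← ev_cb, isCyc_succ.1 hz, map_zero]
    · intro h
      obtain ⟨m, hm⟩ := exists_factor (cb k X p) (ev c) fun z hz => h z hz
      refine ⟨ofLin m, cochain_ext fun z => ?_⟩
      rw [← ev_cb, ev_ofLin, hm]

/-- `f_*` is injective on `H_p` -/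
def HInj (k : Type) [CommRing k] {X Y : SS} (f : SS.Map X Y) (p : ℕ) : Prop :=
  ∀ z : Chn k X p, IsCyc p z → IsBd (push k f p z) → IsBd z

/-- `f_*` is surjective on `H_p` -/
def HSurj (k : Type) [CommRing k] {X Y : SS} (f : SS.Map X Y) (p : ℕ) : Prop :=
  ∀ w : Chn k Y p, IsCyc p w → ∃ z : Chn k X p, IsCyc p z ∧ IsBd (w - push k f p z)

/-- pull-back is injective on `H^p`, elementwise -/
def CInj (k : Type) [CommRing k] {X Y : SS} (f : SS.Map X Y) (p : ℕ) : Prop :=
  ∀ c ∈ (SS.F k Y).Z p, (f.pull (R := k)).app p c ∈ (SS.F k X).Bd p → c ∈ (SS.F k Y).Bd p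

/-- pull-back is surjective on `H^p`, elementwise -/
def CSurj (k : Type) [CommRing k] {X Y : SS} (f : SS.Map X Y) (p : ℕ) : Prop :=
  ∀ c ∈ (SS.F k X).Z p, ∃ e ∈ (SS.F k Y).Z p,
    c - (f.pull (R := k)).app p e ∈ (SS.F k X).Bd p

theorem cInj_iff_mapH {k : Type} [CommRing k] {X Y : SS} (f : SS.Map X Y) (p : ℕ) :
    CInj k f p ↔ Function.Injective ((f.pull (R := k)).mapH p) := by
  constructor
  · intro h
    rw [injective_iff_map_eq_zero]
    intro z hz
    obtain ⟨⟨y, hy⟩, rfl⟩ := (SS.F k Y).cls_surjective p z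
    rw [Hom.mapH_cls, CosMod.cls_eq_zero_iff] at hz
    rw [CosMod.cls_eq_zero_iff]
    exact h y hy hz
  · intro h c hc hcb
    have := h (a₁ := (SS.F k Y).cls p ⟨c, hc⟩) (a₂ := 0) (by
      rw [Hom.mapH_cls, map_zero, CosMod.cls_eq_zero_iff]
      exact hcb)
    exact CosMod.cls_eq_zero_iff.1 this

theorem cSurj_iff_mapH {k : Type} [CommRing k] {X Y : SS} (f : SS.Map X Y) (p : ℕ) :
    CSurj k f p ↔ Function.Surjective ((f.pull (R := k)).mapH p) := by
  constructor
  · intro h z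
    obtain ⟨⟨c, hc⟩, rfl⟩ := (SS.F k X).cls_surjective p z
    obtain ⟨e, he, h'⟩ := h c hc
    refine ⟨(SS.F k Y).cls p ⟨e, he⟩, ?_⟩
    rw [Hom.mapH_cls]
    exact (CosMod.cls_eq_iff.2 h').symm
  · intro h c hc
    obtain ⟨z, hz⟩ := h ((SS.F k X).cls p ⟨c, hc⟩)
    obtain ⟨⟨y, hy⟩, rfl⟩ := (SS.F k Y).cls_surjective p z
    refine ⟨y, hy, ?_⟩
    rw [Hom.mapH_cls] at hz
    exact CosMod.cls_eq_iff.1 hz.symm

variable {X Y : SS} {f : SS.Map X Y} {p : ℕ}

/-- `f_*` surjective on `H_p` implies `f^*` injective on `H^p` -/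
theorem HSurj.cInj (h : HSurj k f p) : CInj k f p := by
  intro c hc hcb
  rw [mem_Bd_iff] at hcb ⊢
  rw [mem_Z_iff] at hc
  intro w hw
  obtain ⟨z, hz, u, hu⟩ := h w hw
  have e : w = cb k Y p u + push k f p z := by rw [hu, sub_add_cancel]
  rw [e, map_add, hc, zero_add, ev_push]
  exact hcb z hz

/-- `f_*` injective on `H_p` implies `f^*` surjective on `H^p` -/
theorem HInj.cSurj (h : HInj k f p) : CSurj k f p := by
  intro c hc
  rw [mem_Z_iff] at hc
  -- the form on cycles
  let j : cyc k X p →ₗ[k] (Chn k Y p ⧸ bds k Y p) :=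
    (bds k Y p).mkQ.comp ((push k f p).comp (cyc k X p).subtype)
  have hfac : ∀ v : cyc k X p, j v = 0 → ((ev c).comp (cyc k X p).subtype) v = 0 := by
    rintro ⟨z, hz⟩ hj
    have h1 : IsBd (push k f p z) := by
      have : (Submodule.Quotient.mk (push k f p z) : Chn k Y p ⧸ bds k Y p) = 0 := hj
      rw [Submodule.Quotient.mk_eq_zero] at this
      exact this
    obtain ⟨w, rfl⟩ := h z hz h1
    exact hc w
  obtain ⟨m, hm⟩ := exists_factor (k := k) (V := cyc k X p) (W := Chn k Y p ⧸ bds k Y p) j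
    ((ev c).comp (cyc k X p).subtype) hfac
  refine ⟨ofLin (m.comp (bds k Y p).mkQ), ?_, ?_⟩
  · rw [mem_Z_iff]
    intro w
    rw [ev_ofLin, LinearMap.comp_apply]
    have : (bds k Y p).mkQ (cb k Y p w) = 0 := by
      rw [Submodule.mkQ_apply, Submodule.Quotient.mk_eq_zero]
      exact ⟨w, rfl⟩
    rw [this, map_zero]
  · rw [mem_Bd_iff]
    intro z hz
    rw [ev_sub, ← ev_push, ev_ofLin, sub_eq_zero]
    exact (hm ⟨z, hz⟩).symm

/-- `f^*` surjective on `H^p` implies `f_*` injective on `H_p` -/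
theorem CSurj.hInj (h : CSurj k f p) : HInj k f p := by
  intro z hz hb
  by_contra hcon
  obtain ⟨l, hl, hlz⟩ := exists_separating (bds k X p) (v := z) hcon
  have hc : ofLin l ∈ (SS.F k X).Z p := by
    rw [mem_Z_iff]
    intro w
    rw [ev_ofLin]
    exact hl _ ⟨w, rfl⟩
  obtain ⟨e, he, hd⟩ := h _ hc
  rw [mem_Bd_iff] at hd
  have h1 := hd z hz
  rw [ev_sub, ev_ofLin, ← ev_push] at h1
  obtain ⟨w, hw⟩ := hb
  rw [← hw, mem_Z_iff.1 he, sub_zero] at h1
  exact hlz h1

/-- `f^*` injective on `H^p` implies `f_*` surjective on `H_p` -/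
theorem CInj.hSurj (h : CInj k f p) : HSurj k f p := by
  intro w hw
  by_contra hcon
  have hw' : w ∉ (cyc k X p).map (push k f p) ⊔ bds k Y p := by
    intro hmem
    obtain ⟨a, ⟨z, hz, rfl⟩, b, hb, hab⟩ := Submodule.mem_sup.1 hmem
    apply hcon
    refine ⟨z, hz, ?_⟩
    rw [← hab, add_sub_cancel_left]
    exact hb
  obtain ⟨l, hl, hlw⟩ := exists_separating _ hw'
  have hc : ofLin l ∈ (SS.F k Y).Z p := by
    rw [mem_Z_iff]
    intro u
    rw [ev_ofLin]
    exact hl _ (Submodule.mem_sup_right ⟨u, rfl⟩)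
  have hb : (f.pull (R := k)).app p (ofLin l) ∈ (SS.F k X).Bd p := by
    rw [mem_Bd_iff]
    intro z hz
    rw [← ev_push, ev_ofLin]
    exact hl _ (Submodule.mem_sup_left ⟨z, hz, rfl⟩)
  have := mem_Bd_iff.1 (h _ hc hb) w hw
  rw [ev_ofLin] at this
  exact hlw this

theorem hInj_iff : HInj k f p ↔ Function.Surjective ((f.pull (R := k)).mapH p) :=
  ⟨fun h => (cSurj_iff_mapH f p).1 h.cSurj, fun h => ((cSurj_iff_mapH f p).2 h).hInj⟩

theorem hSurj_iff : HSurj k f p ↔ Function.Injective ((f.pull (R := k)).mapH p) :=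
  ⟨fun h => (cInj_iff_mapH f p).1 h.cInj, fun h => ((cInj_iff_mapH f p).2 h).hSurj⟩

/-- acyclic chains give acyclic cochains, positive degrees -/
theorem Acyc.coc (h : Acyc k X (p + 1)) : (SS.F k X).Z (p + 1) ≤ (SS.F k X).Bd (p + 1) := by
  intro c hc
  rw [mem_Bd_iff]
  intro z hz
  obtain ⟨w, rfl⟩ := h z hz fun h => absurd h (Nat.succ_ne_zero _)
  exact mem_Z_iff.1 hc w

/-- acyclic chains give acyclic cochains, degree `0`: cocycles are constant -/
theorem Acyc.coc_zero (h : Acyc k X 0) {c : (SS.F k X).obj 0} (hc : c ∈ (SS.F k X).Z 0)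
    (x y : X.obj 0) : c x = c y := by
  obtain ⟨w, hw⟩ := h (Finsupp.single x 1 - Finsupp.single y 1) trivial fun _ => by
    rw [map_sub, aug_single, aug_single, sub_self]
  have := mem_Z_iff.1 hc w
  rw [hw, map_sub, ev_single, ev_single, one_mul, one_mul, sub_eq_zero] at this
  exact this

/-- a map to an acyclic object from an acyclic nonempty object is an isomorphism on homology -/
theorem Acyc.hInj {k : Type} [CommRing k] {X Y : SS} {p : ℕ} (f : SS.Map X Y)
    (hX : ∀ p, Acyc k X p) : HInj k f p := by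
  intro z hz hb
  refine hX p z hz fun hp => ?_
  subst hp
  obtain ⟨w, hw⟩ := hb
  rw [← aug_push f, ← hw]
  exact aug_cb w

theorem Acyc.hSurj {k : Type} [CommRing k] {X Y : SS} {p : ℕ} (f : SS.Map X Y)
    (hY : ∀ p, Acyc k Y p) (x : X.obj 0) : HSurj k f p := by
  intro w hw
  cases p with
  | zero =>
    refine ⟨Finsupp.single x (aug k Y 0 w), trivial, hY 0 _ trivial fun _ => ?_⟩
    rw [map_sub, aug_push, aug_single, sub_self]
  | succ p =>
    refine ⟨0, IsCyc.zero _, ?_⟩
    rw [map_zero, sub_zero]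
    exact hY (p + 1) w hw fun h => absurd h (Nat.succ_ne_zero _)

end Vale.Agent.P263.G2
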