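import Vale.Agent.P263.G2.PK

/-!
# Whiskered simplices are powers of the loop space

`PK (Fin (k + 1)) y₀ ≃ PE k y₀ ≃ (Fin k → Lo y₀)`.
-/

open unitInterval Topology

namespace Vale.Agent.P263.G2

universe u v w

section tri

variable {Y : Type u} [TopologicalSpace Y] {y₀ : Y}

/-- `p` on `[-1, 0]`, then `e` on `[0, 1]`, then the reverse of `q` on `[1, 2]` -/
noncomputable def tri (p e q : C(I, Y)) (x : ℝ) : Y :=
  if x ≤ 0 then p (Set.projIcc 0 1 zero_le_one (1 + x))
  else if x ≤ 1 then e (Set.projIcc 0 1 zero_le_one x)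
  else q (Set.projIcc 0 1 zero_le_one (2 - x))

lemma continuous_tri {T : Type*} [TopologicalSpace T] {p e q : T → C(I, Y)} {x : T → ℝ}
    (hp : Continuous p) (he : Continuous e) (hq : Continuous q) (hx : Continuous x)
    (h0 : ∀ t, p t 1 = e t 0) (h1 : ∀ t, e t 1 = q t 1) :
    Continuous fun t => tri (p t) (e t) (q t) (x t) := by
  unfold tri
  have h1' : Continuous fun t => Set.projIcc (0 : ℝ) 1 zero_le_one (1 + x t) :=
    continuous_projIcc.comp (continuous_const.add hx)
  have h2' : Continuous fun t => Set.projIcc (0 : ℝ) 1 zero_le_one (x t) :=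
    continuous_projIcc.comp hx
  have h3' : Continuous fun t => Set.projIcc (0 : ℝ) 1 zero_le_one (2 - x t) :=
    continuous_projIcc.comp (continuous_const.sub hx)
  refine Continuous.if_le (by fun_prop) ?_ hx continuous_const ?_
  · refine Continuous.if_le (by fun_prop) (by fun_prop) hx continuous_const ?_
    intro t ht
    rw [ht]
    norm_num
    exact h1 t
  · intro t ht
    rw [ht]
    simp only [zero_le_one, if_true, add_zero, Set.projIcc_left, Set.projIcc_right]
    exact h0 t

lemma tri_of_le (p e q : C(I, Y)) {x : ℝ} (hx : x ≤ 0) :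
    tri p e q x = p (Set.projIcc 0 1 zero_le_one (1 + x)) := by
  rw [tri, if_pos hx]

lemma tri_of_mem (p e q : C(I, Y)) (h0 : p 1 = e 0) {x : ℝ} (hx : 0 ≤ x) (hx' : x ≤ 1) :
    tri p e q x = e (Set.projIcc 0 1 zero_le_one x) := by
  rcases hx.lt_or_eq with hx | rfl
  · rw [tri, if_neg (not_le.2 hx), if_pos hx']
  · rw [tri, if_pos le_rfl, add_zero, Set.projIcc_left, Set.projIcc_right]; exact h0

lemma tri_of_ge (p e q : C(I, Y)) (h1 : e 1 = q 1) {x : ℝ} (hx : 1 ≤ x) :
    tri p e q x = q (Set.projIcc 0 1 zero_le_one (2 - x)) := by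
  rcases hx.lt_or_eq with hx | rfl
  · rw [tri, if_neg (by linarith), if_neg (not_le.2 hx)]
  · rw [tri, if_neg (by norm_num), if_pos le_rfl, Set.projIcc_right,
      show (2 : ℝ) - 1 = 1 by norm_num, Set.projIcc_right]; exact h1

lemma tri_coe (p e q : C(I, Y)) (h0 : p 1 = e 0) (s : I) : tri p e q s = e s := by
  rw [tri_of_mem p e q h0 s.2.1 s.2.2, Set.projIcc_val]

end tri

/-- whiskers and edges -/
def PE (k : ℕ) {Y : Type u} [TopologicalSpace Y] (y₀ : Y) : Type u :=
  {x : (Fin (k + 1) → C(I, Y)) × (Fin k → C(I, Y)) //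
    (∀ a, x.1 a 0 = y₀) ∧ ∀ a : Fin k, x.1 a.castSucc 1 = x.2 a 0 ∧ x.2 a 1 = x.1 a.succ 1}

variable {k : ℕ} {Y : Type u} [TopologicalSpace Y] {y₀ : Y}

instance : TopologicalSpace (PE k y₀) := instTopologicalSpaceSubtype

lemma PE.ext {x y : PE k y₀} (h : ∀ a s, x.1.1 a s = y.1.1 a s)
    (h' : ∀ a s, x.1.2 a s = y.1.2 a s) : x = y :=
  Subtype.ext (Prod.ext (funext fun a => ContinuousMap.ext (h a))
    (funext fun a => ContinuousMap.ext (h' a)))

lemma PE.continuous_mk {T : Type*} [TopologicalSpace T] (f : T → PE k y₀)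
    (h : ∀ a, Continuous fun x : T × I => (f x.1).1.1 a x.2)
    (h' : ∀ a, Continuous fun x : T × I => (f x.1).1.2 a x.2) : Continuous f := by
  refine Continuous.subtype_mk (f := fun t => (f t).1) ?_ (fun t => (f t).2)
  refine Continuous.prodMk (f := fun t => (f t).1.1) (g := fun t => (f t).1.2)
    (continuous_pi fun a => ContinuousMap.continuous_of_continuous_uncurry _ (h a))
    (continuous_pi fun a => ContinuousMap.continuous_of_continuous_uncurry _ (h' a))

lemma PE.continuous_wh (a : Fin (k + 1)) : Continuous fun x : PE k y₀ => x.1.1 a :=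
  (continuous_apply a).comp (continuous_fst.comp continuous_subtype_val)

lemma PE.continuous_ed (a : Fin k) : Continuous fun x : PE k y₀ => x.1.2 a :=
  (continuous_apply a).comp (continuous_snd.comp continuous_subtype_val)

/-- shrinking all the whiskers -/
noncomputable def PE.shr (τ : I) (x : PE k y₀) : PE k y₀ :=
  ⟨(fun a => ⟨fun s => x.1.1 a (σ τ * s), by fun_prop⟩,
    fun a => ⟨fun s => tri (x.1.1 a.castSucc) (x.1.2 a) (x.1.1 a.succ) (-τ + (1 + 2 * τ) * s),
      continuous_tri continuous_const continuous_const continuous_const (by fun_prop)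
        (fun _ => (x.2.2 a).1) (fun _ => (x.2.2 a).2)⟩), by
    refine ⟨fun a => by simp [x.2.1 a], fun a => ⟨?_, ?_⟩⟩
    · simp only [ContinuousMap.coe_mk, mul_one, Set.Icc.coe_zero, mul_zero, add_zero]
      rw [tri_of_le _ _ _ (by linarith [τ.2.1])]
      congr 1
      rw [Set.projIcc_of_mem _ (x := 1 + -(τ : ℝ)) ⟨by linarith [τ.2.2], by linarith [τ.2.1]⟩]
      ext; simp; ring
    · simp only [ContinuousMap.coe_mk, mul_one, Set.Icc.coe_one]
      rw [tri_of_ge _ _ _ (x.2.2 a).2 (by linarith [τ.2.1])]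
      congr 1
      rw [Set.projIcc_of_mem _ (x := 2 - (-(τ : ℝ) + (1 + 2 * τ)))
        ⟨by linarith [τ.2.2], by linarith [τ.2.1]⟩]
      ext; simp; ring⟩

lemma PE.shr_wh (τ : I) (x : PE k y₀) (a : Fin (k + 1)) (s : I) :
    (PE.shr τ x).1.1 a s = x.1.1 a (σ τ * s) := rfl

lemma PE.shr_ed (τ : I) (x : PE k y₀) (a : Fin k) (s : I) :
    (PE.shr τ x).1.2 a s =
      tri (x.1.1 a.castSucc) (x.1.2 a) (x.1.1 a.succ) (-τ + (1 + 2 * τ) * s) := rfl

lemma PE.continuous_shr : Continuous fun x : I × PE k y₀ => PE.shr x.1 x.2 := by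
  refine PE.continuous_mk _ (fun a => ?_) fun a => ?_
  · simp only [PE.shr_wh]
    have := (PE.continuous_wh (y₀ := y₀) a).comp (continuous_snd.comp
      (continuous_fst : Continuous (Prod.fst : (I × PE k y₀) × I → I × PE k y₀)))
    simp only [Function.comp_def] at this
    fun_prop
  · simp only [PE.shr_ed]
    exact continuous_tri ((PE.continuous_wh a.castSucc).comp (continuous_snd.comp continuous_fst))
      ((PE.continuous_ed a).comp (continuous_snd.comp continuous_fst))
      ((PE.continuous_wh a.succ).comp (continuous_snd.comp continuous_fst)) (by fun_prop)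
      (fun x => (x.1.2.2.2 a).1) (fun x => (x.1.2.2.2 a).2)

@[simp] lemma PE.shr_zero (x : PE k y₀) : PE.shr 0 x = x := by
  refine PE.ext (fun a s => by simp [PE.shr_wh]) fun a s => ?_
  rw [PE.shr_ed]
  simp [tri_coe _ _ _ (x.2.2 a).1]

/-- loops from whiskered edges -/
noncomputable def PE.toLo : C(PE k y₀, (Fin k → Lo y₀)) where
  toFun x a := ⟨⟨fun s => tri (x.1.1 a.castSucc) (x.1.2 a) (x.1.1 a.succ) (-1 + 3 * s),
      continuous_tri continuous_const continuous_const continuous_const (by fun_prop)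
        (fun _ => (x.2.2 a).1) (fun _ => (x.2.2 a).2)⟩, by
      simp only [ContinuousMap.coe_mk, Set.Icc.coe_zero, mul_zero, add_zero]
      rw [tri_of_le _ _ _ (by norm_num)]
      norm_num
      exact x.2.1 _, by
      simp only [ContinuousMap.coe_mk, Set.Icc.coe_one]
      rw [tri_of_ge _ _ _ (x.2.2 a).2 (by norm_num)]
      norm_num
      exact x.2.1 _⟩
  continuous_toFun := continuous_pi fun a => Lo.continuous_mk _
    (continuous_tri ((PE.continuous_wh a.castSucc).comp continuous_fst)
      ((PE.continuous_ed a).comp continuous_fst)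
      ((PE.continuous_wh a.succ).comp continuous_fst) (by fun_prop)
      (fun x => (x.1.2.2 a).1) (fun x => (x.1.2.2 a).2))

lemma PE.toLo_apply (x : PE k y₀) (a : Fin k) (s : I) :
    (PE.toLo x a).1 s = tri (x.1.1 a.castSucc) (x.1.2 a) (x.1.1 a.succ) (-1 + 3 * s) := rfl

/-- loops as whiskered edges -/
def PE.ofLo : C((Fin k → Lo y₀), PE k y₀) where
  toFun l := ⟨(fun _ => ContinuousMap.const I y₀, fun a => (l a).1),
    fun _ => rfl, fun a => ⟨(l a).2.1.symm, (l a).2.2⟩⟩
  continuous_toFun := PE.continuous_mk _ (fun _ => continuous_const) fun a =>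
    Lo.continuous_eval ((continuous_apply a).comp continuous_fst) continuous_snd

lemma PE.shr_one (x : PE k y₀) : PE.shr 1 x = PE.ofLo (PE.toLo x) := by
  refine PE.ext (fun a s => ?_) fun a s => ?_
  · rw [PE.shr_wh]
    simp only [unitInterval.symm_one, zero_mul]
    exact x.2.1 a
  · rw [PE.shr_ed]
    change _ = (PE.toLo x a).1 s
    rw [PE.toLo_apply]
    norm_num

/-- reparametrisation of a loop by constant paths on both sides -/
noncomputable def Lo.rep3 (τ : I) (l : Lo y₀) : Lo y₀ :=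
  ⟨⟨fun s => tri (ContinuousMap.const I y₀) l.1 (ContinuousMap.const I y₀) (-τ + (1 + 2 * τ) * s),
      continuous_tri continuous_const continuous_const continuous_const (by fun_prop)
        (fun _ => l.2.1.symm) (fun _ => l.2.2)⟩, by
      simp only [ContinuousMap.coe_mk, Set.Icc.coe_zero, mul_zero, add_zero]
      rw [tri_of_le _ _ _ (by linarith [τ.2.1])]; rfl, by
      simp only [ContinuousMap.coe_mk, Set.Icc.coe_one, mul_one]
      rw [tri_of_ge _ _ _ l.2.2 (by linarith [τ.2.1])]; rfl⟩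

lemma Lo.rep3_apply (τ : I) (l : Lo y₀) (s : I) : (Lo.rep3 τ l).1 s =
    tri (ContinuousMap.const I y₀) l.1 (ContinuousMap.const I y₀) (-τ + (1 + 2 * τ) * s) := rfl

lemma Lo.continuous_rep3 : Continuous fun x : I × Lo y₀ => Lo.rep3 x.1 x.2 :=
  Lo.continuous_mk _ (continuous_tri continuous_const
    (Lo.continuous_val.comp (continuous_snd.comp continuous_fst)) continuous_const (by fun_prop)
    (fun x => x.1.2.2.1.symm) (fun x => x.1.2.2.2))

@[simp] lemma Lo.rep3_zero (l : Lo y₀) : Lo.rep3 0 l = l := by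
  refine Lo.ext fun s => ?_
  rw [Lo.rep3_apply]
  simp [tri_coe (ContinuousMap.const I y₀) l.1 (ContinuousMap.const I y₀) l.2.1.symm]

lemma PE.toLo_ofLo (l : Fin k → Lo y₀) : PE.toLo (PE.ofLo l) = fun a => Lo.rep3 1 (l a) := by
  funext a
  refine Lo.ext fun s => ?_
  rw [PE.toLo_apply, Lo.rep3_apply]
  norm_num
  rfl

/-- whiskered edges are a power of the loop space -/
noncomputable def PE.homotopyEquiv :
    ContinuousMap.HomotopyEquiv (PE k y₀) (Fin k → Lo y₀) where
  toFun := PE.toLo
  invFun := PE.ofLo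
  left_inv := by
    refine ContinuousMap.Homotopic.symm ⟨⟨⟨fun x => PE.shr x.1 x.2, PE.continuous_shr⟩,
      fun p => ?_, fun p => ?_⟩⟩
    · simp
    · exact PE.shr_one p
  right_inv := by
    refine ContinuousMap.Homotopic.symm ⟨⟨⟨fun x a => Lo.rep3 x.1 (x.2 a), ?_⟩, fun g => ?_,
      fun g => ?_⟩⟩
    · refine continuous_pi fun a => ?_
      have h2 : Continuous fun x : I × (Fin k → Lo y₀) => x.2 a :=
        (continuous_apply a).comp continuous_snd
      exact Lo.continuous_rep3.comp (continuous_fst.prodMk h2)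
    · funext a; simp
    · exact (PE.toLo_ofLo g).symm

/-! ### the spine of the simplex -/

/-- the height of a point of the simplex -/
noncomputable def hgt (t : stdSimplex ℝ (Fin (k + 1))) : ℝ := ∑ i, t i * ((i : ℕ) : ℝ)

lemma hgt_nonneg (t : stdSimplex ℝ (Fin (k + 1))) : 0 ≤ hgt t :=
  Finset.sum_nonneg fun i _ => mul_nonneg (stdSimplex.zero_le t i) (Nat.cast_nonneg _)

lemma hgt_le (t : stdSimplex ℝ (Fin (k + 1))) : hgt t ≤ k := by
  calc hgt t ≤ ∑ i, t i * (k : ℝ) := Finset.sum_le_sum fun i _ =>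
        mul_le_mul_of_nonneg_left (by exact_mod_cast Nat.lt_succ_iff.1 i.2) (stdSimplex.zero_le t i)
    _ = k := by rw [← Finset.sum_mul, stdSimplex.sum_eq_one, one_mul]

lemma continuous_hgt : Continuous (hgt (k := k)) := by
  unfold hgt
  refine continuous_finsetSum _ fun i _ => ?_
  exact ((continuous_apply i).comp continuous_subtype_val).mul continuous_const

lemma tent_zero {u : ℝ} {a i : ℕ} (h0 : (a : ℝ) ≤ u) (h1 : u ≤ a + 1) (h2 : i ≠ a)
    (h3 : i ≠ a + 1) : max 0 (1 - |u - (i : ℝ)|) = 0 := by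
  refine max_eq_left ?_
  rcases lt_or_ge i a with h | h
  · have : (i : ℝ) + 1 ≤ a := by exact_mod_cast h
    have := le_abs_self (u - (i : ℝ))
    linarith
  · have : (a : ℝ) + 2 ≤ i := by
      have : a + 2 ≤ i := by omega
      exact_mod_cast this
    have := neg_le_abs (u - (i : ℝ))
    linarith

lemma tent_left {u : ℝ} {a : ℕ} (h0 : (a : ℝ) ≤ u) (h1 : u ≤ a + 1) :
    max 0 (1 - |u - (a : ℝ)|) = 1 - (u - a) := by
  rw [abs_of_nonneg (by linarith), max_eq_right (by linarith)]

lemma tent_right {u : ℝ} {a : ℕ} (h0 : (a : ℝ) ≤ u) (h1 : u ≤ a + 1) :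
    max 0 (1 - |u - ((a + 1 : ℕ) : ℝ)|) = u - a := by
  push_cast
  rw [abs_of_nonpos (by linarith), max_eq_right (by linarith)]
  ring

/-- the edge from vertex `a` to vertex `a + 1` -/
noncomputable def edge (a : Fin k) (x : I) : stdSimplex ℝ (Fin (k + 1)) :=
  ⟨fun i => if i = a.castSucc then 1 - (x : ℝ) else if i = a.succ then x else 0, by
    intro i
    dsimp only
    split_ifs
    · linarith [x.2.2]
    · exact x.2.1
    · exact le_rfl, by
    rw [Finset.sum_ite, Finset.sum_ite]
    simp only [Finset.sum_const, Finset.filter_filter]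
    have h1 : (Finset.univ.filter fun i : Fin (k + 1) => i = a.castSucc) = {a.castSucc} := by
      ext; simp
    have h2 : (Finset.univ.filter fun i : Fin (k + 1) => ¬ i = a.castSucc ∧ i = a.succ)
        = {a.succ} := by
      ext i
      simp only [Finset.mem_filter, Finset.mem_univ, true_and, Finset.mem_singleton]
      constructor
      · exact fun h => h.2
      · rintro rfl
        exact ⟨(Fin.castSucc_lt_succ (i := a)).ne', rfl⟩
    rw [h1, h2]
    simp⟩

lemma edge_apply (a : Fin k) (x : I) (i : Fin (k + 1)) : edge a x i =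
    if i = a.castSucc then 1 - (x : ℝ) else if i = a.succ then x else 0 := rfl

lemma continuous_edge (a : Fin k) : Continuous (edge a) := by
  refine Continuous.subtype_mk (continuous_pi fun i => ?_) _
  split_ifs <;> fun_prop

@[simp] lemma edge_zero (a : Fin k) : edge a 0 = stdSimplex.vertex a.castSucc := by
  ext i
  rw [edge_apply, stdSimplex.vertex_coe, Pi.single_apply]
  simp

@[simp] lemma edge_one (a : Fin k) : edge a 1 = stdSimplex.vertex a.succ := by
  ext i
  rw [edge_apply, stdSimplex.vertex_coe, Pi.single_apply]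
  by_cases h : i = a.castSucc
  · subst h
    simp [(Fin.castSucc_lt_succ (i := a)).ne]
  · simp [h]

lemma hgt_edge (a : Fin k) (x : I) : hgt (edge a x) = a + x := by
  unfold hgt
  rw [Fintype.sum_eq_add a.castSucc a.succ (Fin.castSucc_lt_succ (i := a)).ne]
  · rw [edge_apply, edge_apply, if_pos rfl, if_neg (Fin.castSucc_lt_succ (i := a)).ne', if_pos rfl]
    simp
    ring
  · intro i hi
    rw [edge_apply, if_neg hi.1, if_neg hi.2, zero_mul]

@[simp] lemma hgt_vertex (a : Fin (k + 1)) : hgt (stdSimplex.vertex (S := ℝ) a) = a := by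
  unfold hgt
  simp [stdSimplex.vertex_coe, Pi.single_apply]

lemma exists_edge {u : ℝ} (h0 : 0 ≤ u) (h1 : u ≤ k) :
    (∃ a : Fin k, (a : ℝ) ≤ u ∧ u ≤ a + 1) ∨ u = k := by
  by_cases h : ⌊u⌋₊ < k
  · exact Or.inl ⟨⟨⌊u⌋₊, h⟩, Nat.floor_le h0, (Nat.lt_floor_add_one u).le⟩
  · exact Or.inr (le_antisymm h1 (le_trans (by exact_mod_cast not_lt.1 h) (Nat.floor_le h0)))

lemma tent_edge {u : ℝ} (a : Fin k) (h0 : (a : ℝ) ≤ u) (h1 : u ≤ a + 1) (i : Fin (k + 1)) :
    max 0 (1 - |u - ((i : ℕ) : ℝ)|) = edge a ⟨u - a, by linarith, by linarith⟩ i := by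
  rw [edge_apply]
  by_cases ha : i = a.castSucc
  · subst ha
    rw [if_pos rfl]
    exact tent_left h0 h1
  · rw [if_neg ha]
    by_cases hb : i = a.succ
    · subst hb
      rw [if_pos rfl]
      exact tent_right h0 h1
    · rw [if_neg hb]
      exact tent_zero h0 h1 (fun h => ha (Fin.ext h)) fun h => hb (Fin.ext h)

lemma tent_last (i : Fin (k + 1)) :
    max 0 (1 - |(k : ℝ) - ((i : ℕ) : ℝ)|) = stdSimplex.vertex (S := ℝ) (Fin.last k) i := by
  rw [stdSimplex.vertex_coe, Pi.single_apply]
  split_ifs with h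
  · subst h; simp
  · refine max_eq_left ?_
    have h2 : (i : ℕ) < k := lt_of_le_of_ne (Nat.lt_succ_iff.1 i.2) fun h3 => h (Fin.ext h3)
    have h3 : ((i : ℕ) : ℝ) + 1 ≤ k := by exact_mod_cast h2
    have := le_abs_self ((k : ℝ) - ((i : ℕ) : ℝ))
    linarith

/-- the retraction to the spine -/
noncomputable def spine (t : stdSimplex ℝ (Fin (k + 1))) : stdSimplex ℝ (Fin (k + 1)) :=
  ⟨fun i => max 0 (1 - |hgt t - ((i : ℕ) : ℝ)|), fun i => le_max_left _ _, by
    rcases exists_edge (hgt_nonneg t) (hgt_le t) with ⟨a, h0, h1⟩ | h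
    · rw [Finset.sum_congr rfl fun i _ => tent_edge a h0 h1 i]
      exact stdSimplex.sum_eq_one _
    · rw [h, Finset.sum_congr rfl fun i _ => tent_last i]
      exact stdSimplex.sum_eq_one _⟩

lemma spine_apply (t : stdSimplex ℝ (Fin (k + 1))) (i : Fin (k + 1)) :
    spine t i = max 0 (1 - |hgt t - ((i : ℕ) : ℝ)|) := rfl

lemma spine_of_mem (t : stdSimplex ℝ (Fin (k + 1))) (a : Fin k) (h0 : (a : ℝ) ≤ hgt t)
    (h1 : hgt t ≤ a + 1) : spine t = edge a ⟨hgt t - a, by linarith, by linarith⟩ := by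
  ext i
  rw [spine_apply]
  exact tent_edge a h0 h1 i

lemma spine_of_eq (t : stdSimplex ℝ (Fin (k + 1))) (h : hgt t = k) :
    spine t = stdSimplex.vertex (Fin.last k) := by
  ext i
  rw [spine_apply, h]
  exact tent_last i

lemma continuous_spine : Continuous (spine (k := k)) := by
  refine Continuous.subtype_mk (continuous_pi fun i => ?_) _
  have := continuous_hgt (k := k)
  fun_prop

@[simp] lemma spine_vertex (a : Fin (k + 1)) :
    spine (stdSimplex.vertex (S := ℝ) a) = stdSimplex.vertex a := by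
  ext i
  rw [spine_apply, hgt_vertex, stdSimplex.vertex_coe, Pi.single_apply]
  split_ifs with h
  · subst h; simp
  · refine max_eq_left ?_
    have h1 : (i : ℕ) ≠ a := fun h2 => h (Fin.ext h2)
    have : (1 : ℝ) ≤ |((a : ℕ) : ℝ) - ((i : ℕ) : ℝ)| := by
      have h2 : (1 : ℤ) ≤ |((a : ℕ) : ℤ) - ((i : ℕ) : ℤ)| :=
        Int.one_le_abs (sub_ne_zero.2 (by exact_mod_cast h1.symm))
      exact_mod_cast h2
    linarith

/-- the straight line homotopy from the identity to the retraction to the spine -/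
noncomputable def sline (τ : I) (t : stdSimplex ℝ (Fin (k + 1))) : stdSimplex ℝ (Fin (k + 1)) :=
  ⟨fun i => (1 - τ) * t i + τ * spine t i, fun i =>
    add_nonneg (mul_nonneg (by linarith [τ.2.2]) (stdSimplex.zero_le t i))
      (mul_nonneg τ.2.1 (stdSimplex.zero_le (spine t) i)), by
    rw [Finset.sum_add_distrib, ← Finset.mul_sum, ← Finset.mul_sum, stdSimplex.sum_eq_one,
      stdSimplex.sum_eq_one]
    ring⟩

lemma sline_apply (τ : I) (t : stdSimplex ℝ (Fin (k + 1))) (i : Fin (k + 1)) :
    sline τ t i = (1 - τ) * t i + τ * spine t i := rfl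

lemma continuous_sline :
    Continuous fun x : I × stdSimplex ℝ (Fin (k + 1)) => sline x.1 x.2 := by
  refine Continuous.subtype_mk (continuous_pi fun i => ?_) _
  have h1 : Continuous fun x : I × stdSimplex ℝ (Fin (k + 1)) => x.2 i :=
    (continuous_apply i).comp (continuous_subtype_val.comp continuous_snd)
  have h2 : Continuous fun x : I × stdSimplex ℝ (Fin (k + 1)) => spine x.2 i :=
    (continuous_apply i).comp (continuous_subtype_val.comp (continuous_spine.comp continuous_snd))
  fun_prop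

@[simp] lemma sline_zero (t : stdSimplex ℝ (Fin (k + 1))) : sline 0 t = t := by
  ext i; rw [sline_apply]; simp

@[simp] lemma sline_one (t : stdSimplex ℝ (Fin (k + 1))) : sline 1 t = spine t := by
  ext i; rw [sline_apply]; simp

@[simp] lemma sline_vertex (τ : I) (a : Fin (k + 1)) :
    sline τ (stdSimplex.vertex (S := ℝ) a) = stdSimplex.vertex a := by
  ext i; rw [sline_apply, spine_vertex]; ring

/-! ### restriction to the edges and gluing -/

/-- restriction to the edges -/
noncomputable def PK.res : C(PK (Fin (k + 1)) y₀, PE k y₀) where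
  toFun x := ⟨(x.1.2, fun a => ⟨fun s => x.1.1 (edge a s), by
      have := continuous_edge (k := k) a; fun_prop⟩), fun a => (x.2 a).1, fun a => ⟨by
      simp [(x.2 a.castSucc).2], by simp [(x.2 a.succ).2]⟩⟩
  continuous_toFun := PE.continuous_mk _
    (fun a => PK.continuous_wh_eval a continuous_fst continuous_snd)
    fun a => PK.continuous_sx_eval (f := fun x : PK (Fin (k + 1)) y₀ × I => x.1)
      (g := fun x : PK (Fin (k + 1)) y₀ × I => edge a x.2) continuous_fst
      ((continuous_edge a).comp continuous_snd)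

@[simp] lemma PK.res_wh (x : PK (Fin (k + 1)) y₀) (a : Fin (k + 1)) :
    (PK.res x).1.1 a = x.1.2 a := rfl

@[simp] lemma PK.res_ed (x : PK (Fin (k + 1)) y₀) (a : Fin k) (s : I) :
    (PK.res x).1.2 a s = x.1.1 (edge a s) := rfl

/-- the value of the glued edges -/
noncomputable def glu (x : PE k y₀) (u : ℝ) : Y :=
  if h : ⌊u⌋₊ < k then x.1.2 ⟨⌊u⌋₊, h⟩ (Set.projIcc 0 1 zero_le_one (u - ⌊u⌋₊))
  else x.1.1 (Fin.last k) 1

lemma glu_of_mem (x : PE k y₀) {u : ℝ} (a : Fin k) (h0 : (a : ℝ) ≤ u) (h1 : u ≤ a + 1) :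
    glu x u = x.1.2 a (Set.projIcc 0 1 zero_le_one (u - a)) := by
  rcases h1.lt_or_eq with h1 | h1
  · have h2 : ⌊u⌋₊ = a := (Nat.floor_eq_iff ((Nat.cast_nonneg _).trans h0)).2 ⟨h0, h1⟩
    have h3 : ⌊u⌋₊ < k := h2 ▸ a.2
    have h4 : (⟨⌊u⌋₊, h3⟩ : Fin k) = a := Fin.ext h2
    rw [glu, dif_pos h3, h4, h2]
  · have h2 : ⌊u⌋₊ = a + 1 := by rw [h1]; exact_mod_cast Nat.floor_natCast ((a : ℕ) + 1)
    have h5 : x.1.2 a (Set.projIcc 0 1 zero_le_one (u - a)) = x.1.1 a.succ 1 := by
      rw [h1, add_sub_cancel_left, Set.projIcc_right]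
      exact (x.2.2 a).2
    rw [h5]
    by_cases h3 : ⌊u⌋₊ < k
    · rw [glu, dif_pos h3]
      have h6 : (⟨⌊u⌋₊, h3⟩ : Fin k).castSucc = a.succ := Fin.ext h2
      have h7 := (x.2.2 ⟨⌊u⌋₊, h3⟩).1
      rw [h6] at h7
      rw [h7]
      have h8 : u - (⌊u⌋₊ : ℝ) = 0 := by
        rw [h2, h1]; push_cast; ring
      rw [h8, Set.projIcc_left]
      rfl
    · rw [glu, dif_neg h3]
      have h6 : a.succ = Fin.last k := by
        refine Fin.ext ?_
        rw [Fin.val_succ, Fin.val_last]
        have := a.2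
        omega
      rw [h6]

lemma glu_of_le (x : PE k y₀) {u : ℝ} (h : (k : ℝ) ≤ u) : glu x u = x.1.1 (Fin.last k) 1 := by
  rw [glu, dif_neg]
  exact not_lt.2 (Nat.le_floor h)

lemma continuous_glu {T : Type*} [TopologicalSpace T] {f : T → PE k y₀} {u : T → ℝ}
    (hf : Continuous f) (hu : Continuous u) (h0 : ∀ t, 0 ≤ u t) :
    Continuous fun t => glu (f t) (u t) := by
  let C : Option (Fin k) → Set T := fun o => o.elim {t | (k : ℝ) ≤ u t}
    fun a => {t | (a : ℝ) ≤ u t ∧ u t ≤ a + 1}
  refine (locallyFinite_of_finite C).continuous ?_ ?_ ?_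
  · refine Set.eq_univ_of_forall fun t => ?_
    by_cases h : (k : ℝ) ≤ u t
    · exact Set.mem_iUnion.2 ⟨none, h⟩
    · rcases exists_edge (h0 t) (not_le.1 h).le with ⟨a, h1⟩ | h1
      · exact Set.mem_iUnion.2 ⟨some a, h1⟩
      · exact absurd h1.ge h
  · rintro (_ | a)
    · exact isClosed_le continuous_const hu
    · exact (isClosed_le continuous_const hu).inter (isClosed_le hu continuous_const)
  · rintro (_ | a)
    · refine ContinuousOn.congr (f := fun t => (f t).1.1 (Fin.last k) 1) ?_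
        fun t ht => glu_of_le _ ht
      have := (PE.continuous_wh (y₀ := y₀) (Fin.last k)).comp hf
      simp only [Function.comp_def] at this
      exact Continuous.continuousOn (by fun_prop)
    · refine ContinuousOn.congr
        (f := fun t => (f t).1.2 a (Set.projIcc 0 1 zero_le_one (u t - a))) ?_
        fun t ht => glu_of_mem _ a ht.1 ht.2
      have := (PE.continuous_ed (y₀ := y₀) a).comp hf
      simp only [Function.comp_def] at this
      have h2 : Continuous fun t => Set.projIcc (0 : ℝ) 1 zero_le_one (u t - a) :=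
        continuous_projIcc.comp (hu.sub continuous_const)
      exact Continuous.continuousOn (by fun_prop)

lemma glu_vertex (x : PE k y₀) (a : Fin (k + 1)) : glu x (a : ℝ) = x.1.1 a 1 := by
  induction a using Fin.lastCases with
  | last => exact glu_of_le x (by simp)
  | cast a =>
    have h := glu_of_mem x (u := ((a.castSucc : Fin (k + 1)) : ℕ)) a (by simp) (by simp)
    rw [h, (x.2.2 a).1]
    simp

/-- gluing the edges along the spine -/
noncomputable def PE.glue : C(PE k y₀, PK (Fin (k + 1)) y₀) where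
  toFun x := ⟨(⟨fun t => glu x (hgt t), continuous_glu continuous_const continuous_hgt
      hgt_nonneg⟩, x.1.1), fun a => ⟨x.2.1 a, by
      simp only [ContinuousMap.coe_mk, hgt_vertex]
      exact (glu_vertex x a).symm⟩⟩
  continuous_toFun := PK.continuous_mk _
    (continuous_glu continuous_fst (continuous_hgt.comp continuous_snd) fun x => hgt_nonneg x.2)
    fun a => by
      have := (PE.continuous_wh (y₀ := y₀) a).comp
        (continuous_fst : Continuous (Prod.fst : PE k y₀ × I → PE k y₀))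
      simp only [Function.comp_def] at this
      change Continuous fun x : PE k y₀ × I => x.1.1.1 a x.2
      fun_prop

@[simp] lemma PE.glue_sx (x : PE k y₀) (t : stdSimplex ℝ (Fin (k + 1))) :
    (PE.glue x).1.1 t = glu x (hgt t) := rfl

@[simp] lemma PE.glue_wh (x : PE k y₀) (a : Fin (k + 1)) : (PE.glue x).1.2 a = x.1.1 a := rfl

lemma PK.res_glue (x : PE k y₀) : PK.res (PE.glue x) = x := by
  refine PE.ext (fun a s => rfl) fun a s => ?_
  rw [PK.res_ed, PE.glue_sx, hgt_edge, glu_of_mem x a (by linarith [s.2.1]) (by linarith [s.2.2])]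
  rw [add_sub_cancel_left, Set.projIcc_val]

lemma PE.glue_res (x : PK (Fin (k + 1)) y₀) (t : stdSimplex ℝ (Fin (k + 1))) :
    (PE.glue (PK.res x)).1.1 t = x.1.1 (spine t) := by
  rw [PE.glue_sx]
  rcases exists_edge (hgt_nonneg t) (hgt_le t) with ⟨a, h0, h1⟩ | h
  · rw [glu_of_mem _ a h0 h1, PK.res_ed, spine_of_mem t a h0 h1,
      Set.projIcc_of_mem _ (x := hgt t - a) ⟨by linarith, by linarith⟩]
  · rw [glu_of_le _ h.ge, spine_of_eq t h, PK.res_wh, (x.2 _).2]

/-- the deformation of whiskered simplices to the spine -/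
noncomputable def PK.defo (τ : I) (x : PK (Fin (k + 1)) y₀) : PK (Fin (k + 1)) y₀ :=
  ⟨(⟨fun t => x.1.1 (sline τ t), by
      have : Continuous (sline (k := k) τ) :=
        continuous_sline.comp (Continuous.prodMk continuous_const continuous_id)
      fun_prop⟩, x.1.2), fun a => ⟨(x.2 a).1, by
      simp only [ContinuousMap.coe_mk, sline_vertex]
      exact (x.2 a).2⟩⟩

lemma PK.continuous_defo :
    Continuous fun x : I × PK (Fin (k + 1)) y₀ => PK.defo x.1 x.2 :=
  PK.continuous_mk _
    (PK.continuous_sx_eval (f := fun x : (I × PK (Fin (k + 1)) y₀) × stdSimplex ℝ (Fin (k + 1)) =>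
        x.1.2)
      (g := fun x : (I × PK (Fin (k + 1)) y₀) × stdSimplex ℝ (Fin (k + 1)) => sline x.1.1 x.2)
      (continuous_snd.comp continuous_fst)
      (continuous_sline.comp ((continuous_fst.comp continuous_fst).prodMk continuous_snd)))
    fun a => by
      change Continuous fun x : (I × PK (Fin (k + 1)) y₀) × I => x.1.2.1.2 a x.2
      exact PK.continuous_wh_eval a (continuous_snd.comp continuous_fst) continuous_snd

/-- whiskered simplices and whiskered edges -/
noncomputable def PK.homotopyEquivPE :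
    ContinuousMap.HomotopyEquiv (PK (Fin (k + 1)) y₀) (PE k y₀) where
  toFun := PK.res
  invFun := PE.glue
  left_inv := by
    refine ContinuousMap.Homotopic.symm ⟨⟨⟨fun x => PK.defo x.1 x.2, PK.continuous_defo⟩,
      fun p => ?_, fun p => ?_⟩⟩
    · exact PK.ext (fun t => congrArg p.1.1 (sline_zero t)) fun a s => rfl
    · refine PK.ext (fun t => ?_) fun a s => rfl
      refine (congrArg p.1.1 (sline_one t)).trans (PE.glue_res p t).symm
  right_inv := by
    have : PK.res.comp PE.glue = ContinuousMap.id (PE k y₀) := by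
      ext x : 1
      exact PK.res_glue x
    rw [this]

/-- (W4): whiskered simplices are homotopy equivalent to a power of the loop space -/
noncomputable def PK.homotopyEquiv :
    ContinuousMap.HomotopyEquiv (PK (Fin (k + 1)) y₀) (Fin k → Lo y₀) :=
  PK.homotopyEquivPE.trans PE.homotopyEquiv

/-- the map of `PK.homotopyEquiv` -/
noncomputable def PK.toLo : C(PK (Fin (k + 1)) y₀, (Fin k → Lo y₀)) := PE.toLo.comp PK.res

lemma PK.homotopyEquiv_toFun : (PK.homotopyEquiv (k := k) (y₀ := y₀)).toFun = PK.toLo := rfl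

lemma PK.toLo_apply (x : PK (Fin (k + 1)) y₀) (a : Fin k) (s : I) :
    (PK.toLo x a).1 s = tri (x.1.2 a.castSucc) ((PK.res x).1.2 a) (x.1.2 a.succ) (-1 + 3 * s) :=
  rfl

/-- for constant whiskers the `a`-th loop is the restriction to the `a`-th edge,
reparametrised -/
lemma PK.toLo_of_const (x : PK (Fin (k + 1)) y₀) (hx : ∀ a s, x.1.2 a s = y₀) (a : Fin k)
    (l : Lo y₀) (hl : ∀ s, x.1.1 (edge a s) = l.1 s) : PK.toLo x a = Lo.rep3 1 l := by
  refine Lo.ext fun s => ?_
  rw [PK.toLo_apply, Lo.rep3_apply]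
  have h1 : ∀ a, x.1.2 a = ContinuousMap.const I y₀ := fun a => by ext s; exact hx a s
  have h2 : (PK.res x).1.2 a = l.1 := by ext s; exact hl s
  rw [h1, h1, h2]
  norm_num

lemma tri_comp {Z : Type v} [TopologicalSpace Z] (φ : C(Y, Z)) (p e q : C(I, Y)) (x : ℝ) :
    tri (φ.comp p) (φ.comp e) (φ.comp q) x = φ (tri p e q x) := by
  unfold tri
  split_ifs <;> rfl

/-- naturality of the loops of a whiskered simplex -/
lemma PK.toLo_map {Z : Type v} [TopologicalSpace Z] {z₀ : Z} (φ : C(Y, Z)) (h : φ y₀ = z₀)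
    (x : PK (Fin (k + 1)) y₀) (a : Fin k) :
    PK.toLo (PK.map φ h x) a = Lo.map φ h (PK.toLo x a) := by
  refine Lo.ext fun s => ?_
  rw [PK.toLo_apply]
  change _ = φ (tri _ _ _ _)
  rw [← tri_comp]
  rfl

end Vale.Agent.P263.G2
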